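import Mathlib

/-!
# Finite conditional averages (switch chain project, S0453)

`cond κ f x` is the average of `f` over the class `{y | κ y = κ x}` (uniform measure on a Fintype).
-/

set_option autoImplicit false

open Finset
open scoped Classical

namespace Crest.Agent.Lib.SW

section Cond

variable {α : Type*} [Fintype α] {K K' K₁ K₂ : Type*}

/-- The ℓ² inner product for the uniform (counting) measure. -/
noncomputable def ip (f g : α → ℝ) : ℝ := ∑ x, f x * g x

/-- The class of `x` under the key `κ`. -/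
noncomputable def fib (κ : α → K) (x : α) : Finset α := univ.filter fun y => κ y = κ x

/-- Conditional average of `f` given the key `κ`. -/
noncomputable def cond (κ : α → K) (f : α → ℝ) (x : α) : ℝ :=
  (∑ y ∈ fib κ x, f y) / ((fib κ x).card : ℝ)

/-- `Q κ f = f - cond κ f`. -/
noncomputable def Qc (κ : α → K) (f : α → ℝ) (x : α) : ℝ := f x - cond κ f x

theorem ip_comm (f g : α → ℝ) : ip f g = ip g f := by
  simp [ip, mul_comm]

theorem ip_add_left (f g h : α → ℝ) : ip (fun x => f x + g x) h = ip f h + ip g h := by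
  simp [ip, add_mul, sum_add_distrib]

theorem ip_add_right (f g h : α → ℝ) : ip h (fun x => f x + g x) = ip h f + ip h g := by
  simp [ip, mul_add, sum_add_distrib]

theorem ip_sub_left (f g h : α → ℝ) : ip (fun x => f x - g x) h = ip f h - ip g h := by
  simp [ip, sub_mul, sum_sub_distrib]

theorem ip_sub_right (f g h : α → ℝ) : ip h (fun x => f x - g x) = ip h f - ip h g := by
  simp [ip, mul_sub, sum_sub_distrib]

theorem ip_smul_left (c : ℝ) (f g : α → ℝ) : ip (fun x => c * f x) g = c * ip f g := by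
  simp [ip, mul_sum, mul_assoc]

theorem ip_smul_right (c : ℝ) (f g : α → ℝ) : ip g (fun x => c * f x) = c * ip g f := by
  simp only [ip, mul_sum]
  exact sum_congr rfl fun x _ => by ring

theorem ip_self_nonneg (f : α → ℝ) : 0 ≤ ip f f :=
  sum_nonneg fun x _ => mul_self_nonneg _

theorem ip_self_eq_zero {f : α → ℝ} (h : ip f f = 0) : f = 0 := by
  funext x
  have h' := (sum_eq_zero_iff_of_nonneg (fun x _ => mul_self_nonneg (f x))).1 h x (mem_univ x)
  simpa using h'

theorem mem_fib {κ : α → K} {x y : α} : y ∈ fib κ x ↔ κ y = κ x := by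
  simp [fib]

theorem self_mem_fib (κ : α → K) (x : α) : x ∈ fib κ x := mem_fib.2 rfl

theorem fib_card_pos (κ : α → K) (x : α) : 0 < (fib κ x).card :=
  card_pos.2 ⟨x, self_mem_fib κ x⟩

theorem fib_eq {κ : α → K} {x y : α} (h : κ x = κ y) : fib κ x = fib κ y := by
  ext z; simp [mem_fib, h]

theorem cond_congr {κ : α → K} {x y : α} (f : α → ℝ) (h : κ x = κ y) : cond κ f x = cond κ f y := by
  simp [cond, fib_eq h]

/-- `cond` of a function that is constant on the class. -/
theorem cond_eq_of_const {κ : α → K} {g : α → ℝ} {x : α} (h : ∀ y, κ y = κ x → g y = g x) :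
    cond κ g x = g x := by
  have hc : ((fib κ x).card : ℝ) ≠ 0 := by exact_mod_cast (fib_card_pos κ x).ne'
  have : ∑ y ∈ fib κ x, g y = ∑ _y ∈ fib κ x, g x :=
    sum_congr rfl fun y hy => h y (mem_fib.1 hy)
  simp only [cond, this, sum_const, nsmul_eq_mul]
  field_simp

theorem cond_cond_self (κ : α → K) (f : α → ℝ) : cond κ (cond κ f) = cond κ f := by
  funext x
  exact cond_eq_of_const fun y hy => cond_congr f hy

/-- Sum over a whole class of a function = card * value of the conditional average. -/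
theorem sum_fib_eq (κ : α → K) (f : α → ℝ) (x : α) :
    ∑ y ∈ fib κ x, f y = ((fib κ x).card : ℝ) * cond κ f x := by
  have hc : ((fib κ x).card : ℝ) ≠ 0 := by exact_mod_cast (fib_card_pos κ x).ne'
  simp only [cond]
  field_simp

/-- Self-adjointness of `cond`. -/
theorem ip_cond_left (κ : α → K) (f g : α → ℝ) : ip (cond κ f) g = ip f (cond κ g) := by
  -- both sides equal the symmetric double sum
  have key : ∀ f g : α → ℝ, ip (cond κ f) g =
      ∑ x, ∑ y, (if κ y = κ x then f y * g x / ((fib κ x).card : ℝ) else 0) := by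
    intro f g
    unfold ip
    refine sum_congr rfl fun x _ => ?_
    have : cond κ f x = (∑ y, if κ y = κ x then f y else 0) / ((fib κ x).card : ℝ) := by
      simp only [cond, fib, sum_filter]
    rw [this, sum_div, sum_mul]
    refine sum_congr rfl fun y _ => ?_
    split_ifs with h
    · ring
    · simp
  rw [key f g, ip_comm f, key g f, sum_comm]
  refine sum_congr rfl fun x _ => sum_congr rfl fun y _ => ?_
  by_cases h : κ x = κ y
  · rw [if_pos h, if_pos h.symm, fib_eq h]
    ring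
  · have h' : ¬ κ y = κ x := fun e => h e.symm
    rw [if_neg h, if_neg h']

theorem ip_cond_right (κ : α → K) (f g : α → ℝ) : ip f (cond κ g) = ip (cond κ f) g :=
  (ip_cond_left κ f g).symm

/-- If `κ` is finer than `κ'`, then `cond κ ∘ cond κ' = cond κ'`. -/
theorem cond_cond_of_le {κ : α → K} {κ' : α → K'} (h : ∀ x y, κ x = κ y → κ' x = κ' y) (f : α → ℝ) :
    cond κ (cond κ' f) = cond κ' f := by
  funext x
  exact cond_eq_of_const fun y hy => cond_congr f (h _ _ hy)

/-- Tower property: if `κ` is finer than `κ'`, then `cond κ' ∘ cond κ = cond κ'`. -/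
theorem cond_tower {κ : α → K} {κ' : α → K'} (h : ∀ x y, κ x = κ y → κ' x = κ' y) (f : α → ℝ) :
    cond κ' (cond κ f) = cond κ' f := by
  -- test against arbitrary g, using self-adjointness
  have hall : ∀ g : α → ℝ, ip (cond κ' (cond κ f)) g = ip (cond κ' f) g := by
    intro g
    rw [ip_cond_left, ip_cond_left κ, cond_cond_of_le h, ← ip_cond_left]
  have h0 := hall (fun x => cond κ' (cond κ f) x - cond κ' f x)
  rw [ip_sub_right, ip_sub_right] at h0
  have : ip (fun x => cond κ' (cond κ f) x - cond κ' f x)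
      (fun x => cond κ' (cond κ f) x - cond κ' f x) = 0 := by
    rw [ip_sub_right, ip_sub_left, ip_sub_left]
    linarith
  have h2 := ip_self_eq_zero this
  funext x
  have := congrFun h2 x
  simpa [sub_eq_zero] using this

theorem cond_add (κ : α → K) (f g : α → ℝ) :
    cond κ (fun x => f x + g x) = fun x => cond κ f x + cond κ g x := by
  funext x
  simp [cond, sum_add_distrib, add_div]

theorem cond_sub (κ : α → K) (f g : α → ℝ) :
    cond κ (fun x => f x - g x) = fun x => cond κ f x - cond κ g x := by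
  funext x
  simp [cond, sum_sub_distrib, sub_div]

theorem cond_smul (κ : α → K) (c : ℝ) (f : α → ℝ) :
    cond κ (fun x => c * f x) = fun x => c * cond κ f x := by
  funext x
  simp [cond, ← mul_sum, mul_div_assoc]

/-- `cond κ` as a linear map. -/
noncomputable def condL (κ : α → K) : (α → ℝ) →ₗ[ℝ] (α → ℝ) where
  toFun := cond κ
  map_add' f g := cond_add κ f g
  map_smul' c f := by simpa [Pi.smul_def] using cond_smul κ c f

@[simp] theorem condL_apply (κ : α → K) (f : α → ℝ) : condL κ f = cond κ f := rfl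

theorem ip_Qc_self (κ : α → K) (f : α → ℝ) : ip (Qc κ f) (Qc κ f) = ip f (Qc κ f) := by
  have h : ip (cond κ f) (Qc κ f) = 0 := by
    rw [ip_cond_left]
    have : cond κ (Qc κ f) = fun _ => 0 := by
      have : Qc κ f = fun x => f x - cond κ f x := rfl
      rw [this, cond_sub, cond_cond_self]
      funext x; simp
    rw [this]; simp [ip]
  have h2 : ip (Qc κ f) (Qc κ f) = ip f (Qc κ f) - ip (cond κ f) (Qc κ f) := by
    have : Qc κ f = fun x => f x - cond κ f x := rfl
    conv_lhs => rw [this]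
    rw [ip_sub_left]
    rfl
  rw [h2, h]; ring

/-- A saturated set: summing `cond κ g` over a union of classes is the same as summing `g`. -/
theorem sum_cond_of_saturated (κ : α → K) (g : α → ℝ) (A : Finset α)
    (hA : ∀ x ∈ A, ∀ y, κ y = κ x → y ∈ A) : ∑ x ∈ A, cond κ g x = ∑ x ∈ A, g x := by
  -- test with the indicator of A, which is constant on classes
  have h := ip_cond_left κ g (fun x => if x ∈ A then 1 else 0)
  have hind : cond κ (fun x => if x ∈ A then (1:ℝ) else 0) = fun x => if x ∈ A then 1 else 0 := by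
    funext x
    refine cond_eq_of_const fun y hy => ?_
    by_cases hx : x ∈ A
    · simp [hx, hA x hx y hy]
    · have : y ∉ A := fun hyA => hx (hA y hyA x hy.symm)
      simp [hx, this]
  rw [hind] at h
  simpa [ip, mul_ite, sum_ite_mem] using h

/-- Jensen: `‖cond κ f‖² ≤ ‖f‖²`. -/
theorem ip_cond_self_le (κ : α → K) (f : α → ℝ) : ip (cond κ f) (cond κ f) ≤ ip f f := by
  have h1 : ip (cond κ f) (cond κ f) = ip f (cond κ f) := by
    rw [ip_cond_left, cond_cond_self]
  have h2 := ip_self_nonneg (fun x => f x - cond κ f x)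
  rw [ip_sub_left, ip_sub_right, ip_sub_right] at h2
  have h3 := ip_comm f (cond κ f)
  nlinarith

/-- Equivariance of `cond` under a bijection. -/
theorem cond_comp_equiv {β : Type*} [Fintype β] (κ : α → K) (e : β ≃ α) (f : α → ℝ) (x : β) :
    cond (κ ∘ e) (f ∘ e) x = cond κ f (e x) := by
  have hs : (fib κ (e x)) = (fib (κ ∘ e) x).map e.toEmbedding := by
    ext y
    simp only [mem_fib, mem_map, Function.comp, Equiv.coe_toEmbedding]
    constructor
    · intro h
      exact ⟨e.symm y, by simpa using h, by simp⟩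
    · rintro ⟨z, hz, rfl⟩
      exact hz
  unfold cond
  rw [hs, sum_map, card_map]
  rfl

/-- `cond` on a saturated subtype agrees with `cond` on the ambient type. -/
theorem cond_subtype (κ : α → K) (A : α → Prop) (hA : ∀ x y, A x → κ y = κ x → A y)
    (f : α → ℝ) (x : {x // A x}) :
    cond (fun y : {x // A x} => κ y.1) (fun y => f y.1) x = cond κ f x.1 := by
  have hs : fib κ x.1 = (fib (fun y : {x // A x} => κ y.1) x).map (Function.Embedding.subtype _) := by
    ext y
    simp only [mem_fib, mem_map, Function.Embedding.subtype_apply]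
    constructor
    · intro h
      exact ⟨⟨y, hA _ _ x.2 h⟩, h, rfl⟩
    · rintro ⟨z, hz, rfl⟩
      exact hz
  unfold cond
  rw [hs, sum_map, card_map]
  rfl

/-- Rectangular lemma: product classes make the conditional averages multiply. -/
theorem cond_cond_of_rect (κ₁ : α → K₁) (κ₂ : α → K₂) (κ : α → K)
    (h1 : ∀ x y, κ₁ x = κ₁ y → κ x = κ y) (h2 : ∀ x y, κ₂ x = κ₂ y → κ x = κ y)
    (hr : ∀ x y, κ x = κ y → ∃ z, κ₁ z = κ₁ x ∧ κ₂ z = κ₂ y)
    (hu : ∀ z z', κ₁ z = κ₁ z' → κ₂ z = κ₂ z' → z = z') (f : α → ℝ) :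
    cond κ₁ (cond κ₂ f) = cond κ f := by
  funext x
  -- the double sum formula
  have hsum : ∀ g : α → ℝ, ∑ a ∈ fib κ₁ x, ∑ b ∈ fib κ₂ a, g b = ∑ b ∈ fib κ x, g b := by
    intro g
    have e1 : ∀ a ∈ fib κ₁ x, ∑ b ∈ fib κ₂ a, g b =
        ∑ b ∈ fib κ x, if κ₂ b = κ₂ a then g b else 0 := by
      intro a ha
      rw [← sum_filter]
      refine sum_congr ?_ fun _ _ => rfl
      ext b
      simp only [mem_fib, mem_filter]
      constructor
      · intro hb
        exact ⟨(h2 _ _ hb).trans (h1 _ _ (mem_fib.1 ha)), hb⟩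
      · exact fun hb => hb.2
    rw [sum_congr rfl e1, sum_comm]
    refine sum_congr rfl fun b hb => ?_
    obtain ⟨z, hz1, hz2⟩ := hr x b (mem_fib.1 hb).symm
    rw [sum_eq_single z]
    · simp [hz2]
    · intro a ha hne
      rw [if_neg]
      intro hab
      exact hne (hu _ _ ((mem_fib.1 ha).trans hz1.symm) (hab.symm.trans hz2.symm))
    · intro hz
      exact absurd (mem_fib.2 hz1) hz
  -- the size of `fib κ₂ a` is constant on the class
  have hcardle : ∀ a a', κ a = κ a' → (fib κ₂ a).card ≤ (fib κ₂ a').card := by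
    intro a a' haa
    have hex : ∀ b ∈ fib κ₂ a, ∃ z, κ₁ z = κ₁ b ∧ κ₂ z = κ₂ a' := fun b hb =>
      hr b a' ((h2 _ _ (mem_fib.1 hb)).trans haa)
    choose! F hF1 hF2 using hex
    refine card_le_card_of_injOn F (fun b hb => mem_fib.2 (hF2 b hb)) ?_
    intro b hb b' hb' he
    have hb1 : κ₁ b = κ₁ b' := by
      rw [← hF1 b hb, ← hF1 b' hb']
      exact congrArg κ₁ he
    exact hu _ _ hb1 ((mem_fib.1 (by simpa using hb)).trans (mem_fib.1 (by simpa using hb')).symm)
  have hcard : ∀ a ∈ fib κ₁ x, (fib κ₂ a).card = (fib κ₂ x).card := by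
    intro a ha
    have : κ a = κ x := h1 _ _ (mem_fib.1 ha)
    exact le_antisymm (hcardle _ _ this) (hcardle _ _ this.symm)
  have hD : ((fib κ x).card : ℝ) = ((fib κ₁ x).card : ℝ) * ((fib κ₂ x).card : ℝ) := by
    have := hsum (fun _ => 1)
    simp only [sum_const, nsmul_eq_mul, mul_one] at this
    rw [← this, sum_congr rfl fun a ha => by rw [hcard a ha]]
    simp
  have hc1 : ((fib κ₁ x).card : ℝ) ≠ 0 := by exact_mod_cast (fib_card_pos κ₁ x).ne'
  have hc2 : ((fib κ₂ x).card : ℝ) ≠ 0 := by exact_mod_cast (fib_card_pos κ₂ x).ne'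
  have e2 : ∀ a ∈ fib κ₁ x, cond κ₂ f a = (∑ b ∈ fib κ₂ a, f b) / ((fib κ₂ x).card : ℝ) := by
    intro a ha
    simp only [cond, hcard a ha]
  unfold cond at e2 ⊢
  rw [sum_congr rfl e2, ← sum_div, hsum f, hD]
  field_simp

/-- Commuting conditional averages give `⟨Q₁ h, Q₂ h⟩ ≥ 0`. -/
theorem ip_Qc_Qc_nonneg_of_comm (κ₁ : α → K₁) (κ₂ : α → K₂)
    (hc : ∀ f, cond κ₁ (cond κ₂ f) = cond κ₂ (cond κ₁ f)) (h : α → ℝ) :
    0 ≤ ip (Qc κ₁ h) (Qc κ₂ h) := by
  set E₁ := cond κ₁ with hE₁
  set E₂ := cond κ₂ with hE₂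
  have h1 : ∀ f g : α → ℝ, ip (E₁ f) g = ip f (E₁ g) := ip_cond_left κ₁
  have h2 : ∀ f g : α → ℝ, ip (E₂ f) g = ip f (E₂ g) := ip_cond_left κ₂
  have i1 : ∀ f : α → ℝ, E₁ (E₁ f) = E₁ f := cond_cond_self κ₁
  have i2 : ∀ f : α → ℝ, E₂ (E₂ f) = E₂ f := cond_cond_self κ₂
  -- the square
  have key : ip (Qc κ₁ h) (Qc κ₂ h) =
      ip (fun x => h x - E₁ h x - E₂ h x + E₁ (E₂ h) x)
        (fun x => h x - E₁ h x - E₂ h x + E₁ (E₂ h) x) := by
    have q1 : Qc κ₁ h = fun x => h x - E₁ h x := rfl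
    have q2 : Qc κ₂ h = fun x => h x - E₂ h x := rfl
    rw [q1, q2]
    simp only [ip_sub_left, ip_sub_right, ip_add_left, ip_add_right]
    have a1 : ip (E₁ h) h = ip h (E₁ h) := ip_comm _ _
    have a2 : ip (E₂ h) h = ip h (E₂ h) := ip_comm _ _
    have a3 : ip (E₁ h) (E₂ h) = ip h (E₁ (E₂ h)) := h1 _ _
    have a4 : ip (E₂ h) (E₁ h) = ip h (E₁ (E₂ h)) := by rw [ip_comm, a3]
    have a5 : ip (E₁ h) (E₁ h) = ip h (E₁ h) := by rw [h1, i1]
    have a6 : ip (E₂ h) (E₂ h) = ip h (E₂ h) := by rw [h2, i2]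
    have a7 : ip (E₁ (E₂ h)) h = ip h (E₁ (E₂ h)) := ip_comm _ _
    have a8 : ip (E₁ (E₂ h)) (E₁ h) = ip h (E₁ (E₂ h)) := by rw [h1, i1, a4]
    have a9 : ip (E₁ (E₂ h)) (E₂ h) = ip h (E₁ (E₂ h)) := by
      rw [ip_comm, h2, ← hc (E₂ h), i2]
    have a10 : ip (E₁ (E₂ h)) (E₁ (E₂ h)) = ip h (E₁ (E₂ h)) := by
      rw [h1, i1, ip_comm, a9]
    have a11 : ip (E₁ h) (E₁ (E₂ h)) = ip h (E₁ (E₂ h)) := by rw [ip_comm, a8]
    have a12 : ip (E₂ h) (E₁ (E₂ h)) = ip h (E₁ (E₂ h)) := by rw [ip_comm, a9]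
    linarith
  rw [key]
  exact ip_self_nonneg _

end Cond

end Crest.Agent.Lib.SW
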