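import Crest.Agent.Lib.SW.Graph
import Crest.Agent.Lib.SwitchConn

/-!
# Connectivity of the switch graph (S0453, module G): bridge from `Lib/SwitchConn.lean`.
-/

set_option autoImplicit false

open Finset
open scoped Classical
open Crest.SwitchChain

namespace Crest.Agent.Lib.SW

variable {n : ℕ} {d : Fin n → ℕ}

theorem adj_iff_Adj (E : Finset (Edge n)) (u v : Fin n) :
    adj E u v ↔ SwitchConn.Adj E u v := by
  constructor
  · rintro ⟨h, he⟩
    exact ⟨fun e => h (Sym2.mk_isDiag_iff.2 e), he⟩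
  · rintro ⟨h, he⟩
    exact ⟨by simpa using h, he⟩

private theorem block_prop (A E B C A' E' B' C' : Prop) :
    ((A ∨ E) ∧ (B ∨ C)) ∨ ((A' ∨ E') ∧ (B' ∨ C')) ↔
      ((A ∧ B) ∨ (B' ∧ A')) ∨ ((C' ∧ E') ∨ (E ∧ C)) ∨ ((A ∧ C) ∨ (C' ∧ A')) ∨
        ((B' ∧ E') ∨ (E ∧ B)) := by
  by_cases A <;> by_cases E <;> by_cases B <;> by_cases C <;> by_cases A' <;> by_cases E' <;>
    by_cases B' <;> by_cases C' <;> simp [*]

private theorem block_prop2 {P Q R S T : Prop} (h1 : P → T) (h2 : Q → T) (h3 : R → ¬ T) (h4 : S → ¬ T) :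
    ((P ∨ Q ∨ R ∨ S) ∧ ¬ T) ∨ (¬ (P ∨ Q ∨ R ∨ S) ∧ T) ↔ (T ∧ ¬ P ∧ ¬ Q) ∨ R ∨ S := by
  by_cases hT : T
  · have h3' : ¬ R := fun h => h3 h hT
    have h4' : ¬ S := fun h => h4 h hT
    simp [hT, h3', h4']
  · have h1' : ¬ P := fun h => hT (h1 h)
    have h2' : ¬ Q := fun h => hT (h2 h)
    simp [hT, h1', h2']

/-- A switch from `G` described by the edges it removes and adds is a `swG`.
Here `ab, ce` are present and `ac, be` are absent; the diagonals of the 4-cycle are `ae`, `bc`. -/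
theorem swG_eq_of_adj {a b c e : Fin n} (hd : Dist4 a e b c) {G K : Finset (Edge n)}
    (h1 : adj G a b) (h2 : adj G c e) (h3 : ¬ adj G a c) (h4 : ¬ adj G b e)
    (hK : ∀ u w, adj K u w ↔
      (adj G u w ∧ ¬ ((u = a ∧ w = b) ∨ (u = b ∧ w = a)) ∧ ¬ ((u = c ∧ w = e) ∨ (u = e ∧ w = c))) ∨
        ((u = a ∧ w = c) ∨ (u = c ∧ w = a)) ∨ ((u = b ∧ w = e) ∨ (u = e ∧ w = b))) :
    swG a e b c G = K := by
  have hx : XiG a e b c G := by
    refine Or.inl ⟨h1, (adj_comm _ _ _).1 h2, h3, fun h => h4 ((adj_comm _ _ _).1 h)⟩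
  apply ext_adj
  intro u w
  rw [adj_swG hd hx, hK]
  have hab : ((u = a ∧ w = b) ∨ (u = b ∧ w = a)) → adj G u w := by
    rintro (⟨rfl, rfl⟩ | ⟨rfl, rfl⟩)
    · exact h1
    · exact (adj_comm _ _ _).1 h1
  have hce : ((u = c ∧ w = e) ∨ (u = e ∧ w = c)) → adj G u w := by
    rintro (⟨rfl, rfl⟩ | ⟨rfl, rfl⟩)
    · exact h2
    · exact (adj_comm _ _ _).1 h2
  have hac : ((u = a ∧ w = c) ∨ (u = c ∧ w = a)) → ¬ adj G u w := by
    rintro (⟨rfl, rfl⟩ | ⟨rfl, rfl⟩)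
    · exact h3
    · exact fun h => h3 ((adj_comm _ _ _).1 h)
  have hbe : ((u = b ∧ w = e) ∨ (u = e ∧ w = b)) → ¬ adj G u w := by
    rintro (⟨rfl, rfl⟩ | ⟨rfl, rfl⟩)
    · exact h4
    · exact fun h => h4 ((adj_comm _ _ _).1 h)
  have hB : Xblock a e b c u w ↔ ((u = a ∧ w = b) ∨ (u = b ∧ w = a)) ∨
      ((u = c ∧ w = e) ∨ (u = e ∧ w = c)) ∨ ((u = a ∧ w = c) ∨ (u = c ∧ w = a)) ∨
      ((u = b ∧ w = e) ∨ (u = e ∧ w = b)) := by
    unfold Xblock
    exact block_prop _ _ _ _ _ _ _ _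
  rw [hB]
  exact block_prop2 hab hce hac hbe

theorem const_of_sw_invariant (f : Om d → ℝ)
    (h : ∀ a b c e (G : Om d), f (sw a b c e G) = f G) (G H : Om d) : f G = f H := by
  -- extend `f` by zero
  let F : Finset (Edge n) → ℝ := fun E => if hE : E ∈ realizations d then f ⟨E, hE⟩ else 0
  have hF : ∀ G : Om d, F G.1 = f G := fun G => by
    simp only [F, dif_pos G.2]
  have key := SwitchConn.eq_of_switch_invariant (d := d) F ?_ G.2 H.2
  · rwa [hF, hF] at key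
  · rintro E hE E' hE' ⟨a, b, c, e, hab, hce, hac, hbe, hae, hbc, h1, h2, h3, h4, rfl⟩
    have hd : Dist4 a e b c := ⟨hae, hab, hac, hbe.symm, hce.symm, hbc⟩
    have hsw : swG a e b c E = SwitchConn.swp E a b c e hab hce hac hbe := by
      refine swG_eq_of_adj hd ?_ ?_ ?_ ?_ ?_
      · exact (adj_iff_Adj _ _ _).2 ⟨hab, h1⟩
      · exact (adj_iff_Adj _ _ _).2 ⟨hce, h2⟩
      · intro h'
        obtain ⟨_, h5⟩ := (adj_iff_Adj _ _ _).1 h'
        exact h3 h5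
      · intro h'
        obtain ⟨_, h5⟩ := (adj_iff_Adj _ _ _).1 h'
        exact h4 h5
      · intro u w
        simp only [adj_iff_Adj, SwitchConn.adj_swp]
    have h5 := h a e b c ⟨E, hE⟩
    have h6 : (sw a e b c ⟨E, hE⟩ : Om d).1 = SwitchConn.swp E a b c e hab hce hac hbe := hsw
    have h7 : F (SwitchConn.swp E a b c e hab hce hac hbe) = f (sw a e b c ⟨E, hE⟩) := by
      rw [← h6]
      exact hF _
    rw [h7, h5]
    exact hF ⟨E, hE⟩

end Crest.Agent.Lib.SW
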