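import Crest.Agent.Lib.SW.Cond

/-!
# Abstract form of the disjoint-pairs inequality (S0453, module D)

No graphs here: `α` is a finite type, `κp κq κT κS` are keys, `ι` an involution.
-/

set_option autoImplicit false

open Finset
open scoped Classical

namespace Crest.Agent.Lib.SW

section DAbstract

variable {α : Type*} [Fintype α] {Kp Kq KT KS K : Type*}

/-- Average of `w` over the part of `Ξ` in the `κ`-class of `x`. -/
noncomputable def Aa (Ξ : α → Prop) (κ : α → K) (w : α → ℝ) (x : α) : ℝ :=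
  (∑ y ∈ univ.filter (fun y => Ξ y ∧ κ y = κ x), w y) /
    ((univ.filter (fun y => Ξ y ∧ κ y = κ x)).card : ℝ)

/-- One projection step: if `P` is finer than `E₁` and commutes with `E₂` then projecting by `P`
decreases `⟨Q₁ g, Q₂ g⟩`. -/
theorem ip_Q_Q_proj_le (κ : α → K) (κ₁ : α → Kp) (κ₂ : α → Kq)
    (h1 : ∀ x y, κ x = κ y → κ₁ x = κ₁ y)
    (h2 : ∀ f, cond κ (cond κ₂ f) = cond κ₂ (cond κ f)) (g : α → ℝ) :
    ip (Qc κ₁ (cond κ g)) (Qc κ₂ (cond κ g)) ≤ ip (Qc κ₁ g) (Qc κ₂ g) := by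
  set a := cond κ g with ha
  set w : α → ℝ := fun x => g x - a x with hw
  have hPa : cond κ a = a := cond_cond_self κ g
  have hPw : cond κ w = fun _ => 0 := by
    rw [hw, cond_sub, hPa]; funext x; exact sub_self _
  have hE₁a : cond κ₁ a = cond κ₁ g := cond_tower h1 g
  have hE₁w : cond κ₁ w = fun _ => 0 := by
    rw [hw, cond_sub, hE₁a]; funext x; simp
  have hgsplit : g = fun x => a x + w x := by funext x; simp [hw]
  have hQ₁g : Qc κ₁ g = fun x => Qc κ₁ a x + w x := by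
    funext x
    simp only [Qc, hE₁a, hw]
    ring
  have hQ₂g : Qc κ₂ g = fun x => Qc κ₂ a x + Qc κ₂ w x := by
    funext x
    have : cond κ₂ g x = cond κ₂ a x + cond κ₂ w x := by
      conv_lhs => rw [hgsplit]
      rw [cond_add]
    simp only [Qc, this]
    conv_lhs => rw [hgsplit]
    ring
  -- P-invariance of Q₁ a, Q₂ a, and vanishing of P Q₂ w
  have hPQ₁a : cond κ (Qc κ₁ a) = Qc κ₁ a := by
    have : Qc κ₁ a = fun x => a x - cond κ₁ a x := rfl
    rw [this, cond_sub, hPa, cond_cond_of_le h1]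
  have hPQ₂a : cond κ (Qc κ₂ a) = Qc κ₂ a := by
    have : Qc κ₂ a = fun x => a x - cond κ₂ a x := rfl
    rw [this, cond_sub, hPa, h2, hPa]
  have hPQ₂w : cond κ (Qc κ₂ w) = fun _ => 0 := by
    have : Qc κ₂ w = fun x => w x - cond κ₂ w x := rfl
    rw [this, cond_sub, hPw, h2, hPw]
    funext x
    have : cond κ₂ (fun _ => (0:ℝ)) x = 0 := by simp [cond]
    simp [this]
  have hzero : ∀ b : α → ℝ, ip b (fun _ : α => (0:ℝ)) = 0 := by intro b; simp [ip]
  have hzero' : ∀ b : α → ℝ, ip (fun _ : α => (0:ℝ)) b = 0 := by intro b; simp [ip]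
  have hc1 : ip (Qc κ₁ a) (Qc κ₂ w) = 0 := by
    rw [← hPQ₁a, ip_cond_left, hPQ₂w, hzero]
  have hc2 : ip w (Qc κ₂ a) = 0 := by
    rw [← hPQ₂a, ← ip_cond_left, hPw, hzero']
  have hc3 : ip w (Qc κ₂ w) = ip (Qc κ₂ w) (Qc κ₂ w) := (ip_Qc_self κ₂ w).symm
  rw [hQ₁g, hQ₂g, ip_add_left, ip_add_right, ip_add_right, hc1, hc2, hc3]
  have := ip_self_nonneg (Qc κ₂ w)
  linarith


/-- A key-preserving involution does not change conditional averages. -/
theorem cond_comp_of_key (κ : α → K) (ι : α → α) (hι : ∀ x, ι (ι x) = x)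
    (hκ : ∀ x, κ (ι x) = κ x) (f : α → ℝ) :
    cond κ (fun x => f (ι x)) = cond κ f := by
  funext x
  unfold cond
  congr 1
  refine sum_nbij' ι ι ?_ ?_ ?_ ?_ ?_
  · intro y hy; rw [mem_fib] at hy ⊢; rw [hκ, hy]
  · intro y hy; rw [mem_fib] at hy ⊢; rw [hκ, hy]
  · intro y _; exact hι y
  · intro y _; exact hι y
  · intro y _; rfl

/-- An involution compatible with the classes commutes with the conditional average. -/
theorem cond_comp_invol (κ : α → K) (ι : α → α) (hι : ∀ x, ι (ι x) = x)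
    (hκ : ∀ x y, κ x = κ y → κ (ι x) = κ (ι y)) (f : α → ℝ) :
    cond κ (fun x => f (ι x)) = fun x => cond κ f (ι x) := by
  funext x
  have hcard : (fib κ x).card = (fib κ (ι x)).card := by
    refine card_nbij' ι ι ?_ ?_ ?_ ?_
    · intro y hy
      have hy' : y ∈ fib κ x := by simpa using hy
      rw [mem_fib] at hy'
      simpa [mem_fib] using hκ _ _ hy'
    · intro y hy
      have hy' : y ∈ fib κ (ι x) := by simpa using hy
      rw [mem_fib] at hy'
      have := hκ _ _ hy'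
      rw [hι] at this
      simpa [mem_fib] using this
    · intro y _; exact hι y
    · intro y _; exact hι y
  have hsum : ∑ y ∈ fib κ x, f (ι y) = ∑ y ∈ fib κ (ι x), f y := by
    refine sum_nbij' ι ι ?_ ?_ ?_ ?_ ?_
    · intro y hy
      rw [mem_fib] at hy ⊢
      exact hκ _ _ hy
    · intro y hy
      rw [mem_fib] at hy ⊢
      have := hκ _ _ hy
      rwa [hι] at this
    · intro y _; exact hι y
    · intro y _; exact hι y
    · intro y _; rfl
  simp only [cond, hsum, hcard]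

/-- `Aa` on the subtype is `cond`. -/
theorem Aa_eq_cond (Ξ : α → Prop) (κ : α → K) (w : α → ℝ) (x : {x // Ξ x}) :
    Aa Ξ κ w x.1 = cond (fun y : {x // Ξ x} => κ y.1) (fun y => w y.1) x := by
  have hs : univ.filter (fun y => Ξ y ∧ κ y = κ x.1) =
      (fib (fun y : {x // Ξ x} => κ y.1) x).map (Function.Embedding.subtype _) := by
    ext y
    simp only [mem_filter, mem_univ, true_and, mem_map, mem_fib, Function.Embedding.subtype_apply]
    constructor
    · rintro ⟨h1, h2⟩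
      exact ⟨⟨y, h1⟩, h2, rfl⟩
    · rintro ⟨z, hz, rfl⟩
      exact ⟨z.2, hz⟩
  unfold Aa cond
  rw [hs, sum_map, card_map]
  rfl

theorem sum_filter_eq_subtype (Ξ : α → Prop) (F : α → ℝ) :
    ∑ x ∈ univ.filter Ξ, F x = ∑ x : {x // Ξ x}, F x.1 :=
  sum_subtype _ (fun x => by simp) F

/-- Pairing against a function constant on the slices of `Ξ` only sees `Aa`. -/
theorem sum_Aa_mul (Ξ : α → Prop) (κ : α → K) (u c : α → ℝ)
    (hc : ∀ x y, Ξ x → Ξ y → κ y = κ x → c y = c x) :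
    ∑ x ∈ univ.filter Ξ, u x * c x = ∑ x ∈ univ.filter Ξ, Aa Ξ κ u x * c x := by
  rw [sum_filter_eq_subtype, sum_filter_eq_subtype]
  have h1 : ∀ x : {x // Ξ x}, Aa Ξ κ u x.1 * c x.1 =
      cond (fun y : {x // Ξ x} => κ y.1) (fun y => u y.1) x * c x.1 := by
    intro x; rw [Aa_eq_cond]
  simp only [h1]
  have h2 := ip_cond_left (fun y : {x // Ξ x} => κ y.1) (fun y => u y.1) (fun y => c y.1)
  have h3 : cond (fun y : {x // Ξ x} => κ y.1) (fun y => c y.1) = fun y => c y.1 := by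
    funext x
    exact cond_eq_of_const fun y hy => hc x.1 y.1 x.2 y.2 hy
  rw [h3] at h2
  exact h2.symm

/-- The slice average of an antisymmetric function vanishes. -/
theorem Aa_antisymm (Ξ : α → Prop) (κ : α → K) (ι : α → α) (hι : ∀ x, ι (ι x) = x)
    (hκ : ∀ x, κ (ι x) = κ x) (hΞ : ∀ x, Ξ x → Ξ (ι x)) (m : α → ℝ)
    (hm : ∀ x, m (ι x) = - m x) (x : α) : Aa Ξ κ m x = 0 := by
  have h : ∑ y ∈ univ.filter (fun y => Ξ y ∧ κ y = κ x), m y =
      ∑ y ∈ univ.filter (fun y => Ξ y ∧ κ y = κ x), m (ι y) := by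
    refine sum_nbij' ι ι ?_ ?_ ?_ ?_ ?_
    · intro y hy
      simp only [mem_filter, mem_univ, true_and] at hy ⊢
      exact ⟨hΞ _ hy.1, by rw [hκ, hy.2]⟩
    · intro y hy
      simp only [mem_filter, mem_univ, true_and] at hy ⊢
      exact ⟨hΞ _ hy.1, by rw [hκ, hy.2]⟩
    · intro y _; exact hι y
    · intro y _; exact hι y
    · intro y _; rw [hι]
  have h2 : ∑ y ∈ univ.filter (fun y => Ξ y ∧ κ y = κ x), m y = 0 := by
    simp only [hm, sum_neg_distrib] at h
    linarith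
  simp [Aa, h2]


/-- Splitting `Q f` into the symmetric part and the antisymmetric part of `f`. -/
theorem Qc_split (κ : α → K) (ι : α → α) (hι : ∀ x, ι (ι x) = x) (hκ : ∀ x, κ (ι x) = κ x)
    (f : α → ℝ) (x : α) :
    Qc κ f x = Qc κ (fun x => (f x + f (ι x)) / 2) x + (f x - f (ι x)) / 2 := by
  have e : (fun x => (f x + f (ι x)) / 2) = fun x => (1 / 2 : ℝ) * (f x + f (ι x)) := by
    funext x; ring
  have e2 : cond κ (fun x => (f x + f (ι x)) / 2) x = cond κ f x := by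
    rw [e, cond_smul, cond_add, cond_comp_of_key κ ι hι hκ f]
    ring
  simp only [Qc, e2]
  ring

/-- `Q g` is symmetric when `g` is. -/
theorem Qc_sym (κ : α → K) (ι : α → α) (hκ : ∀ x, κ (ι x) = κ x) (g : α → ℝ)
    (hg : ∀ x, g (ι x) = g x) (x : α) : Qc κ g (ι x) = Qc κ g x := by
  have : cond κ g (ι x) = cond κ g x := cond_congr g (hκ x)
  simp only [Qc, hg, this]

theorem Aa_Qc_split (Ξ : α → Prop) (κ : α → K) (ι : α → α) (hι : ∀ x, ι (ι x) = x)
    (hκ : ∀ x, κ (ι x) = κ x) (hΞ : ∀ x, Ξ x → Ξ (ι x)) (f : α → ℝ) (x : α) :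
    Aa Ξ κ (Qc κ f) x = Aa Ξ κ (Qc κ (fun x => (f x + f (ι x)) / 2)) x := by
  have h0 := Aa_antisymm Ξ κ ι hι hκ hΞ (fun x => (f x - f (ι x)) / 2)
    (by intro y; simp only [hι]; ring) x
  have e : Qc κ f = fun x => Qc κ (fun x => (f x + f (ι x)) / 2) x + (f x - f (ι x)) / 2 :=
    funext (Qc_split κ ι hι hκ f)
  rw [e]
  unfold Aa at h0 ⊢
  rw [sum_add_distrib, add_div, h0, add_zero]

/-- The `Ξ`-part: `Σ_Ξ (Q_p h)² ≤ Σ_Ξ (A_p Q_p g)²`, for `h = P₁ P₂ g` symmetric under `ι`. -/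
theorem xi_part (κp : α → Kp) (κ₁ : α → KT) (κ₂ : α → KS) (ι : α → α) (Ξ : α → Prop)
    (h1p : ∀ x y, κ₁ x = κ₁ y → κp x = κp y)
    (comm2p : ∀ f, cond κ₂ (cond κp f) = cond κp (cond κ₂ f))
    (comm12 : ∀ f, cond κ₁ (cond κ₂ f) = cond κ₂ (cond κ₁ f))
    (hΞ1 : ∀ x y, Ξ x → κ₁ y = κ₁ x → Ξ y)
    (hΞ2 : ∀ x y, Ξ x → κ₂ y = κ₂ x → Ξ y)
    (hΞp : ∀ x y, Ξ x → Ξ y → κp y = κp x → κ₁ y = κ₁ x ∨ κ₁ y = κ₁ (ι x))
    (g : α → ℝ) (hh : ∀ x, cond κ₁ (cond κ₂ g) (ι x) = cond κ₁ (cond κ₂ g) x) :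
    ∑ x ∈ univ.filter Ξ, (Qc κp (cond κ₁ (cond κ₂ g)) x) ^ 2 ≤
      ∑ x ∈ univ.filter Ξ, (Aa Ξ κp (Qc κp g) x) ^ 2 := by
  set h := cond κ₁ (cond κ₂ g) with hh_def
  set U := Qc κp h with hU
  have hUeq : U = fun x => h x - cond κp h x := rfl
  -- invariances of h
  have h1h : cond κ₁ h = h := cond_cond_self κ₁ _
  have h2h : cond κ₂ h = h := by
    rw [hh_def, comm12, cond_cond_self, ← comm12]
  have h1E : cond κ₁ (cond κp h) = cond κp h := cond_cond_of_le h1p h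
  have h2E : cond κ₂ (cond κp h) = cond κp h := by rw [comm2p, h2h]
  have h1U : cond κ₁ U = U := by
    rw [hUeq, cond_sub, h1h, h1E]
  have h2U : cond κ₂ U = U := by
    rw [hUeq, cond_sub, h2h, h2E]
  -- U = P₁ P₂ Q_p g
  have hUu : U = cond κ₁ (cond κ₂ (Qc κp g)) := by
    have hu : Qc κp g = fun x => g x - cond κp g x := rfl
    have e : cond κp h = cond κp (cond κ₂ g) := cond_tower h1p _
    rw [hu, cond_sub, cond_sub, comm2p, cond_cond_of_le h1p, hUeq, e]
  -- the weight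
  set w : α → ℝ := fun x => if Ξ x then U x else 0 with hw
  have h1w : cond κ₁ w = w := by
    funext x
    refine cond_eq_of_const fun y hy => ?_
    have hUc : U y = U x := by rw [← h1U]; exact cond_congr U hy
    by_cases hx : Ξ x
    · have hy' : Ξ y := hΞ1 x y hx hy
      simp [hw, hx, hy', hUc]
    · have hy' : ¬ Ξ y := fun hy' => hx (hΞ1 y x hy' hy.symm)
      simp [hw, hx, hy']
  have h2w : cond κ₂ w = w := by
    funext x
    refine cond_eq_of_const fun y hy => ?_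
    have hUc : U y = U x := by rw [← h2U]; exact cond_congr U hy
    by_cases hx : Ξ x
    · have hy' : Ξ y := hΞ2 x y hx hy
      simp [hw, hx, hy', hUc]
    · have hy' : ¬ Ξ y := fun hy' => hx (hΞ2 y x hy' hy.symm)
      simp [hw, hx, hy']
  have hipU : ∀ v : α → ℝ, ip v w = ∑ x ∈ univ.filter Ξ, v x * U x := by
    intro v
    simp only [ip, hw, sum_filter, mul_ite, mul_zero]
  -- first identity
  have e1 : ∑ x ∈ univ.filter Ξ, (U x) ^ 2 = ∑ x ∈ univ.filter Ξ, (Qc κp g) x * U x := by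
    have : ip U w = ip (Qc κp g) w := by
      conv_lhs => rw [hUu]
      rw [ip_cond_left, h1w, ip_cond_left, h2w]
    rw [hipU, hipU] at this
    rw [← this]
    exact sum_congr rfl fun x _ => by ring
  -- constant on slices
  have hc : ∀ x y, Ξ x → Ξ y → κp y = κp x → U y = U x := by
    intro x y hx hy hxy
    have hE : cond κp h y = cond κp h x := cond_congr h hxy
    have hhh : h y = h x := by
      rcases hΞp x y hx hy hxy with h3 | h3
      · rw [← h1h]; exact cond_congr _ h3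
      · have : h y = h (ι x) := by rw [← h1h]; exact cond_congr _ h3
        rw [this]; exact hh x
    simp only [hUeq, hE, hhh]
  have e2 := sum_Aa_mul Ξ κp (Qc κp g) U hc
  rw [e2] at e1
  -- Cauchy-Schwarz
  have cs := sum_mul_sq_le_sq_mul_sq (univ.filter Ξ) (fun x => Aa Ξ κp (Qc κp g) x) U
  rw [← e1] at cs
  set A := ∑ x ∈ univ.filter Ξ, (U x) ^ 2 with hA
  set B := ∑ x ∈ univ.filter Ξ, (Aa Ξ κp (Qc κp g) x) ^ 2 with hB
  have hA0 : 0 ≤ A := sum_nonneg fun x _ => sq_nonneg _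
  have hB0 : 0 ≤ B := sum_nonneg fun x _ => sq_nonneg _
  by_contra hlt
  rw [not_le] at hlt
  have hApos : 0 < A := lt_of_le_of_lt hB0 hlt
  nlinarith

/-- **Abstract disjoint-pairs inequality.** -/
theorem abstract_D (κp : α → Kp) (κq : α → Kq) (κT : α → KT) (κS : α → KS)
    (ι : α → α) (Ξ R : α → Prop)
    (hι : ∀ x, ι (ι x) = x)
    (hpι : ∀ x, κp (ι x) = κp x) (hqι : ∀ x, κq (ι x) = κq x)
    (hTι : ∀ x y, κT x = κT y → κT (ι x) = κT (ι y))
    (hSι : ∀ x y, κS x = κS y → κS (ι x) = κS (ι y))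
    (hTp : ∀ x y, κT x = κT y → κp x = κp y)
    (hSq : ∀ x y, κS x = κS y → κq x = κq y)
    (comm_Tq : ∀ f, cond κT (cond κq f) = cond κq (cond κT f))
    (comm_Sp : ∀ f, cond κS (cond κp f) = cond κp (cond κS f))
    (comm_TS : ∀ f, cond κT (cond κS f) = cond κS (cond κT f))
    (hΞι : ∀ x, Ξ x → Ξ (ι x))
    (hΞT : ∀ x y, Ξ x → κT y = κT x → Ξ y)
    (hΞS : ∀ x y, Ξ x → κS y = κS x → Ξ y)
    (hΞp : ∀ x y, Ξ x → Ξ y → κp y = κp x → κT y = κT x ∨ κT y = κT (ι x))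
    (hΞq : ∀ x y, Ξ x → Ξ y → κq y = κq x → κS y = κS x ∨ κS y = κS (ι x))
    (hΞR : ∀ x, Ξ x → ¬ R x)
    (hcover : ∀ x, Ξ x ∨ R x ∨ (∀ y, κp y = κp x → κT y = κT x) ∨
      (∀ y, κq y = κq x → κS y = κS x))
    (hR : ∀ k : α → ℝ, 0 ≤ ∑ x ∈ univ.filter R, Qc κp k x * Qc κq k x)
    (f : α → ℝ) :
    (1 / 4) * ∑ x, (f x - f (ι x)) ^ 2
        - (1 / 2) * ∑ x ∈ univ.filter Ξ, (Aa Ξ κp (Qc κp f) x) ^ 2
        - (1 / 2) * ∑ x ∈ univ.filter Ξ, (Aa Ξ κq (Qc κq f) x) ^ 2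
      ≤ ip (Qc κp f) (Qc κq f) := by
  -- symmetric and antisymmetric parts
  set g : α → ℝ := fun x => (f x + f (ι x)) / 2 with hg
  set m : α → ℝ := fun x => (f x - f (ι x)) / 2 with hm
  have hfgm : f = fun x => g x + m x := by funext x; simp only [hg, hm]; ring
  have hgι : ∀ x, g (ι x) = g x := by intro x; simp only [hg, hι]; ring
  have hmι : ∀ x, m (ι x) = - m x := by intro x; simp only [hm, hι]; ring
  have hfι : (fun x => f (ι x)) = fun x => g x - m x := by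
    funext x; simp only [hg, hm]; ring
  have hQfp : Qc κp f = fun x => Qc κp g x + m x := funext (Qc_split κp ι hι hpι f)
  have hQfq : Qc κq f = fun x => Qc κq g x + m x := funext (Qc_split κq ι hι hqι f)
  -- orthogonality to `m`
  have hperp : ∀ a : α → ℝ, (∀ x, a (ι x) = a x) → ip a m = 0 := by
    intro a ha
    have h1 : ip a m = ∑ x, a (ι x) * m (ι x) := by
      have e : Function.Bijective ι :=
        (Function.Involutive.bijective (f := ι) hι)
      exact (Function.Bijective.sum_comp e (fun x => a x * m x)).symm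
    simp only [ha, hmι, mul_neg, sum_neg_distrib] at h1
    have h2 : ip a m = ∑ x, a x * m x := rfl
    linarith
  -- the decomposition
  have hdecomp : ip (Qc κp f) (Qc κq f) = ip (Qc κp g) (Qc κq g) + ip m m := by
    rw [hQfp, hQfq, ip_add_left, ip_add_right, ip_add_right]
    have h1 := hperp _ (Qc_sym κp ι hpι g hgι)
    have h2 : ip m (Qc κq g) = 0 := by rw [ip_comm]; exact hperp _ (Qc_sym κq ι hqι g hgι)
    rw [h1, h2]; ring
  have hmm : ip m m = (1 / 4) * ∑ x, (f x - f (ι x)) ^ 2 := by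
    simp only [ip, hm, mul_sum]
    exact sum_congr rfl fun x _ => by ring
  -- projecting
  set h := cond κT (cond κS g) with hh
  have hstep : ip (Qc κp h) (Qc κq h) ≤ ip (Qc κp g) (Qc κq g) := by
    have a1 := ip_Q_Q_proj_le κT κp κq hTp comm_Tq (cond κS g)
    have a2 := ip_Q_Q_proj_le κS κq κp hSq comm_Sp g
    rw [ip_comm (Qc κq _), ip_comm (Qc κq g)] at a2
    exact a1.trans a2
  -- symmetry of h
  have hhι : ∀ x, h (ι x) = h x := by
    intro x
    have e1 := cond_comp_invol κS ι hι hSι g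
    have e2 := cond_comp_invol κT ι hι hTι (cond κS g)
    have e3 : (fun x => g (ι x)) = g := funext hgι
    rw [e3] at e1
    have := congrFun e2 x
    rw [← e1] at this
    exact this.symm
  have hTh : cond κT h = h := cond_cond_self κT _
  have hSh : cond κS h = h := by
    rw [hh, comm_TS, cond_cond_self, ← comm_TS]
  -- where the product vanishes
  have hvan : ∀ x, ¬ Ξ x → ¬ R x → Qc κp h x * Qc κq h x = 0 := by
    intro x h1 h2
    rcases hcover x with h3 | h3 | h3 | h3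
    · exact absurd h3 h1
    · exact absurd h3 h2
    · have : cond κp h x = h x := cond_eq_of_const fun y hy => by
        rw [← hTh]; exact cond_congr _ (h3 y hy)
      simp [Qc, this]
    · have : cond κq h x = h x := cond_eq_of_const fun y hy => by
        rw [← hSh]; exact cond_congr _ (h3 y hy)
      simp [Qc, this]
  have hsplit : ip (Qc κp h) (Qc κq h) =
      ∑ x ∈ univ.filter Ξ, Qc κp h x * Qc κq h x + ∑ x ∈ univ.filter R, Qc κp h x * Qc κq h x := by
    simp only [ip, sum_filter]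
    rw [← sum_add_distrib]
    refine sum_congr rfl fun x _ => ?_
    by_cases h1 : Ξ x
    · simp [h1, hΞR x h1]
    · by_cases h2 : R x
      · simp [h1, h2]
      · simp [h1, h2, hvan x h1 h2]
  -- the Ξ part
  have hxi : - (1 / 2) * ∑ x ∈ univ.filter Ξ, (Qc κp h x) ^ 2
      - (1 / 2) * ∑ x ∈ univ.filter Ξ, (Qc κq h x) ^ 2 ≤
      ∑ x ∈ univ.filter Ξ, Qc κp h x * Qc κq h x := by
    rw [mul_sum, mul_sum, ← sum_sub_distrib]
    refine sum_le_sum fun x _ => ?_
    nlinarith [sq_nonneg (Qc κp h x + Qc κq h x)]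
  have hp1 : ∑ x ∈ univ.filter Ξ, (Qc κp h x) ^ 2 ≤
      ∑ x ∈ univ.filter Ξ, (Aa Ξ κp (Qc κp g) x) ^ 2 :=
    xi_part κp κT κS ι Ξ hTp comm_Sp comm_TS hΞT hΞS hΞp g hhι
  have hq1 : ∑ x ∈ univ.filter Ξ, (Qc κq h x) ^ 2 ≤
      ∑ x ∈ univ.filter Ξ, (Aa Ξ κq (Qc κq g) x) ^ 2 := by
    have hh' : h = cond κS (cond κT g) := comm_TS g
    rw [hh']
    refine xi_part κq κS κT ι Ξ hSq comm_Tq (fun f => (comm_TS f).symm) hΞS hΞT hΞq g ?_
    intro x
    rw [← hh']
    exact hhι x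
  -- A Q g = A Q f
  have e3 : ∑ x ∈ univ.filter Ξ, (Aa Ξ κp (Qc κp f) x) ^ 2 =
      ∑ x ∈ univ.filter Ξ, (Aa Ξ κp (Qc κp g) x) ^ 2 :=
    sum_congr rfl fun x _ => by rw [Aa_Qc_split Ξ κp ι hι hpι hΞι f x]
  have e4 : ∑ x ∈ univ.filter Ξ, (Aa Ξ κq (Qc κq f) x) ^ 2 =
      ∑ x ∈ univ.filter Ξ, (Aa Ξ κq (Qc κq g) x) ^ 2 :=
    sum_congr rfl fun x _ => by rw [Aa_Qc_split Ξ κq ι hι hqι hΞι f x]
  have hRh := hR h
  rw [hdecomp, ← hmm, e3, e4]
  linarith

/-- `Qc` on a saturated subtype agrees with `Qc` on the ambient type. -/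
theorem Qc_subtype (κ' : α → K) (R : α → Prop) (hs : ∀ x y, R x → κ' y = κ' x → R y)
    (k : α → ℝ) (x : {x // R x}) :
    Qc κ' k x.1 = Qc (fun y : {x // R x} => κ' y.1) (fun y => k y.1) x := by
  simp only [Qc]
  rw [cond_subtype κ' R (fun a b ha hb => hs a b ha hb) k x]

/-- Rectangular classes on a saturated part: nonnegativity. -/
theorem rect_part_nonneg (κp : α → Kp) (κq : α → Kq) (κ : α → K) (R : α → Prop)
    (hRp : ∀ x y, R x → κp y = κp x → R y) (hRq : ∀ x y, R x → κq y = κq x → R y)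
    (h1 : ∀ x y, R x → R y → κp x = κp y → κ x = κ y)
    (h2 : ∀ x y, R x → R y → κq x = κq y → κ x = κ y)
    (hr : ∀ x y, R x → R y → κ x = κ y → ∃ z, R z ∧ κp z = κp x ∧ κq z = κq y)
    (hu : ∀ z z', R z → R z' → κp z = κp z' → κq z = κq z' → z = z')
    (k : α → ℝ) : 0 ≤ ∑ x ∈ univ.filter R, Qc κp k x * Qc κq k x := by
  rw [sum_filter_eq_subtype]
  have hQp : ∀ x : {x // R x}, Qc κp k x.1 =
      Qc (fun y : {x // R x} => κp y.1) (fun y => k y.1) x := Qc_subtype κp R hRp k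
  have hQq : ∀ x : {x // R x}, Qc κq k x.1 =
      Qc (fun y : {x // R x} => κq y.1) (fun y => k y.1) x := Qc_subtype κq R hRq k
  simp only [hQp, hQq]
  have key := ip_Qc_Qc_nonneg_of_comm (fun y : {x // R x} => κp y.1)
    (fun y : {x // R x} => κq y.1) ?_ (fun y : {x // R x} => k y.1)
  · exact key
  · intro F
    have e1 := cond_cond_of_rect (fun y : {x // R x} => κp y.1) (fun y : {x // R x} => κq y.1)
      (fun y : {x // R x} => κ y.1)
      (fun x y h => h1 x.1 y.1 x.2 y.2 h) (fun x y h => h2 x.1 y.1 x.2 y.2 h)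
      (fun x y h => by
        obtain ⟨z, hz, h3, h4⟩ := hr x.1 y.1 x.2 y.2 h
        exact ⟨⟨z, hz⟩, h3, h4⟩)
      (fun z z' h3 h4 => Subtype.ext (hu z.1 z'.1 z.2 z'.2 h3 h4)) F
    have e2 := cond_cond_of_rect (fun y : {x // R x} => κq y.1) (fun y : {x // R x} => κp y.1)
      (fun y : {x // R x} => κ y.1)
      (fun x y h => h2 x.1 y.1 x.2 y.2 h) (fun x y h => h1 x.1 y.1 x.2 y.2 h)
      (fun x y h => by
        obtain ⟨z, hz, h3, h4⟩ := hr y.1 x.1 y.2 x.2 h.symm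
        exact ⟨⟨z, hz⟩, h4, h3⟩)
      (fun z z' h3 h4 => Subtype.ext (hu z.1 z'.1 z.2 z'.2 h4 h3)) F
    rw [e1, e2]

end DAbstract

end Crest.Agent.Lib.SW
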