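import Crest.Agent.Lib.SW.Graph
import Crest.Agent.Lib.SW.DAbstract

/-!
# The disjoint-pairs inequality (S0453, module D)

Math: findings "S0453 COMPLETE PROOF helper2", step 4 + refinements posted in findings.
The abstract inequality is `abstract_D` in `DAbstract.lean`; here its hypotheses are checked.
-/

set_option autoImplicit false
set_option linter.unusedSimpArgs false
set_option linter.unusedTactic false

open Finset
open scoped Classical
open Crest.SwitchChain

namespace Crest.Agent.Lib.SW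

variable {n : ℕ} {d : Fin n → ℕ}

/-- Outer pairs of `{a,b}`: `X_τ`. -/
def Xt (a b c e : Fin n) (u v : Fin n) : Prop := Xpair a b u v ∧ ¬ Xblock a b c e u v

theorem Xpair_uv_comm (a b u v : Fin n) : Xpair a b u v ↔ Xpair a b v u := by
  unfold Xpair; tauto

theorem Xt_comm (a b c e u v : Fin n) : Xt a b c e u v ↔ Xt a b c e v u := by
  unfold Xt; rw [Xpair_uv_comm, Xblock_comm]

theorem Xblock_swap (a b c e u v : Fin n) : Xblock c e a b u v ↔ Xblock a b c e u v := by
  unfold Xblock; tauto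

theorem Dist4.swap {a b c e : Fin n} (h : Dist4 a b c e) : Dist4 c e a b := by
  obtain ⟨h1, h2, h3, h4, h5, h6⟩ := h
  exact ⟨h6, h2.symm, h4.symm, h3.symm, h5.symm, h1⟩

theorem XiG_swap {a b c e : Fin n} {E : Finset (Edge n)} : XiG c e a b E ↔ XiG a b c e E := by
  unfold XiG
  rw [adj_comm E c a, adj_comm E e b, adj_comm E c b, adj_comm E e a]
  tauto

theorem swG_swap (a b c e : Fin n) (E : Finset (Edge n)) : swG c e a b E = swG a b c e E := by
  by_cases hc : Dist4 a b c e ∧ XiG a b c e E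
  · obtain ⟨hd, hx⟩ := hc
    apply ext_adj
    intro u v
    rw [adj_swG hd hx, adj_swG hd.swap (XiG_swap.2 hx), Xblock_swap]
  · have hc' : ¬ (Dist4 c e a b ∧ XiG c e a b E) := fun h =>
      hc ⟨h.1.swap, XiG_swap.1 h.2⟩
    rw [swG_of_not hc, swG_of_not hc']

theorem sw_swap (a b c e : Fin n) (G : Om d) : sw c e a b G = sw a b c e G :=
  Subtype.ext (swG_swap a b c e G.1)

theorem Xi_swap {a b c e : Fin n} {G : Om d} : Xi c e a b G ↔ Xi a b c e G := by
  unfold Xi
  constructor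
  · rintro ⟨h, hx⟩; exact ⟨h.swap, XiG_swap.1 hx⟩
  · rintro ⟨h, hx⟩; exact ⟨h.swap, XiG_swap.2 hx⟩

/-- Outer pairs of `{a,b}` are not pairs of `{c,e}`. -/
theorem Xt_not_Xpair {a b c e : Fin n} (h : Dist4 a b c e) {u v : Fin n}
    (ht : Xt a b c e u v) : ¬ Xpair c e u v := by
  obtain ⟨h1, h2, h3, h4, h5, h6⟩ := h
  unfold Xt Xpair Xblock at *
  rcases ht with ⟨⟨h7, h8⟩, h9⟩
  rintro ⟨h10, h11⟩
  rcases h7 with rfl | rfl | rfl | rfl <;> rcases h10 with rfl | rfl | rfl | rfl <;> simp_all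

/-- Off the block, the switch does not change anything. -/
theorem adj_swG_of_not_block {a b c e : Fin n} {E : Finset (Edge n)} {u v : Fin n}
    (hb : ¬ Xblock a b c e u v) (hd : Dist4 a b c e) : adj (swG a b c e E) u v ↔ adj E u v := by
  by_cases hx : XiG a b c e E
  · rw [adj_swG hd hx]; tauto
  · rw [swG_of_not (fun h => hx h.2)]


/-! ### Degrees at a vertex -/

/-- The indicator of a proposition, as a natural number. -/
noncomputable def ind (P : Prop) : ℕ := (decide P).toNat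

theorem dX_two {X : Fin n → Fin n → Prop} {E : Finset (Edge n)} {v p q : Fin n}
    (hX : ∀ u, X v u ↔ u = p ∨ u = q) (hpq : p ≠ q) :
    dX X E v = ind (adj E v p) + ind (adj E v q) := by
  unfold dX ind
  have : (univ.filter fun u => X v u ∧ adj E v u) =
      (if adj E v p then {p} else ∅) ∪ (if adj E v q then {q} else ∅) := by
    ext u
    simp only [mem_filter, mem_univ, true_and, hX, mem_union]
    by_cases h1 : adj E v p <;> by_cases h2 : adj E v q <;>
      simp only [h1, h2, if_true, if_false, mem_singleton, notMem_empty, or_false, false_or] <;>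
      constructor <;> (try rintro ⟨rfl | rfl, h⟩) <;> (try rintro rfl) <;> (try simp_all)
  rw [this, card_union_of_disjoint]
  · by_cases h1 : adj E v p <;> by_cases h2 : adj E v q <;> simp [h1, h2]
  · by_cases h1 : adj E v p <;> by_cases h2 : adj E v q <;> simp [h1, h2, hpq]

theorem dX_eq_of_agree_at {X : Fin n → Fin n → Prop} {G H : Finset (Edge n)} (hG : G ∈ realizations d)
    (hH : H ∈ realizations d) (v : Fin n) (h : ∀ u, ¬ X v u → (adj G v u ↔ adj H v u)) :
    dX X G v = dX X H v := by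
  rw [mem_realizations] at hG hH
  have h1 := deg_eq_dX_add X G v
  have h2 := deg_eq_dX_add X H v
  have h3 : dX (fun u w => ¬ X u w) G v = dX (fun u w => ¬ X u w) H v := by
    unfold dX
    congr 1
    ext u
    simp only [mem_filter, mem_univ, true_and]
    constructor
    · rintro ⟨a, b⟩; exact ⟨a, (h u a).1 b⟩
    · rintro ⟨a, b⟩; exact ⟨a, (h u a).2 b⟩
  have h4 := hG v
  have h5 := hH v
  omega

theorem dX_eq_of_agree_on {X : Fin n → Fin n → Prop} {G H : Finset (Edge n)} (v : Fin n)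
    (h : ∀ u, X v u → (adj G v u ↔ adj H v u)) :
    dX X G v = dX X H v := by
  unfold dX
  congr 1
  ext u
  simp only [mem_filter, mem_univ, true_and]
  constructor
  · rintro ⟨a, b⟩; exact ⟨a, (h u a).1 b⟩
  · rintro ⟨a, b⟩; exact ⟨a, (h u a).2 b⟩

theorem dX_congr_pred {X Y : Fin n → Fin n → Prop} {G : Finset (Edge n)} (v : Fin n)
    (h : ∀ u, X v u ↔ Y v u) : dX X G v = dX Y G v := by
  unfold dX
  congr 1
  ext u
  simp only [mem_filter, mem_univ, true_and, h]

theorem dX_disj_add {X Y Z : Fin n → Fin n → Prop} (G : Finset (Edge n)) (v : Fin n)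
    (h : ∀ u, Z v u ↔ (X v u ∨ Y v u)) (hd : ∀ u, X v u → ¬ Y v u) :
    dX Z G v = dX X G v + dX Y G v := by
  unfold dX
  rw [← card_union_of_disjoint]
  · congr 1
    ext u
    simp only [mem_filter, mem_univ, true_and, mem_union, h]
    tauto
  · rw [disjoint_left]
    intro u hu hu'
    simp only [mem_filter] at hu hu'
    exact hd u hu.2.1 hu'.2.1

theorem block_a {a b c e : Fin n} (h : Dist4 a b c e) (u : Fin n) :
    Xblock a b c e a u ↔ u = c ∨ u = e := by
  obtain ⟨h1, h2, h3, h4, h5, h6⟩ := h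
  unfold Xblock
  simp [h2, h3]

theorem block_b {a b c e : Fin n} (h : Dist4 a b c e) (u : Fin n) :
    Xblock a b c e b u ↔ u = c ∨ u = e := by
  obtain ⟨h1, h2, h3, h4, h5, h6⟩ := h
  unfold Xblock
  simp [h4, h5]

theorem block_c {a b c e : Fin n} (h : Dist4 a b c e) (u : Fin n) :
    Xblock a b c e c u ↔ u = a ∨ u = b := by
  obtain ⟨h1, h2, h3, h4, h5, h6⟩ := h
  unfold Xblock
  simp [h2.symm, h4.symm]

theorem block_e {a b c e : Fin n} (h : Dist4 a b c e) (u : Fin n) :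
    Xblock a b c e e u ↔ u = a ∨ u = b := by
  obtain ⟨h1, h2, h3, h4, h5, h6⟩ := h
  unfold Xblock
  simp [h3.symm, h5.symm]

theorem dX_block_a {a b c e : Fin n} (h : Dist4 a b c e) (E : Finset (Edge n)) :
    dX (Xblock a b c e) E a = ind (adj E a c) + ind (adj E a e) :=
  dX_two (block_a h) h.2.2.2.2.2

theorem dX_block_b {a b c e : Fin n} (h : Dist4 a b c e) (E : Finset (Edge n)) :
    dX (Xblock a b c e) E b = ind (adj E b c) + ind (adj E b e) :=
  dX_two (block_b h) h.2.2.2.2.2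

theorem dX_block_c {a b c e : Fin n} (h : Dist4 a b c e) (E : Finset (Edge n)) :
    dX (Xblock a b c e) E c = ind (adj E a c) + ind (adj E b c) := by
  rw [dX_two (block_c h) h.1, adj_comm E c a, adj_comm E c b]

theorem dX_block_e {a b c e : Fin n} (h : Dist4 a b c e) (E : Finset (Edge n)) :
    dX (Xblock a b c e) E e = ind (adj E a e) + ind (adj E b e) := by
  rw [dX_two (block_e h) h.1, adj_comm E e a, adj_comm E e b]

/-- `¬ block` at `c` implies `¬ Xpair a b` at `c`. -/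
theorem not_Xpair_of_not_block_c {a b c e : Fin n} (h : Dist4 a b c e) {u : Fin n}
    (hb : ¬ Xblock a b c e c u) : ¬ Xpair a b c u := by
  rw [block_c h] at hb
  obtain ⟨h1, h2, h3, h4, h5, h6⟩ := h
  unfold Xpair
  rintro ⟨h7 | h7 | h7 | h7, -⟩
  · exact h2 h7.symm
  · exact h4 h7.symm
  · exact hb (Or.inl h7)
  · exact hb (Or.inr h7)

theorem not_Xpair_of_not_block_e {a b c e : Fin n} (h : Dist4 a b c e) {u : Fin n}
    (hb : ¬ Xblock a b c e e u) : ¬ Xpair a b e u := by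
  rw [block_e h] at hb
  obtain ⟨h1, h2, h3, h4, h5, h6⟩ := h
  unfold Xpair
  rintro ⟨h7 | h7 | h7 | h7, -⟩
  · exact h3 h7.symm
  · exact h5 h7.symm
  · exact hb (Or.inl h7)
  · exact hb (Or.inr h7)

/-- Block margins at `c` and `e` are constant on `{a,b}`-fibers. -/
theorem margin_c {a b c e : Fin n} (h : Dist4 a b c e) {x y : Om d} (hk : pk a b x = pk a b y) :
    ind (adj x.1 a c) + ind (adj x.1 b c) = ind (adj y.1 a c) + ind (adj y.1 b c) := by
  rw [← dX_block_c h, ← dX_block_c h]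
  refine dX_eq_of_agree_at x.2 y.2 c fun u hu => ?_
  exact frz_eq_iff.1 hk c u (not_Xpair_of_not_block_c h hu)

theorem margin_e {a b c e : Fin n} (h : Dist4 a b c e) {x y : Om d} (hk : pk a b x = pk a b y) :
    ind (adj x.1 a e) + ind (adj x.1 b e) = ind (adj y.1 a e) + ind (adj y.1 b e) := by
  rw [← dX_block_e h, ← dX_block_e h]
  refine dX_eq_of_agree_at x.2 y.2 e fun u hu => ?_
  exact frz_eq_iff.1 hk e u (not_Xpair_of_not_block_e h hu)

/-- Block margins at `a` and `b` are constant on `{c,e}`-fibers. -/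
theorem margin_a {a b c e : Fin n} (h : Dist4 a b c e) {x y : Om d} (hk : pk c e x = pk c e y) :
    ind (adj x.1 a c) + ind (adj x.1 a e) = ind (adj y.1 a c) + ind (adj y.1 a e) := by
  have := margin_c h.swap hk
  simpa only [adj_comm _ c a, adj_comm _ e a] using this

theorem margin_b {a b c e : Fin n} (h : Dist4 a b c e) {x y : Om d} (hk : pk c e x = pk c e y) :
    ind (adj x.1 b c) + ind (adj x.1 b e) = ind (adj y.1 b c) + ind (adj y.1 b e) := by
  have := margin_e h.swap hk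
  simpa only [adj_comm _ c b, adj_comm _ e b] using this


/-! ### Block states -/

theorem bits_unique : ∀ x₁ x₂ x₃ x₄ y₁ y₂ y₃ y₄ : Bool,
    x₁.toNat + x₃.toNat = y₁.toNat + y₃.toNat → x₂.toNat + x₄.toNat = y₂.toNat + y₄.toNat →
    x₁.toNat + x₂.toNat = y₁.toNat + y₂.toNat → x₃.toNat + x₄.toNat = y₃.toNat + y₄.toNat →
    x₁.toNat + x₂.toNat + x₃.toNat + x₄.toNat ≠ 2 → x₁ = y₁ ∧ x₂ = y₂ ∧ x₃ = y₃ ∧ x₄ = y₄ := by
  decide

theorem bits_exists : ∀ x₁ x₂ x₃ x₄ y₁ y₂ y₃ y₄ : Bool,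
    x₁.toNat + x₂.toNat + x₃.toNat + x₄.toNat = y₁.toNat + y₂.toNat + y₃.toNat + y₄.toNat →
    x₁.toNat + x₂.toNat + x₃.toNat + x₄.toNat ≠ 2 →
    ∃ z₁ z₂ z₃ z₄ : Bool, z₁.toNat + z₃.toNat = x₁.toNat + x₃.toNat ∧
      z₂.toNat + z₄.toNat = x₂.toNat + x₄.toNat ∧
      z₁.toNat + z₂.toNat = y₁.toNat + y₂.toNat ∧ z₃.toNat + z₄.toNat = y₃.toNat + y₄.toNat := by
  decide

theorem bits_cover : ∀ x₁ x₂ x₃ x₄ : Bool,
    x₁.toNat + x₂.toNat + x₃.toNat + x₄.toNat ≠ 2 ∨
      (x₁ = true ∧ x₄ = true ∧ x₂ = false ∧ x₃ = false) ∨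
      (x₁ = false ∧ x₄ = false ∧ x₂ = true ∧ x₃ = true) ∨
      (x₁.toNat + x₃.toNat ≠ 1 ∧ x₂.toNat + x₄.toNat ≠ 1) ∨
      (x₁.toNat + x₂.toNat ≠ 1 ∧ x₃.toNat + x₄.toNat ≠ 1) := by
  decide

theorem bits_same : ∀ x₁ x₃ y₁ y₃ : Bool, x₁.toNat + x₃.toNat = y₁.toNat + y₃.toNat →
    x₁.toNat + x₃.toNat ≠ 1 → x₁ = y₁ ∧ x₃ = y₃ := by
  decide

/-- The number of block edges. -/
noncomputable def bs (a b c e : Fin n) (E : Finset (Edge n)) : ℕ :=
  ind (adj E a c) + ind (adj E a e) + ind (adj E b c) + ind (adj E b e)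

theorem decide_eq_iff {P Q : Prop} : decide P = decide Q ↔ (P ↔ Q) := by
  by_cases h1 : P <;> by_cases h2 : Q <;> simp [h1, h2]

theorem bs_p {a b c e : Fin n} (h : Dist4 a b c e) {x y : Om d} (hk : pk a b x = pk a b y) :
    bs a b c e x.1 = bs a b c e y.1 := by
  have h1 := margin_c h hk
  have h2 := margin_e h hk
  unfold bs
  omega

theorem bs_q {a b c e : Fin n} (h : Dist4 a b c e) {x y : Om d} (hk : pk c e x = pk c e y) :
    bs a b c e x.1 = bs a b c e y.1 := by
  have h1 := margin_a h hk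
  have h2 := margin_b h hk
  unfold bs
  omega

theorem frzT_of_block_same {a b c e : Fin n} {x y : Finset (Edge n)}
    (hk : frz (Xpair a b) x = frz (Xpair a b) y)
    (h1 : adj x a c ↔ adj y a c) (h2 : adj x a e ↔ adj y a e)
    (h3 : adj x b c ↔ adj y b c) (h4 : adj x b e ↔ adj y b e) :
    frz (Xt a b c e) x = frz (Xt a b c e) y := by
  refine frz_eq_iff.2 fun u v hn => ?_
  by_cases hp : Xpair a b u v
  · have hb : Xblock a b c e u v := by
      by_contra hb
      exact hn ⟨hp, hb⟩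
    unfold Xblock at hb
    rcases hb with ⟨rfl | rfl, rfl | rfl⟩ | ⟨rfl | rfl, rfl | rfl⟩
    · exact h1
    · exact h2
    · exact h3
    · exact h4
    · rw [adj_comm x, adj_comm y]; exact h1
    · rw [adj_comm x, adj_comm y]; exact h2
    · rw [adj_comm x, adj_comm y]; exact h3
    · rw [adj_comm x, adj_comm y]; exact h4
  · exact frz_eq_iff.1 hk u v hp

theorem block_ac (a b c e : Fin n) : Xblock a b c e a c := by unfold Xblock; simp
theorem block_ae (a b c e : Fin n) : Xblock a b c e a e := by unfold Xblock; simp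
theorem block_bc (a b c e : Fin n) : Xblock a b c e b c := by unfold Xblock; simp
theorem block_be (a b c e : Fin n) : Xblock a b c e b e := by unfold Xblock; simp

/-- Two points of `Ξ` in a `{a,b}`-fiber have the same block or opposite blocks. -/
theorem xi_p {a b c e : Fin n} (x y : Om d) (hx : Xi a b c e x) (hy : Xi a b c e y)
    (hk : pk a b y = pk a b x) :
    frz (Xt a b c e) y.1 = frz (Xt a b c e) x.1 ∨
      frz (Xt a b c e) y.1 = frz (Xt a b c e) (sw a b c e x).1 := by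
  obtain ⟨hd, hxX⟩ := hx
  obtain ⟨-, hyX⟩ := hy
  have hsw : ∀ u v, Xblock a b c e u v → (adj (swG a b c e x.1) u v ↔ ¬ adj x.1 u v) := by
    intro u v hb
    rw [adj_swG hd hxX]
    tauto
  have hk2 : pk a b y = pk a b (sw a b c e x) := by rw [hk, pk_swG]
  have hac := hsw a c (block_ac a b c e)
  have hae := hsw a e (block_ae a b c e)
  have hbc := hsw b c (block_bc a b c e)
  have hbe := hsw b e (block_be a b c e)
  have hxX' := hxX
  unfold XiG at hxX' hyX
  rcases hxX' with ⟨h1, h2, h3, h4⟩ | ⟨h1, h2, h3, h4⟩ <;>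
    rcases hyX with ⟨h5, h6, h7, h8⟩ | ⟨h5, h6, h7, h8⟩
  · left; exact frzT_of_block_same hk (by tauto) (by tauto) (by tauto) (by tauto)
  · right; refine frzT_of_block_same hk2 ?_ ?_ ?_ ?_ <;> (show _ ↔ adj (swG a b c e x.1) _ _) <;> tauto
  · right; refine frzT_of_block_same hk2 ?_ ?_ ?_ ?_ <;> (show _ ↔ adj (swG a b c e x.1) _ _) <;> tauto
  · left; exact frzT_of_block_same hk (by tauto) (by tauto) (by tauto) (by tauto)

/-- If the block margins at `c,e` are extreme then the `{a,b}`-fiber has a constant block. -/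
theorem fib_same_p {a b c e : Fin n} (h : Dist4 a b c e) (x : Om d)
    (h1 : ind (adj x.1 a c) + ind (adj x.1 b c) ≠ 1)
    (h2 : ind (adj x.1 a e) + ind (adj x.1 b e) ≠ 1) :
    ∀ y : Om d, pk a b y = pk a b x → frz (Xt a b c e) y.1 = frz (Xt a b c e) x.1 := by
  intro y hk
  have m1 := margin_c h hk
  have m2 := margin_e h hk
  have h1' : ind (adj y.1 a c) + ind (adj y.1 b c) ≠ 1 := by rw [m1]; exact h1
  have h2' : ind (adj y.1 a e) + ind (adj y.1 b e) ≠ 1 := by rw [m2]; exact h2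
  obtain ⟨a1, a2⟩ := bits_same _ _ _ _ m1 h1'
  obtain ⟨a3, a4⟩ := bits_same _ _ _ _ m2 h2'
  exact frzT_of_block_same hk (decide_eq_iff.1 a1) (decide_eq_iff.1 a3) (decide_eq_iff.1 a2)
    (decide_eq_iff.1 a4)


/-- The covering of the state space. -/
theorem cover_D {a b c e : Fin n} (h : Dist4 a b c e) (x : Om d) :
    Xi a b c e x ∨ bs a b c e x.1 ≠ 2 ∨
      (∀ y : Om d, pk a b y = pk a b x → frz (Xt a b c e) y.1 = frz (Xt a b c e) x.1) ∨
      (∀ y : Om d, pk c e y = pk c e x → frz (Xt c e a b) y.1 = frz (Xt c e a b) x.1) := by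
  rcases bits_cover (decide (adj x.1 a c)) (decide (adj x.1 a e)) (decide (adj x.1 b c))
      (decide (adj x.1 b e)) with h1 | h1 | h1 | h1 | h1
  · exact Or.inr (Or.inl h1)
  · left
    simp only [decide_eq_true_eq, decide_eq_false_iff_not] at h1
    exact ⟨h, Or.inl ⟨h1.1, h1.2.1, h1.2.2.1, h1.2.2.2⟩⟩
  · left
    simp only [decide_eq_true_eq, decide_eq_false_iff_not] at h1
    exact ⟨h, Or.inr ⟨h1.1, h1.2.1, h1.2.2.1, h1.2.2.2⟩⟩
  · exact Or.inr (Or.inr (Or.inl (fib_same_p h x h1.1 h1.2)))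
  · refine Or.inr (Or.inr (Or.inr (fib_same_p h.swap x ?_ ?_)))
    · rw [adj_comm _ c a, adj_comm _ e a]; exact h1.1
    · rw [adj_comm _ c b, adj_comm _ e b]; exact h1.2

/-- Distinct from the `s = 2` part. -/
theorem bs_of_Xi {a b c e : Fin n} {x : Om d} (h : Xi a b c e x) : ¬ bs a b c e x.1 ≠ 2 := by
  obtain ⟨-, h⟩ := h
  have e1 : bs a b c e x.1 = 2 := by
    unfold XiG at h
    rcases h with ⟨h1, h2, h3, h4⟩ | ⟨h1, h2, h3, h4⟩ <;> simp [bs, ind, h1, h2, h3, h4]
  simp [e1]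

/-- Key of the product classes on the part `s ≠ 2`. -/
noncomputable def rKey (a b c e : Fin n) (G : Om d) :
    (Fin n → Fin n → Prop) × (Fin n → ℕ) × ℕ :=
  (frz (fun u v => Xpair a b u v ∨ Xpair c e u v) G.1,
    (fun w => if w = a ∨ w = b ∨ w = c ∨ w = e then 0 else dX (Xt a b c e) G.1 w),
    bs a b c e G.1)

/-- At an outer vertex, the pairs of `{a,b}` are outer pairs. -/
theorem Xt_iff_Xpair_outer {a b c e w u : Fin n} (hw : ¬ (w = a ∨ w = b ∨ w = c ∨ w = e)) :
    Xt a b c e w u ↔ Xpair a b w u := by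
  unfold Xt
  have : ¬ Xblock a b c e w u := by
    unfold Xblock
    simp only [not_or] at hw
    obtain ⟨h1, h2, h3, h4⟩ := hw
    rintro (⟨h5 | h5, -⟩ | ⟨-, h5 | h5⟩) <;> simp_all
  tauto

theorem rKey_p {a b c e : Fin n} (h : Dist4 a b c e) {x y : Om d} (hk : pk a b x = pk a b y) :
    rKey a b c e x = rKey a b c e y := by
  unfold rKey
  refine Prod.ext ?_ (Prod.ext ?_ (bs_p h hk))
  · exact frz_eq_iff.2 fun u v hn => frz_eq_iff.1 hk u v fun hp => hn (Or.inl hp)
  · funext w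
    show (if w = a ∨ w = b ∨ w = c ∨ w = e then 0 else dX (Xt a b c e) x.1 w) =
      (if w = a ∨ w = b ∨ w = c ∨ w = e then 0 else dX (Xt a b c e) y.1 w)
    split_ifs with hw
    · rfl
    · refine dX_eq_of_agree_at x.2 y.2 w fun u hu => frz_eq_iff.1 hk w u ?_
      rwa [Xt_iff_Xpair_outer hw] at hu

theorem rKey_q {a b c e : Fin n} (h : Dist4 a b c e) {x y : Om d} (hk : pk c e x = pk c e y) :
    rKey a b c e x = rKey a b c e y := by
  unfold rKey
  refine Prod.ext ?_ (Prod.ext ?_ (bs_q h hk))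
  · exact frz_eq_iff.2 fun u v hn => frz_eq_iff.1 hk u v fun hp => hn (Or.inr hp)
  · funext w
    show (if w = a ∨ w = b ∨ w = c ∨ w = e then 0 else dX (Xt a b c e) x.1 w) =
      (if w = a ∨ w = b ∨ w = c ∨ w = e then 0 else dX (Xt a b c e) y.1 w)
    split_ifs with hw
    · rfl
    · exact dX_eq_of_agree_on w fun u hu => frz_eq_iff.1 hk w u (Xt_not_Xpair h hu)

/-- Uniqueness: off `s = 2`, a point is determined by its two fibers. -/
theorem rect_unique {a b c e : Fin n} (h : Dist4 a b c e) (z z' : Om d)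
    (hz : bs a b c e z.1 ≠ 2) (hp : pk a b z = pk a b z') (hq : pk c e z = pk c e z') : z = z' := by
  have m1 := margin_c h hp
  have m2 := margin_e h hp
  have m3 := margin_a h hq
  have m4 := margin_b h hq
  obtain ⟨a1, a2, a3, a4⟩ := bits_unique _ _ _ _ _ _ _ _ m1 m2 m3 m4 hz
  have e1 := decide_eq_iff.1 a1
  have e2 := decide_eq_iff.1 a2
  have e3 := decide_eq_iff.1 a3
  have e4 := decide_eq_iff.1 a4
  apply Subtype.ext
  apply ext_adj
  intro u v
  by_cases hpu : Xpair a b u v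
  · by_cases hb : Xblock a b c e u v
    · unfold Xblock at hb
      rcases hb with ⟨rfl | rfl, rfl | rfl⟩ | ⟨rfl | rfl, rfl | rfl⟩
      · exact e1
      · exact e2
      · exact e3
      · exact e4
      · rw [adj_comm z.1, adj_comm z'.1]; exact e1
      · rw [adj_comm z.1, adj_comm z'.1]; exact e2
      · rw [adj_comm z.1, adj_comm z'.1]; exact e3
      · rw [adj_comm z.1, adj_comm z'.1]; exact e4
    · exact frz_eq_iff.1 hq u v (Xt_not_Xpair h ⟨hpu, hb⟩)
  · exact frz_eq_iff.1 hp u v hpu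

/-- Building a graph from parts. -/
theorem exists_H {a b c e : Fin n} (h : Dist4 a b c e) (x y : Finset (Edge n))
    (z₁ z₂ z₃ z₄ : Prop) : ∃ H : Finset (Edge n),
      (∀ u v, Xt a b c e u v → (adj H u v ↔ adj y u v)) ∧
      (∀ u v, ¬ Xpair a b u v → (adj H u v ↔ adj x u v)) ∧
      (adj H a c ↔ z₁) ∧ (adj H a e ↔ z₂) ∧ (adj H b c ↔ z₃) ∧ (adj H b e ↔ z₄) := by
  obtain ⟨h1, h2, h3, h4, h5, h6⟩ := id h
  let r : Fin n → Fin n → Prop := fun u v =>
    (Xt a b c e u v ∧ adj y u v) ∨ (¬ Xpair a b u v ∧ adj x u v) ∨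
    (((u = a ∧ v = c) ∨ (u = c ∧ v = a)) ∧ z₁) ∨ (((u = a ∧ v = e) ∨ (u = e ∧ v = a)) ∧ z₂) ∨
    (((u = b ∧ v = c) ∨ (u = c ∧ v = b)) ∧ z₃) ∨ (((u = b ∧ v = e) ∨ (u = e ∧ v = b)) ∧ z₄)
  have hr : ∀ u v, r u v → r v u := by
    intro u v huv
    simp only [r] at huv ⊢
    rw [Xt_comm, Xpair_uv_comm, adj_comm y, adj_comm x]
    rcases huv with h7 | h7 | ⟨h7, h8⟩ | ⟨h7, h8⟩ | ⟨h7, h8⟩ | ⟨h7, h8⟩
    · exact Or.inl h7
    · exact Or.inr (Or.inl h7)
    · exact Or.inr (Or.inr (Or.inl ⟨h7.symm.imp And.symm And.symm, h8⟩))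
    · exact Or.inr (Or.inr (Or.inr (Or.inl ⟨h7.symm.imp And.symm And.symm, h8⟩)))
    · exact Or.inr (Or.inr (Or.inr (Or.inr (Or.inl ⟨h7.symm.imp And.symm And.symm, h8⟩))))
    · exact Or.inr (Or.inr (Or.inr (Or.inr (Or.inr ⟨h7.symm.imp And.symm And.symm, h8⟩))))
  have hadj := adj_ofAdj hr
  have htXt : ∀ {u v}, Xt a b c e u v →
      ¬ (((u = a ∧ v = c) ∨ (u = c ∧ v = a)) ∨ ((u = a ∧ v = e) ∨ (u = e ∧ v = a)) ∨
        ((u = b ∧ v = c) ∨ (u = c ∧ v = b)) ∨ ((u = b ∧ v = e) ∨ (u = e ∧ v = b))) := by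
    intro u v ht hb
    apply ht.2
    unfold Xblock
    rcases hb with (⟨rfl, rfl⟩ | ⟨rfl, rfl⟩) | (⟨rfl, rfl⟩ | ⟨rfl, rfl⟩) | (⟨rfl, rfl⟩ | ⟨rfl, rfl⟩) |
      (⟨rfl, rfl⟩ | ⟨rfl, rfl⟩) <;> simp
  have hnotp : ∀ {u v}, ¬ Xpair a b u v →
      ¬ (((u = a ∧ v = c) ∨ (u = c ∧ v = a)) ∨ ((u = a ∧ v = e) ∨ (u = e ∧ v = a)) ∨
        ((u = b ∧ v = c) ∨ (u = c ∧ v = b)) ∨ ((u = b ∧ v = e) ∨ (u = e ∧ v = b))) := by
    intro u v ht hb
    apply ht
    apply Xblock_imp_Xpair h
    unfold Xblock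
    rcases hb with (⟨rfl, rfl⟩ | ⟨rfl, rfl⟩) | (⟨rfl, rfl⟩ | ⟨rfl, rfl⟩) | (⟨rfl, rfl⟩ | ⟨rfl, rfl⟩) |
      (⟨rfl, rfl⟩ | ⟨rfl, rfl⟩) <;> simp
  have hbits : ∀ {u v}, Xblock a b c e u v → ¬ Xt a b c e u v ∧ Xpair a b u v := by
    intro u v hb
    exact ⟨fun ht => ht.2 hb, Xblock_imp_Xpair h hb⟩
  refine ⟨ofAdj r, ?_, ?_, ?_, ?_, ?_, ?_⟩
  · intro u v ht
    rw [hadj]
    have hnb := htXt ht
    simp only [r]
    constructor
    · rintro ⟨-, h7 | h7 | h7 | h7 | h7 | h7⟩
      · exact h7.2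
      · exact absurd ht.1 h7.1
      · exact absurd (Or.inl h7.1) hnb
      · exact absurd (Or.inr (Or.inl h7.1)) hnb
      · exact absurd (Or.inr (Or.inr (Or.inl h7.1))) hnb
      · exact absurd (Or.inr (Or.inr (Or.inr h7.1))) hnb
    · intro h7
      exact ⟨ne_of_adj h7, Or.inl ⟨ht, h7⟩⟩
  · intro u v ht
    rw [hadj]
    have hnb := hnotp ht
    simp only [r]
    constructor
    · rintro ⟨-, h7 | h7 | h7 | h7 | h7 | h7⟩
      · exact absurd h7.1.1 ht
      · exact h7.2
      · exact absurd (Or.inl h7.1) hnb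
      · exact absurd (Or.inr (Or.inl h7.1)) hnb
      · exact absurd (Or.inr (Or.inr (Or.inl h7.1))) hnb
      · exact absurd (Or.inr (Or.inr (Or.inr h7.1))) hnb
    · intro h7
      exact ⟨ne_of_adj h7, Or.inr (Or.inl ⟨ht, h7⟩)⟩
  · rw [hadj]
    obtain ⟨hb1, hb2⟩ := hbits (block_ac a b c e)
    simp only [r, hb1, hb2, h2, h3, h1, h4, h6, false_and, not_true_eq_false, and_false, true_and,
      false_or, or_false, ne_eq, not_false_eq_true, h2.symm, h3.symm, h1.symm, h4.symm, h6.symm, h5,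
      h5.symm]
  · rw [hadj]
    obtain ⟨hb1, hb2⟩ := hbits (block_ae a b c e)
    simp only [r, hb1, hb2, h2, h3, h1, h4, h6, false_and, not_true_eq_false, and_false, true_and,
      false_or, or_false, ne_eq, not_false_eq_true, h2.symm, h3.symm, h1.symm, h4.symm, h6.symm, h5,
      h5.symm]
  · rw [hadj]
    obtain ⟨hb1, hb2⟩ := hbits (block_bc a b c e)
    simp only [r, hb1, hb2, h2, h3, h1, h4, h6, false_and, not_true_eq_false, and_false, true_and,
      false_or, or_false, ne_eq, not_false_eq_true, h2.symm, h3.symm, h1.symm, h4.symm, h6.symm, h5,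
      h5.symm]
  · rw [hadj]
    obtain ⟨hb1, hb2⟩ := hbits (block_be a b c e)
    simp only [r, hb1, hb2, h2, h3, h1, h4, h6, false_and, not_true_eq_false, and_false, true_and,
      false_or, or_false, ne_eq, not_false_eq_true, h2.symm, h3.symm, h1.symm, h4.symm, h6.symm, h5,
      h5.symm]


theorem ind_of_iff {P : Prop} {z : Bool} (h : P ↔ z = true) : ind P = z.toNat := by
  unfold ind
  cases z <;> simp_all

theorem Xpair_iff_block_or_Xt {a b c e : Fin n} (h : Dist4 a b c e) (u v : Fin n) :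
    Xpair a b u v ↔ (Xblock a b c e u v ∨ Xt a b c e u v) := by
  constructor
  · intro hp
    by_cases hb : Xblock a b c e u v
    · exact Or.inl hb
    · exact Or.inr ⟨hp, hb⟩
  · rintro (hb | ht)
    · exact Xblock_imp_Xpair h hb
    · exact ht.1

theorem dX_Xpair_split {a b c e : Fin n} (h : Dist4 a b c e) (G : Finset (Edge n)) (v : Fin n) :
    dX (Xpair a b) G v = dX (Xblock a b c e) G v + dX (Xt a b c e) G v :=
  dX_disj_add G v (fun u => Xpair_iff_block_or_Xt h v u) (fun _ hb ht => ht.2 hb)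

theorem dX_Xt_c {a b c e : Fin n} (h : Dist4 a b c e) (G : Finset (Edge n)) :
    dX (Xt a b c e) G c = 0 := by
  unfold dX
  rw [card_eq_zero, filter_eq_empty_iff]
  rintro u - ⟨⟨hp, hb⟩, -⟩
  exact not_Xpair_of_not_block_c h hb hp

theorem dX_Xt_e {a b c e : Fin n} (h : Dist4 a b c e) (G : Finset (Edge n)) :
    dX (Xt a b c e) G e = 0 := by
  unfold dX
  rw [card_eq_zero, filter_eq_empty_iff]
  rintro u - ⟨⟨hp, hb⟩, -⟩
  exact not_Xpair_of_not_block_e h hb hp

theorem dX_block_outer {a b c e w : Fin n} (hw : ¬ (w = a ∨ w = b ∨ w = c ∨ w = e))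
    (G : Finset (Edge n)) : dX (Xblock a b c e) G w = 0 := by
  unfold dX
  rw [card_eq_zero, filter_eq_empty_iff]
  rintro u - ⟨hb, -⟩
  simp only [not_or] at hw
  obtain ⟨h1, h2, h3, h4⟩ := hw
  unfold Xblock at hb
  rcases hb with ⟨h5 | h5, -⟩ | ⟨-, h5 | h5⟩ <;> simp_all

/-- If `u` is off `X_p` at `a`, then it is `b`, which is off both free sets. -/
theorem not_Xpair_a {a b c e u : Fin n} (h : Dist4 a b c e) (hu : ¬ Xpair a b a u) :
    ¬ Xpair a b a u ∧ ¬ Xpair c e a u := by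
  obtain ⟨h1, h2, h3, h4, h5, h6⟩ := h
  refine ⟨hu, ?_⟩
  have hub : u = b := by
    by_contra hne
    apply hu
    unfold Xpair
    simp [hne, h1]
  subst hub
  unfold Xpair
  simp [h2, h3, h4, h5]

theorem not_Xpair_b {a b c e u : Fin n} (h : Dist4 a b c e) (hu : ¬ Xpair a b b u) :
    ¬ Xpair a b b u ∧ ¬ Xpair c e b u := by
  obtain ⟨h1, h2, h3, h4, h5, h6⟩ := h
  refine ⟨hu, ?_⟩
  have hub : u = a := by
    by_contra hne
    apply hu
    unfold Xpair
    simp [hne, h1.symm]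
  subst hub
  unfold Xpair
  simp [h2, h3, h4, h5]

/-- Rectangularity on the part `s ≠ 2`. -/
theorem rect_exists {a b c e : Fin n} (h : Dist4 a b c e) (x y : Om d)
    (hxR : bs a b c e x.1 ≠ 2) (hkey : rKey a b c e x = rKey a b c e y) :
    ∃ z : Om d, bs a b c e z.1 ≠ 2 ∧ pk a b z = pk a b x ∧ pk c e z = pk c e y := by
  have hfrz : frz (fun u v => Xpair a b u v ∨ Xpair c e u v) x.1 =
      frz (fun u v => Xpair a b u v ∨ Xpair c e u v) y.1 := congrArg Prod.fst hkey
  have houter : ∀ w, ¬ (w = a ∨ w = b ∨ w = c ∨ w = e) →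
      dX (Xt a b c e) x.1 w = dX (Xt a b c e) y.1 w := by
    intro w hw
    have := congrFun (congrArg (fun p => p.2.1) hkey) w
    simp only [rKey, if_neg hw] at this
    exact this
  have hs : bs a b c e x.1 = bs a b c e y.1 := congrArg (fun p => p.2.2) hkey
  obtain ⟨z₁, z₂, z₃, z₄, m1, m2, m3, m4⟩ := bits_exists
    (decide (adj x.1 a c)) (decide (adj x.1 a e)) (decide (adj x.1 b c)) (decide (adj x.1 b e))
    (decide (adj y.1 a c)) (decide (adj y.1 a e)) (decide (adj y.1 b c)) (decide (adj y.1 b e))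
    hs hxR
  obtain ⟨H, hT, hO, hac, hae, hbc, hbe⟩ := exists_H h x.1 y.1
    (z₁ = true) (z₂ = true) (z₃ = true) (z₄ = true)
  have i1 := ind_of_iff hac
  have i2 := ind_of_iff hae
  have i3 := ind_of_iff hbc
  have i4 := ind_of_iff hbe
  have hTdX : ∀ v, dX (Xt a b c e) H v = dX (Xt a b c e) y.1 v :=
    fun v => dX_eq_of_agree_on v fun u hu => hT v u hu
  have hm : mix (Xpair a b) x.1 H = H := by
    apply ext_adj
    intro u v
    rw [adj_mix (Xpair_uv_comm a b)]
    by_cases hp : Xpair a b u v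
    · simp [hp]
    · simp [hp, hO u v hp]
  have hdeg : ∀ v, dX (Xpair a b) H v = dX (Xpair a b) x.1 v := by
    intro v
    by_cases hw : v = a ∨ v = b ∨ v = c ∨ v = e
    · rcases hw with rfl | rfl | rfl | rfl
      · have e1 : dX (Xpair v b) y.1 v = dX (Xpair v b) x.1 v := by
          refine dX_eq_of_agree_at y.2 x.2 v fun u hu => ?_
          obtain ⟨h7, h8⟩ := not_Xpair_a h hu
          exact (frz_eq_iff.1 hfrz v u (by tauto)).symm
        rw [← e1, dX_Xpair_split h, dX_Xpair_split h, hTdX, dX_block_a h, dX_block_a h, i1, i2]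
        rw [m3]; rfl
      · have e1 : dX (Xpair a v) y.1 v = dX (Xpair a v) x.1 v := by
          refine dX_eq_of_agree_at y.2 x.2 v fun u hu => ?_
          obtain ⟨h7, h8⟩ := not_Xpair_b h hu
          exact (frz_eq_iff.1 hfrz v u (by tauto)).symm
        rw [← e1, dX_Xpair_split h, dX_Xpair_split h, hTdX, dX_block_b h, dX_block_b h, i3, i4]
        rw [m4]; rfl
      · rw [dX_Xpair_split h, dX_Xpair_split h, dX_Xt_c h, dX_Xt_c h, dX_block_c h, dX_block_c h,
          i1, i3, m1]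
        rfl
      · rw [dX_Xpair_split h, dX_Xpair_split h, dX_Xt_e h, dX_Xt_e h, dX_block_e h, dX_block_e h,
          i2, i4, m2]
        rfl
    · rw [dX_Xpair_split h, dX_Xpair_split h, dX_block_outer hw, dX_block_outer hw, hTdX,
        houter v hw]
  have hmem : H ∈ realizations d := by
    rw [← hm]
    exact mix_mem (Xpair_uv_comm a b) x.2 hdeg
  refine ⟨⟨H, hmem⟩, ?_, frz_eq_iff.2 fun u v hn => hO u v hn, frz_eq_iff.2 fun u v hn => ?_⟩
  · show bs a b c e H ≠ 2
    have e1 : bs a b c e H = bs a b c e y.1 := by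
      unfold bs
      rw [i1, i2, i3, i4]
      have : ind (adj y.1 a c) + ind (adj y.1 a e) + ind (adj y.1 b c) + ind (adj y.1 b e) =
        (ind (adj y.1 a c) + ind (adj y.1 a e)) + (ind (adj y.1 b c) + ind (adj y.1 b e)) := by ring
      rw [this]
      have m3' : z₁.toNat + z₂.toNat = ind (adj y.1 a c) + ind (adj y.1 a e) := m3
      have m4' : z₃.toNat + z₄.toNat = ind (adj y.1 b c) + ind (adj y.1 b e) := m4
      omega
    rw [e1, ← hs]
    exact hxR
  · show adj H u v ↔ adj y.1 u v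
    by_cases ht : Xt a b c e u v
    · exact hT u v ht
    · have hb : ¬ Xblock a b c e u v := by
        intro hb
        apply hn
        exact Xblock_imp_Xpair h.swap ((Xblock_swap a b c e u v).2 hb)
      have hp : ¬ Xpair a b u v := by
        rw [Xpair_iff_block_or_Xt h]
        tauto
      rw [hO u v hp]
      exact frz_eq_iff.1 hfrz u v (by tauto)

/-- The predicate equality `Xi c e a b = Xi a b c e`. -/
theorem Xi_swap_fun (a b c e : Fin n) : (Xi c e a b : Om d → Prop) = Xi a b c e := by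
  funext G
  exact propext Xi_swap

theorem frz_sw_congr {a b c e : Fin n} (hd : Dist4 a b c e) {X : Fin n → Fin n → Prop}
    (hX : ∀ u v, X u v → ¬ Xblock a b c e u v) {x y : Om d} (h : frz X x.1 = frz X y.1) :
    frz X (sw a b c e x).1 = frz X (sw a b c e y).1 := by
  have hb : ∀ u v, Xblock a b c e u v → (adj x.1 u v ↔ adj y.1 u v) := fun u v hb =>
    frz_eq_iff.1 h u v fun hx => hX u v hx hb
  have hxi : XiG a b c e x.1 ↔ XiG a b c e y.1 := by
    unfold XiG
    rw [hb a c (block_ac a b c e), hb a e (block_ae a b c e), hb b c (block_bc a b c e),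
      hb b e (block_be a b c e)]
  refine frz_eq_iff.2 fun u v hn => ?_
  show adj (swG a b c e x.1) u v ↔ adj (swG a b c e y.1) u v
  by_cases h1 : XiG a b c e x.1
  · rw [adj_swG hd h1, adj_swG hd (hxi.1 h1)]
    have := frz_eq_iff.1 h u v hn
    tauto
  · rw [swG_of_not (fun h2 => h1 h2.2), swG_of_not (fun h2 => h1 (hxi.2 h2.2))]
    exact frz_eq_iff.1 h u v hn

theorem block_same_of_frz {a b c e : Fin n} {X : Fin n → Fin n → Prop}
    (hX : ∀ u v, X u v → ¬ Xblock a b c e u v) {x y : Om d} (h : frz X y.1 = frz X x.1)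
    (hx : Xi a b c e x) : Xi a b c e y := by
  have hb : ∀ u v, Xblock a b c e u v → (adj y.1 u v ↔ adj x.1 u v) := fun u v hb =>
    frz_eq_iff.1 h u v fun hx => hX u v hx hb
  refine ⟨hx.1, ?_⟩
  have := hx.2
  unfold XiG at this ⊢
  rw [hb a c (block_ac a b c e), hb a e (block_ae a b c e), hb b c (block_bc a b c e),
    hb b e (block_be a b c e)]
  exact this

set_option maxHeartbeats 2000000 in
theorem D_lemma {a b c e : Fin n} (h : Dist4 a b c e) (f : Om d → ℝ) :
    swE a b c e f - (1 / 2) * nuT a b c e f - (1 / 2) * nuT c e a b f ≤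
      ip (Qp a b f) (Qp c e f) := by
  have hXt : ∀ u v, Xt a b c e u v → ¬ Xblock a b c e u v := fun u v ht => ht.2
  have hXt' : ∀ u v, Xt c e a b u v → ¬ Xblock a b c e u v := fun u v ht hb =>
    ht.2 ((Xblock_swap a b c e u v).2 hb)
  have hTq : ∀ u v, Xt a b c e u v → ¬ Xpair c e u v := fun u v ht => Xt_not_Xpair h ht
  have hSp : ∀ u v, Xt c e a b u v → ¬ Xpair a b u v := fun u v ht => Xt_not_Xpair h.swap ht
  have hTS : ∀ u v, Xt a b c e u v → ¬ Xt c e a b u v := fun u v ht hs => hTq u v ht hs.1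
  have key := abstract_D (pk a b : Om d → _) (pk c e : Om d → _)
    (fun G : Om d => frz (Xt a b c e) G.1) (fun G : Om d => frz (Xt c e a b) G.1)
    (sw a b c e) (Xi a b c e) (fun G => bs a b c e G.1 ≠ 2)
    (sw_sw a b c e)
    (pk_swG a b c e)
    (fun G => by
      have := pk_swG (d := d) c e a b G
      rwa [sw_swap] at this)
    (fun x y hxy => frz_sw_congr h hXt hxy)
    (fun x y hxy => frz_sw_congr h hXt' hxy)
    (fun x y hxy => frz_eq_iff.2 fun u v hn => frz_eq_iff.1 hxy u v fun ht => hn ht.1)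
    (fun x y hxy => frz_eq_iff.2 fun u v hn => frz_eq_iff.1 hxy u v fun ht => hn ht.1)
    (fun F => EX_comm_of_disjoint (fun u v => Xt_comm a b c e u v) hTq F)
    (fun F => EX_comm_of_disjoint (fun u v => Xt_comm c e a b u v) hSp F)
    (fun F => EX_comm_of_disjoint (fun u v => Xt_comm a b c e u v) hTS F)
    (fun x hx => ⟨hx.1, XiG_swG hx.1 hx.2⟩)
    (fun x y hx hxy => block_same_of_frz hXt hxy hx)
    (fun x y hx hxy => block_same_of_frz hXt' hxy hx)
    (fun x y hx hy hxy => xi_p x y hx hy hxy)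
    (fun x y hx hy hxy => by
      have := xi_p (a := c) (b := e) (c := a) (e := b) x y (Xi_swap.2 hx) (Xi_swap.2 hy) hxy
      rwa [sw_swap] at this)
    (fun x hx => bs_of_Xi hx)
    (fun x => cover_D h x)
    (fun k => rect_part_nonneg (pk a b) (pk c e) (rKey a b c e) (fun G : Om d => bs a b c e G.1 ≠ 2)
      (fun x y hx hxy => by rw [show bs a b c e y.1 = bs a b c e x.1 from bs_p h hxy]; exact hx)
      (fun x y hx hxy => by rw [show bs a b c e y.1 = bs a b c e x.1 from bs_q h hxy]; exact hx)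
      (fun x y _ _ hxy => rKey_p h hxy) (fun x y _ _ hxy => rKey_q h hxy)
      (fun x y hx _ hxy => rect_exists h x y hx hxy)
      (fun z z' hz _ hp hq => rect_unique h z z' hz hp hq) k)
    f
  have e1 : nuT a b c e f =
      ∑ x ∈ univ.filter (Xi a b c e), (Aa (Xi a b c e) (pk a b) (Qc (pk a b) f) x) ^ 2 := by
    unfold nuT Aavg Aa
    congr!
  have e2 : nuT c e a b f =
      ∑ x ∈ univ.filter (Xi a b c e), (Aa (Xi a b c e) (pk c e) (Qc (pk c e) f) x) ^ 2 := by
    unfold nuT Aavg Aa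
    rw [Xi_swap_fun]
    congr!
  rw [e1, e2]
  exact key

end Crest.Agent.Lib.SW
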