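import Crest.Prelude.Def_SwitchChain
import Crest.Agent.Lib.SW.Cond

/-!
# Graph layer for the switch chain (S0453)

Graphs are `Finset (Edge n)`, looked at through the adjacency predicate `adj`.
`Om d` is the type of realizations of `d`.  A *free set* is a symmetric predicate
`X : Fin n → Fin n → Prop` on pairs of vertices; `frz X G` (the "frozen part" of `G`)
is the key of the conditional average `E^X`.
-/

set_option autoImplicit false

open Finset
open scoped Classical
open Crest.SwitchChain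

namespace Crest.Agent.Lib.SW

variable {n : ℕ}

/-- Adjacency in the edge set `E`. -/
def adj (E : Finset (Edge n)) (u v : Fin n) : Prop :=
  ∃ h : ¬ (s(u, v) : Sym2 (Fin n)).IsDiag, (⟨s(u, v), h⟩ : Edge n) ∈ E

theorem adj_comm (E : Finset (Edge n)) (u v : Fin n) : adj E u v ↔ adj E v u := by
  unfold adj
  constructor
  · rintro ⟨h, he⟩
    refine ⟨by simpa [Sym2.eq_swap] using h, ?_⟩
    convert he using 2
    exact Sym2.eq_swap
  · rintro ⟨h, he⟩
    refine ⟨by simpa [Sym2.eq_swap] using h, ?_⟩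
    convert he using 2
    exact Sym2.eq_swap

theorem not_adj_self (E : Finset (Edge n)) (u : Fin n) : ¬ adj E u u := by
  rintro ⟨h, -⟩
  exact h (Sym2.mk_isDiag_iff.2 rfl)

theorem ne_of_adj {E : Finset (Edge n)} {u v : Fin n} (h : adj E u v) : u ≠ v := by
  rintro rfl
  exact not_adj_self E u h

theorem ext_adj {E E' : Finset (Edge n)} (h : ∀ u v, adj E u v ↔ adj E' u v) : E = E' := by
  have key : ∀ {E E' : Finset (Edge n)}, (∀ u v, adj E u v ↔ adj E' u v) → E ⊆ E' := by
    intro E E' h e he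
    obtain ⟨z, hz⟩ := e
    induction z using Sym2.ind with
    | _ u v =>
      obtain ⟨_, h2⟩ := (h u v).1 ⟨hz, he⟩
      exact h2
  exact Finset.Subset.antisymm (key h) (key fun u v => (h u v).symm)

/-- The graph with adjacency `r` (only the off-diagonal symmetric part of `r` matters). -/
noncomputable def ofAdj (r : Fin n → Fin n → Prop) : Finset (Edge n) :=
  univ.filter fun e => ∃ u v, e.1 = s(u, v) ∧ u ≠ v ∧ r u v

theorem adj_ofAdj {r : Fin n → Fin n → Prop} (hr : ∀ u v, r u v → r v u) (u v : Fin n) :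
    adj (ofAdj r) u v ↔ u ≠ v ∧ r u v := by
  unfold adj ofAdj
  constructor
  · rintro ⟨h, he⟩
    obtain ⟨-, u', v', huv, hne, hr'⟩ := mem_filter.1 he
    have huv' : (s(u, v) : Sym2 (Fin n)) = s(u', v') := huv
    rw [Sym2.eq_iff] at huv'
    refine ⟨fun e => h (Sym2.mk_isDiag_iff.2 e), ?_⟩
    rcases huv' with ⟨rfl, rfl⟩ | ⟨rfl, rfl⟩
    · exact hr'
    · exact hr _ _ hr'
  · rintro ⟨hne, hr'⟩
    refine ⟨by simpa using hne, mem_filter.2 ⟨mem_univ _, u, v, rfl, hne, hr'⟩⟩

theorem deg_eq_card_adj (E : Finset (Edge n)) (v : Fin n) :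
    deg E v = (univ.filter fun u => adj E v u).card := by
  unfold deg
  -- bijection edge ↦ other endpoint
  refine card_bij' (i := fun e he => Sym2.Mem.other (mem_filter.1 he).2)
    (j := fun u hu => ⟨s(v, u), (mem_filter.1 hu).2.1⟩) ?_ ?_ ?_ ?_
  · intro e he
    have hm := (mem_filter.1 he).2
    have heq : s(v, Sym2.Mem.other hm) = e.1 := Sym2.other_spec hm
    refine mem_filter.2 ⟨mem_univ _, ?_⟩
    have hnd : ¬ (s(v, Sym2.Mem.other hm) : Sym2 (Fin n)).IsDiag := by
      rw [heq]; exact e.2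
    refine ⟨hnd, ?_⟩
    convert (mem_filter.1 he).1 using 1
    exact Subtype.ext heq
  · intro u hu
    obtain ⟨hnd, he⟩ := (mem_filter.1 hu).2
    exact mem_filter.2 ⟨he, by simp⟩
  · intro e he
    exact Subtype.ext (Sym2.other_spec (mem_filter.1 he).2)
  · intro u hu
    have hm : v ∈ (s(v, u) : Sym2 (Fin n)) := by simp
    have h := Sym2.other_spec hm
    rw [Sym2.congr_right] at h
    exact h

/-- The realizations of `d`, as a type. -/
abbrev Om (d : Fin n → ℕ) := {E // E ∈ realizations d}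

theorem mem_realizations {d : Fin n → ℕ} {E : Finset (Edge n)} :
    E ∈ realizations d ↔ ∀ v, deg E v = d v := by
  simp [realizations]

/-- The frozen part of `G`: its adjacency outside the free set `X`. The key of `E^X`. -/
def frz (X : Fin n → Fin n → Prop) (E : Finset (Edge n)) : Fin n → Fin n → Prop :=
  fun u v => ¬ X u v ∧ adj E u v

theorem frz_eq_iff {X : Fin n → Fin n → Prop} {E E' : Finset (Edge n)} :
    frz X E = frz X E' ↔ ∀ u v, ¬ X u v → (adj E u v ↔ adj E' u v) := by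
  constructor
  · intro h u v hX
    have := congrFun (congrFun h u) v
    simp only [frz, eq_iff_iff] at this
    constructor
    · intro ha; exact (this.1 ⟨hX, ha⟩).2
    · intro ha; exact (this.2 ⟨hX, ha⟩).2
  · intro h
    funext u v
    simp only [frz, eq_iff_iff]
    constructor
    · rintro ⟨hX, ha⟩; exact ⟨hX, (h u v hX).1 ha⟩
    · rintro ⟨hX, ha⟩; exact ⟨hX, (h u v hX).2 ha⟩

/-- `X`-degree of `v` in `E`. -/
noncomputable def dX (X : Fin n → Fin n → Prop) (E : Finset (Edge n)) (v : Fin n) : ℕ :=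
  (univ.filter fun u => X v u ∧ adj E v u).card

/-- Degree splits into the `X`-part and the rest. -/
theorem deg_eq_dX_add (X : Fin n → Fin n → Prop) (E : Finset (Edge n)) (v : Fin n) :
    deg E v = dX X E v + dX (fun u w => ¬ X u w) E v := by
  rw [deg_eq_card_adj]
  unfold dX
  rw [← card_union_of_disjoint]
  · congr 1
    ext u
    simp only [mem_filter, mem_univ, true_and, mem_union]
    tauto
  · rw [disjoint_left]
    intro u hu hu'
    simp only [mem_filter] at hu hu'
    exact hu'.2.1 hu.2.1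

/-- Adjacency equal to that of `H` on `X` and to that of `G` off `X`. -/
noncomputable def mix (X : Fin n → Fin n → Prop) (G H : Finset (Edge n)) : Finset (Edge n) :=
  ofAdj fun u v => (X u v ∧ adj H u v) ∨ (¬ X u v ∧ adj G u v)

theorem adj_mix {X : Fin n → Fin n → Prop} (hX : ∀ u v, X u v ↔ X v u) (G H : Finset (Edge n))
    (u v : Fin n) : adj (mix X G H) u v ↔ (X u v ∧ adj H u v) ∨ (¬ X u v ∧ adj G u v) := by
  unfold mix
  rw [adj_ofAdj]
  · constructor
    · exact fun h => h.2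
    · intro h
      refine ⟨?_, h⟩
      rcases h with ⟨-, h⟩ | ⟨-, h⟩ <;> exact ne_of_adj h
  · intro u v h
    rcases h with ⟨h1, h2⟩ | ⟨h1, h2⟩
    · exact Or.inl ⟨(hX u v).1 h1, (adj_comm _ _ _).1 h2⟩
    · exact Or.inr ⟨fun h => h1 ((hX u v).2 h), (adj_comm _ _ _).1 h2⟩

/-- Mixing lemma: replacing the `X`-part of a realization by an `X`-part with the same `X`-degrees
gives a realization. -/
theorem mix_mem {X : Fin n → Fin n → Prop} (hX : ∀ u v, X u v ↔ X v u) {d : Fin n → ℕ}
    {G H : Finset (Edge n)} (hG : G ∈ realizations d)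
    (hdeg : ∀ v, dX X H v = dX X G v) : mix X G H ∈ realizations d := by
  rw [mem_realizations] at hG ⊢
  intro v
  rw [← hG v, deg_eq_dX_add X (mix X G H) v, deg_eq_dX_add X G v, ← hdeg v]
  congr 1
  · unfold dX
    congr 1
    ext u
    simp only [mem_filter, mem_univ, true_and, adj_mix hX]
    tauto
  · unfold dX
    congr 1
    ext u
    simp only [mem_filter, mem_univ, true_and, adj_mix hX]
    tauto

/-- A graph `H'` agreeing with a realization `G` off `X` has the same `X`-degrees iff it is a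
realization. -/
theorem dX_eq_of_frz_eq {X : Fin n → Fin n → Prop} {d : Fin n → ℕ} {G H : Finset (Edge n)}
    (hG : G ∈ realizations d) (hH : H ∈ realizations d) (h : frz X G = frz X H) (v : Fin n) :
    dX X G v = dX X H v := by
  rw [mem_realizations] at hG hH
  have h1 := deg_eq_dX_add X G v
  have h2 := deg_eq_dX_add X H v
  have h3 : dX (fun u w => ¬ X u w) G v = dX (fun u w => ¬ X u w) H v := by
    unfold dX
    congr 1
    ext u
    have := frz_eq_iff.1 h v u
    simp only [mem_filter, mem_univ, true_and]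
    constructor
    · rintro ⟨a, b⟩; exact ⟨a, (this a).1 b⟩
    · rintro ⟨a, b⟩; exact ⟨a, (this a).2 b⟩
  have h4 := hG v
  have h5 := hH v
  omega

/-- The conditional average `E^X` on realizations. -/
noncomputable abbrev EX {d : Fin n → ℕ} (X : Fin n → Fin n → Prop) (f : Om d → ℝ) : Om d → ℝ :=
  cond (fun G : Om d => frz X G.1) f

/-- Product key for two free sets. -/
noncomputable def prodKey {d : Fin n → ℕ} (X Y : Fin n → Fin n → Prop) (G : Om d) :
    (Fin n → Fin n → Prop) × (Fin n → ℕ) :=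
  (frz (fun u v => X u v ∨ Y u v) G.1, dX X G.1)

private theorem prodKey_rect {d : Fin n → ℕ} {X Y : Fin n → Fin n → Prop}
    (hX : ∀ u v, X u v ↔ X v u) (_hXY : ∀ u v, X u v → ¬ Y u v) (x y : Om d)
    (h : prodKey X Y x = prodKey X Y y) :
    ∃ z : Om d, frz X z.1 = frz X x.1 ∧ frz Y z.1 = frz Y y.1 := by
  have h1 : frz (fun u v => X u v ∨ Y u v) x.1 = frz (fun u v => X u v ∨ Y u v) y.1 :=
    congrArg Prod.fst h
  have h2 : dX X x.1 = dX X y.1 := congrArg Prod.snd h
  refine ⟨⟨mix X x.1 y.1, mix_mem hX x.2 fun v => (congrFun h2 v).symm⟩, ?_, ?_⟩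
  · rw [frz_eq_iff]
    intro u v hn
    simp only [adj_mix hX]
    tauto
  · rw [frz_eq_iff]
    intro u v hn
    simp only [adj_mix hX]
    have h3 := frz_eq_iff.1 h1 u v
    by_cases hx : X u v
    · simp [hx]
    · have := h3 (by tauto)
      simp [hx, this]

private theorem prodKey_of_frzX {d : Fin n → ℕ} {X Y : Fin n → Fin n → Prop} (x y : Om d)
    (h : frz X x.1 = frz X y.1) : prodKey X Y x = prodKey X Y y := by
  refine Prod.ext ?_ ?_
  · refine frz_eq_iff.2 fun u v hn => frz_eq_iff.1 h u v fun hx => hn (Or.inl hx)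
  · funext v
    exact dX_eq_of_frz_eq x.2 y.2 h v

private theorem prodKey_of_frzY {d : Fin n → ℕ} {X Y : Fin n → Fin n → Prop}
    (hXY : ∀ u v, X u v → ¬ Y u v) (x y : Om d)
    (h : frz Y x.1 = frz Y y.1) : prodKey X Y x = prodKey X Y y := by
  refine Prod.ext ?_ ?_
  · refine frz_eq_iff.2 fun u v hn => frz_eq_iff.1 h u v fun hx => hn (Or.inr hx)
  · funext v
    show dX X x.1 v = dX X y.1 v
    unfold dX
    congr 1
    ext u
    simp only [mem_filter, mem_univ, true_and]
    constructor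
    · rintro ⟨hx, ha⟩
      exact ⟨hx, (frz_eq_iff.1 h v u (hXY v u hx)).1 ha⟩
    · rintro ⟨hx, ha⟩
      exact ⟨hx, (frz_eq_iff.1 h v u (hXY v u hx)).2 ha⟩

private theorem eq_of_frz_frz {d : Fin n → ℕ} {X Y : Fin n → Fin n → Prop}
    (hXY : ∀ u v, X u v → ¬ Y u v) (z z' : Om d)
    (h1 : frz X z.1 = frz X z'.1) (h2 : frz Y z.1 = frz Y z'.1) : z = z' := by
  apply Subtype.ext
  apply ext_adj
  intro u v
  by_cases hx : X u v
  · exact frz_eq_iff.1 h2 u v (hXY u v hx)
  · exact frz_eq_iff.1 h1 u v hx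

/-- Commutation for disjoint free sets: `E^X E^Y` is the average over the product classes. -/
theorem EX_EX_of_disjoint {d : Fin n → ℕ} {X Y : Fin n → Fin n → Prop}
    (hX : ∀ u v, X u v ↔ X v u) (hXY : ∀ u v, X u v → ¬ Y u v)
    (f : Om d → ℝ) :
    EX X (EX Y f) = cond (prodKey X Y) f :=
  cond_cond_of_rect _ _ _ (fun x y h => prodKey_of_frzX x y h)
    (fun x y h => prodKey_of_frzY hXY x y h)
    (fun x y h => prodKey_rect hX hXY x y h)
    (fun z z' h1 h2 => eq_of_frz_frz hXY z z' h1 h2) f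

/-- The other order gives the same product classes. -/
theorem EX_EX_of_disjoint' {d : Fin n → ℕ} {X Y : Fin n → Fin n → Prop}
    (hX : ∀ u v, X u v ↔ X v u) (hXY : ∀ u v, X u v → ¬ Y u v)
    (f : Om d → ℝ) :
    EX Y (EX X f) = cond (prodKey X Y) f :=
  cond_cond_of_rect _ _ _ (fun x y h => prodKey_of_frzY hXY x y h)
    (fun x y h => prodKey_of_frzX x y h)
    (fun x y h => by
      obtain ⟨z, h1, h2⟩ := prodKey_rect hX hXY y x h.symm
      exact ⟨z, h2, h1⟩)
    (fun z z' h1 h2 => eq_of_frz_frz hXY z z' h2 h1) f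

/-- Disjoint free sets commute. -/
theorem EX_comm_of_disjoint {d : Fin n → ℕ} {X Y : Fin n → Fin n → Prop}
    (hX : ∀ u v, X u v ↔ X v u) (hXY : ∀ u v, X u v → ¬ Y u v)
    (f : Om d → ℝ) :
    EX X (EX Y f) = EX Y (EX X f) := by
  rw [EX_EX_of_disjoint hX hXY, EX_EX_of_disjoint' hX hXY]

/-- The free set of the pair `{a,b}`: all pairs touching `a` or `b`, except `{a,b}` itself. -/
def Xpair (a b : Fin n) (u v : Fin n) : Prop :=
  (u = a ∨ u = b ∨ v = a ∨ v = b) ∧ ¬ ((u = a ∧ v = b) ∨ (u = b ∧ v = a))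

/-- Fiber key of the pair `{a,b}`. -/
noncomputable abbrev pk {d : Fin n → ℕ} (a b : Fin n) (G : Om d) : Fin n → Fin n → Prop :=
  frz (Xpair a b) G.1

/-- `Q_{ab} f = f - E_{ab} f`. -/
noncomputable abbrev Qp {d : Fin n → ℕ} (a b : Fin n) (f : Om d → ℝ) : Om d → ℝ :=
  Qc (pk a b) f

/-- `a,b,c,d` pairwise distinct. -/
def Dist4 (a b c d : Fin n) : Prop :=
  a ≠ b ∧ a ≠ c ∧ a ≠ d ∧ b ≠ c ∧ b ≠ d ∧ c ≠ d

/-- `G` contains exactly one of the two matchings `{ac,bd}`, `{ad,bc}` and no edge of the other: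
the switch with diagonals `ab`, `cd` applies. -/
def XiG (a b c d : Fin n) (E : Finset (Edge n)) : Prop :=
  (adj E a c ∧ adj E b d ∧ ¬ adj E a d ∧ ¬ adj E b c) ∨
    (¬ adj E a c ∧ ¬ adj E b d ∧ adj E a d ∧ adj E b c)

/-- The pairs in the 4-cycle `a-c-b-d-a`. -/
def Xblock (a b c d : Fin n) (u v : Fin n) : Prop :=
  ((u = a ∨ u = b) ∧ (v = c ∨ v = d)) ∨ ((v = a ∨ v = b) ∧ (u = c ∨ u = d))

/-- The switch: flip the block `{ac,bd,ad,bc}` when `XiG` holds (`a,b,c,d` distinct). -/
noncomputable def swG (a b c d : Fin n) (E : Finset (Edge n)) : Finset (Edge n) :=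
  if Dist4 a b c d ∧ XiG a b c d E then
    ofAdj fun u v => (Xblock a b c d u v ∧ ¬ adj E u v) ∨ (¬ Xblock a b c d u v ∧ adj E u v)
  else E

theorem Xblock_comm (a b c d u v : Fin n) : Xblock a b c d u v ↔ Xblock a b c d v u := by
  unfold Xblock; tauto

theorem not_Xblock_self {a b c d : Fin n} (h : Dist4 a b c d) (u : Fin n) :
    ¬ Xblock a b c d u u := by
  obtain ⟨h1, h2, h3, h4, h5, h6⟩ := h
  unfold Xblock
  rintro (⟨rfl | rfl, rfl | rfl⟩ | ⟨rfl | rfl, rfl | rfl⟩) <;> simp_all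

theorem adj_swG {a b c d : Fin n} {E : Finset (Edge n)} (h : Dist4 a b c d) (hx : XiG a b c d E)
    (u v : Fin n) :
    adj (swG a b c d E) u v ↔ (Xblock a b c d u v ∧ ¬ adj E u v) ∨ (¬ Xblock a b c d u v ∧ adj E u v) := by
  unfold swG
  rw [if_pos ⟨h, hx⟩, adj_ofAdj]
  · constructor
    · exact fun h => h.2
    · intro h'
      refine ⟨?_, h'⟩
      rintro rfl
      rcases h' with ⟨h1, -⟩ | ⟨-, h1⟩
      · exact not_Xblock_self h _ h1
      · exact not_adj_self _ _ h1
  · intro u v h'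
    rw [Xblock_comm, adj_comm]
    exact h'

theorem swG_of_not {a b c d : Fin n} {E : Finset (Edge n)} (h : ¬ (Dist4 a b c d ∧ XiG a b c d E)) :
    swG a b c d E = E := by
  unfold swG; rw [if_neg h]

theorem XiG_swG {a b c d : Fin n} {E : Finset (Edge n)} (h : Dist4 a b c d) (hx : XiG a b c d E) :
    XiG a b c d (swG a b c d E) := by
  have hac : Xblock a b c d a c := by unfold Xblock; simp
  have had : Xblock a b c d a d := by unfold Xblock; simp
  have hbc : Xblock a b c d b c := by unfold Xblock; simp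
  have hbd : Xblock a b c d b d := by unfold Xblock; simp
  unfold XiG
  simp only [adj_swG h hx, hac, had, hbc, hbd, not_true_eq_false, false_and, or_false, true_and]
  unfold XiG at hx
  tauto

private theorem dX_eq_one {X : Fin n → Fin n → Prop} {E : Finset (Edge n)} {v p q : Fin n}
    (hX : ∀ u, X v u ↔ u = p ∨ u = q) (h1 : adj E v p) (h2 : ¬ adj E v q) : dX X E v = 1 := by
  unfold dX
  rw [card_eq_one]
  refine ⟨p, ?_⟩
  ext u
  simp only [mem_filter, mem_univ, true_and, hX, mem_singleton]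
  constructor
  · rintro ⟨rfl | rfl, h⟩
    · rfl
    · exact absurd h h2
  · rintro rfl
    exact ⟨Or.inl rfl, h1⟩

private theorem Xblock_a {a b c d : Fin n} (h : Dist4 a b c d) (u : Fin n) :
    Xblock a b c d a u ↔ u = c ∨ u = d := by
  obtain ⟨h1, h2, h3, h4, h5, h6⟩ := h
  unfold Xblock
  simp [h2, h3]

private theorem Xblock_b {a b c d : Fin n} (h : Dist4 a b c d) (u : Fin n) :
    Xblock a b c d b u ↔ u = c ∨ u = d := by
  obtain ⟨h1, h2, h3, h4, h5, h6⟩ := h
  unfold Xblock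
  simp [h4, h5]

private theorem Xblock_c {a b c d : Fin n} (h : Dist4 a b c d) (u : Fin n) :
    Xblock a b c d c u ↔ u = a ∨ u = b := by
  obtain ⟨h1, h2, h3, h4, h5, h6⟩ := h
  unfold Xblock
  simp [h2.symm, h4.symm]

private theorem Xblock_d {a b c d : Fin n} (h : Dist4 a b c d) (u : Fin n) :
    Xblock a b c d d u ↔ u = a ∨ u = b := by
  obtain ⟨h1, h2, h3, h4, h5, h6⟩ := h
  unfold Xblock
  simp [h3.symm, h5.symm]

/-- On `XiG` the block degrees are `1` at `a,b,c,d` and `0` elsewhere. -/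
theorem dX_block {a b c d : Fin n} {E : Finset (Edge n)} (h : Dist4 a b c d) (hx : XiG a b c d E)
    (v : Fin n) : dX (Xblock a b c d) E v = if v = a ∨ v = b ∨ v = c ∨ v = d then 1 else 0 := by
  have hac := fun {x y : Fin n} => adj_comm E x y
  by_cases hv : v = a ∨ v = b ∨ v = c ∨ v = d
  · rw [if_pos hv]
    rcases hv with rfl | rfl | rfl | rfl
    · rcases hx with ⟨h1, h2, h3, h4⟩ | ⟨h1, h2, h3, h4⟩
      · exact dX_eq_one (Xblock_a h) h1 h3
      · exact dX_eq_one (fun u => (Xblock_a h u).trans or_comm) h3 h1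
    · rcases hx with ⟨h1, h2, h3, h4⟩ | ⟨h1, h2, h3, h4⟩
      · exact dX_eq_one (fun u => (Xblock_b h u).trans or_comm) h2 h4
      · exact dX_eq_one (Xblock_b h) h4 h2
    · rcases hx with ⟨h1, h2, h3, h4⟩ | ⟨h1, h2, h3, h4⟩
      · exact dX_eq_one (Xblock_c h) (hac.1 h1) (fun e => h4 (hac.1 e))
      · exact dX_eq_one (fun u => (Xblock_c h u).trans or_comm) (hac.1 h4) (fun e => h1 (hac.1 e))
    · rcases hx with ⟨h1, h2, h3, h4⟩ | ⟨h1, h2, h3, h4⟩
      · exact dX_eq_one (fun u => (Xblock_d h u).trans or_comm) (hac.1 h2) (fun e => h3 (hac.1 e))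
      · exact dX_eq_one (Xblock_d h) (hac.1 h3) (fun e => h2 (hac.1 e))
  · rw [if_neg hv]
    unfold dX
    rw [card_eq_zero, filter_eq_empty_iff]
    rintro u - ⟨hb, -⟩
    simp only [not_or] at hv
    obtain ⟨h1, h2, h3, h4⟩ := hv
    unfold Xblock at hb
    rcases hb with ⟨rfl | rfl, -⟩ | ⟨-, rfl | rfl⟩ <;> simp_all

theorem swG_mem {a b c d : Fin n} {dg : Fin n → ℕ} {E : Finset (Edge n)}
    (h : E ∈ realizations dg) : swG a b c d E ∈ realizations dg := by
  by_cases hc : Dist4 a b c d ∧ XiG a b c d E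
  · obtain ⟨hd, hx⟩ := hc
    have hm : mix (Xblock a b c d) E (swG a b c d E) = swG a b c d E := by
      apply ext_adj
      intro u v
      rw [adj_mix (Xblock_comm a b c d), adj_swG hd hx]
      tauto
    rw [← hm]
    refine mix_mem (Xblock_comm a b c d) h fun v => ?_
    rw [dX_block hd (XiG_swG hd hx), dX_block hd hx]
  · rwa [swG_of_not hc]

/-- The switch as a map on realizations (the identity if `a,b,c,d` are not distinct or `XiG` fails). -/
noncomputable def sw {d : Fin n → ℕ} (a b c e : Fin n) (G : Om d) : Om d :=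
  ⟨swG a b c e G.1, swG_mem G.2⟩

theorem swG_swG (a b c e : Fin n) (E : Finset (Edge n)) : swG a b c e (swG a b c e E) = E := by
  by_cases hc : Dist4 a b c e ∧ XiG a b c e E
  · obtain ⟨hd, hx⟩ := hc
    apply ext_adj
    intro u v
    rw [adj_swG hd (XiG_swG hd hx), adj_swG hd hx]
    tauto
  · rw [swG_of_not hc, swG_of_not hc]

theorem sw_sw {d : Fin n → ℕ} (a b c e : Fin n) (G : Om d) : sw a b c e (sw a b c e G) = G :=
  Subtype.ext (swG_swG a b c e G.1)

theorem Xblock_imp_Xpair {a b c e : Fin n} (h : Dist4 a b c e) {u v : Fin n}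
    (hb : Xblock a b c e u v) : Xpair a b u v := by
  obtain ⟨h1, h2, h3, h4, h5, h6⟩ := h
  unfold Xblock at hb
  unfold Xpair
  rcases hb with ⟨rfl | rfl, rfl | rfl⟩ | ⟨rfl | rfl, rfl | rfl⟩ <;> simp_all [eq_comm]

/-- The switch stays in the class of the pair `{a,b}`. -/
theorem pk_swG {d : Fin n → ℕ} (a b c e : Fin n) (G : Om d) :
    pk a b (sw a b c e G) = pk a b G := by
  by_cases hc : Dist4 a b c e ∧ XiG a b c e G.1
  · refine frz_eq_iff.2 fun u v hn => ?_
    show adj (swG a b c e G.1) u v ↔ _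
    rw [adj_swG hc.1 hc.2]
    have : ¬ Xblock a b c e u v := fun hb => hn (Xblock_imp_Xpair hc.1 hb)
    tauto
  · have : sw a b c e G = G := Subtype.ext (swG_of_not hc)
    rw [this]

theorem sw_of_not_dist {d : Fin n → ℕ} {a b c e : Fin n} (h : ¬ Dist4 a b c e) (G : Om d) :
    sw a b c e G = G :=
  Subtype.ext (swG_of_not fun hc => h hc.1)

/-- The predicate `XiG` on realizations, including distinctness. -/
def Xi {d : Fin n → ℕ} (a b c e : Fin n) (G : Om d) : Prop :=
  Dist4 a b c e ∧ XiG a b c e G.1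

/-- Average of `g` over the part of `Xi a b c e` in the `{a,b}`-fiber of `G`. -/
noncomputable def Aavg {d : Fin n → ℕ} (a b c e : Fin n) (g : Om d → ℝ) (G : Om d) : ℝ :=
  (∑ G' ∈ univ.filter (fun G' : Om d => Xi a b c e G' ∧ pk a b G' = pk a b G), g G') /
    ((univ.filter (fun G' : Om d => Xi a b c e G' ∧ pk a b G' = pk a b G)).card : ℝ)

/-- The energy of the switch with diagonals `ab`, `ce`: `¼ Σ_G (f G - f (sw G))²`. -/
noncomputable def swE {d : Fin n → ℕ} (a b c e : Fin n) (f : Om d → ℝ) : ℝ :=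
  (1 / 4) * ∑ G, (f G - f (sw a b c e G)) ^ 2

/-- The negative term `Σ_{G ∈ Xi} (A_{ab,ce} Q_{ab} f)(G)²`. -/
noncomputable def nuT {d : Fin n → ℕ} (a b c e : Fin n) (f : Om d → ℝ) : ℝ :=
  ∑ G ∈ univ.filter (fun G : Om d => Xi a b c e G), (Aavg a b c e (Qp a b f) G) ^ 2

theorem swE_of_not_dist {d : Fin n → ℕ} {a b c e : Fin n} (h : ¬ Dist4 a b c e) (f : Om d → ℝ) :
    swE a b c e f = 0 := by
  unfold swE
  simp [sw_of_not_dist h]

theorem nuT_of_not_dist {d : Fin n → ℕ} {a b c e : Fin n} (h : ¬ Dist4 a b c e) (f : Om d → ℝ) :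
    nuT a b c e f = 0 := by
  unfold nuT
  rw [sum_eq_zero]
  intro G hG
  exact absurd (mem_filter.1 hG).2.1 h

theorem nuT_nonneg {d : Fin n → ℕ} (a b c e : Fin n) (f : Om d → ℝ) : 0 ≤ nuT a b c e f :=
  sum_nonneg fun _ _ => sq_nonneg _

theorem swE_nonneg {d : Fin n → ℕ} (a b c e : Fin n) (f : Om d → ℝ) : 0 ≤ swE a b c e f :=
  mul_nonneg (by norm_num) (sum_nonneg fun _ _ => sq_nonneg _)

end Crest.Agent.Lib.SW
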