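import Crest.Agent.Lib.SwitchJohnson
import Crest.Agent.Lib.SwitchJ2

/-!
# Johnson scheme inequality (S0453, module JM)

Abstract statement about functions on the `k`-subsets of `W`.  Math: see findings
"S0453 COMPLETE PROOF helper2", steps 1 and 4 (J2):
* gap: `⟨φ, L_J φ⟩ ≥ w Var φ`, can be proved by Bochner for `L_J = Σ_q (1-τ_q)` (`L_J² ≥ w L_J`,
  disjoint transpositions commute, on a triple `A² = 3A`) or by induction on `w`;
* (J2): `Σ_q Cov(φ, ξ_q)² / P(ξ_q) ≤ ((w-2)/2) Var φ`, by duality from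
  `Var(Σ β_e ξ_e) ≤ ν (w-2) Σ β²`.
-/

set_option autoImplicit false

open Finset

namespace Crest.Agent.Lib.SW

variable {β : Type*} [DecidableEq β]

/-- Exchange `c` and `d` in `S` (the identity unless exactly one of them is in `S`). -/
def swapSet (c d : β) (S : Finset β) : Finset β :=
  if c ∈ S ∧ d ∉ S then insert d (S.erase c)
  else if d ∈ S ∧ c ∉ S then insert c (S.erase d)
  else S

/-- Exactly one of `c,d` lies in `S`. -/
def xiSet (c d : β) (S : Finset β) : Prop := (c ∈ S ∧ d ∉ S) ∨ (c ∉ S ∧ d ∈ S)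

instance (c d : β) : DecidablePred (xiSet c d) := fun S => by unfold xiSet; infer_instance

/-- The mean of `φ` over the `k`-subsets of `W`. -/
noncomputable def jmean (W : Finset β) (k : ℕ) (φ : Finset β → ℝ) : ℝ :=
  (∑ S ∈ powersetCard k W, φ S) / ((powersetCard k W).card : ℝ)

/-- The first term: the sum of squared differences over ordered pairs. -/
lemma first_term (W : Finset β) (k : ℕ) (φ : Finset β → ℝ) :
    ∑ c ∈ W, ∑ d ∈ W, (if c = d then 0 else
        ∑ S ∈ (powersetCard k W).filter (xiSet c d), (φ S - φ (swapSet c d S)) ^ 2)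
      = 2 * ∑ S ∈ powersetCard k W, ∑ x ∈ S, ∑ y ∈ W \ S, (φ S - φ (insert y (S.erase x))) ^ 2 := by
  -- the two parts of the filter
  set G : β → β → ℝ := fun c d =>
    ∑ S ∈ (powersetCard k W).filter (fun S => c ∈ S ∧ d ∉ S), (φ S - φ (insert d (S.erase c))) ^ 2
    with hG
  have h1 : ∀ c d, c ≠ d → ∑ S ∈ (powersetCard k W).filter (xiSet c d), (φ S - φ (swapSet c d S)) ^ 2
      = G c d + G d c := by
    intro c d hcd
    have h2 : (powersetCard k W).filter (xiSet c d)
        = (powersetCard k W).filter (fun S => c ∈ S ∧ d ∉ S) ∪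
          (powersetCard k W).filter (fun S => d ∈ S ∧ c ∉ S) := by
      ext S
      simp only [xiSet, Finset.mem_filter, Finset.mem_union]
      tauto
    have h3 : Disjoint ((powersetCard k W).filter (fun S => c ∈ S ∧ d ∉ S))
        ((powersetCard k W).filter (fun S => d ∈ S ∧ c ∉ S)) := by
      rw [Finset.disjoint_left]
      intro S hS hS'
      exact (Finset.mem_filter.1 hS').2.2 (Finset.mem_filter.1 hS).2.1
    rw [h2, Finset.sum_union h3]
    congr 1
    · refine Finset.sum_congr rfl fun S hS => ?_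
      have h4 := (Finset.mem_filter.1 hS).2
      simp [swapSet, h4.1, h4.2]
    · refine Finset.sum_congr rfl fun S hS => ?_
      have h4 := (Finset.mem_filter.1 hS).2
      simp [swapSet, h4.1, h4.2]
  have h2 : ∀ c, G c c = 0 := by
    intro c
    simp only [hG]
    rw [Finset.filter_false_of_mem]
    · simp
    · intro S _ h
      exact h.2 h.1
  have h3 : ∑ c ∈ W, ∑ d ∈ W, (if c = d then 0 else
        ∑ S ∈ (powersetCard k W).filter (xiSet c d), (φ S - φ (swapSet c d S)) ^ 2)
      = ∑ c ∈ W, ∑ d ∈ W, (G c d + G d c) := by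
    refine Finset.sum_congr rfl fun c _ => Finset.sum_congr rfl fun d _ => ?_
    by_cases hcd : c = d
    · subst hcd
      simp [h2]
    · simp [hcd, h1 c d hcd]
  rw [h3]
  simp only [Finset.sum_add_distrib]
  rw [Finset.sum_comm (f := fun c d => G d c)]
  have h4 : ∑ c ∈ W, ∑ d ∈ W, G c d
      = ∑ S ∈ powersetCard k W, ∑ x ∈ S, ∑ y ∈ W \ S, (φ S - φ (insert y (S.erase x))) ^ 2 := by
    simp only [hG, Finset.sum_filter]
    have h5 : ∑ c ∈ W, ∑ d ∈ W, ∑ S ∈ powersetCard k W,
        (if c ∈ S ∧ d ∉ S then (φ S - φ (insert d (S.erase c))) ^ 2 else 0)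
        = ∑ S ∈ powersetCard k W, ∑ c ∈ W, ∑ d ∈ W,
        (if c ∈ S ∧ d ∉ S then (φ S - φ (insert d (S.erase c))) ^ 2 else 0) := by
      rw [Finset.sum_comm (s := powersetCard k W) (t := W)]
      refine Finset.sum_congr rfl fun c _ => ?_
      rw [Finset.sum_comm]
    rw [h5]
    refine Finset.sum_congr rfl fun S hS => ?_
    have hSW : S ⊆ W := (Finset.mem_powersetCard.1 hS).1
    have h6 : W.filter (· ∈ S) = S := by
      ext a
      simp only [Finset.mem_filter]
      exact ⟨fun h => h.2, fun h => ⟨hSW h, h⟩⟩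
    have h7 : ∀ c ∈ W, ∑ d ∈ W, (if c ∈ S ∧ d ∉ S then (φ S - φ (insert d (S.erase c))) ^ 2 else 0)
        = if c ∈ S then ∑ y ∈ W \ S, (φ S - φ (insert y (S.erase c))) ^ 2 else 0 := by
      intro c _
      by_cases hc : c ∈ S
      · simp only [hc, true_and, if_true]
        rw [Finset.sdiff_eq_filter, Finset.sum_filter]
      · simp [hc]
    rw [Finset.sum_congr rfl h7, ← Finset.sum_filter, h6]
  rw [h4]
  ring

/-- Main Johnson inequality `Ψ' ≥ Var`, in ordered-pairs form. -/
theorem johnson_main (W : Finset β) (k : ℕ) (φ : Finset β → ℝ) :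
    2 * ∑ S ∈ powersetCard k W, (φ S - jmean W k φ) ^ 2 ≤
      ∑ c ∈ W, ∑ d ∈ W, if c = d then 0 else
        ((1 / 4) * ∑ S ∈ (powersetCard k W).filter (xiSet c d), (φ S - φ (swapSet c d S)) ^ 2
          - (∑ S ∈ (powersetCard k W).filter (xiSet c d), (φ S - jmean W k φ)) ^ 2 /
              (((powersetCard k W).filter (xiSet c d)).card : ℝ)) := by
  set Ω := powersetCard k W with hΩ
  set N : ℝ := (Ω.card : ℝ) with hN
  set m := jmean W k φ with hm
  set V : ℝ := ∑ S ∈ Ω, (φ S - m) ^ 2 with hV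
  -- degenerate cases
  by_cases hk : 1 ≤ k ∧ k + 1 ≤ W.card
  swap
  · have hempty : ∀ c ∈ W, ∀ d ∈ W, Ω.filter (xiSet c d) = ∅ := by
      intro c hc d hd
      rw [Finset.filter_eq_empty_iff]
      intro S hS hξ
      obtain ⟨h1, h2⟩ := Finset.mem_powersetCard.1 hS
      rcases Nat.eq_zero_or_pos k with h0 | h0
      · subst h0
        rw [Finset.card_eq_zero] at h2
        subst h2
        rcases hξ with hξ | hξ
        · simp at hξ
        · simp at hξ
      · have h3 : W.card ≤ k := by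
          by_contra h4
          exact hk ⟨h0, by omega⟩
        have h4 : S = W := Finset.eq_of_subset_of_card_le h1 (by omega)
        subst h4
        rcases hξ with hξ | hξ
        · exact hξ.2 hd
        · exact hξ.1 hc
    have hRHS : (∑ c ∈ W, ∑ d ∈ W, if c = d then (0 : ℝ) else
        ((1 / 4) * ∑ S ∈ Ω.filter (xiSet c d), (φ S - φ (swapSet c d S)) ^ 2
          - (∑ S ∈ Ω.filter (xiSet c d), (φ S - m)) ^ 2 / ((Ω.filter (xiSet c d)).card : ℝ))) = 0 := by
      refine Finset.sum_eq_zero fun c hc => Finset.sum_eq_zero fun d hd => ?_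
      rw [hempty c hc d hd]
      simp
    rw [hRHS]
    have hV0 : V = 0 := by
      rcases Nat.eq_zero_or_pos k with h0 | h0
      · simp only [hV, hm, jmean, hΩ, h0, Finset.powersetCard_zero, Finset.sum_singleton,
          Finset.card_singleton]
        simp
      · by_cases hlt : W.card < k
        · simp only [hV, hΩ]
          rw [Finset.powersetCard_eq_empty.2 hlt]
          simp
        · have hkw : k = W.card := by
            by_contra h4
            exact hk ⟨h0, by omega⟩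
          simp only [hV, hm, jmean, hΩ, hkw, Finset.powersetCard_self, Finset.sum_singleton,
            Finset.card_singleton]
          simp
    rw [hV0]
    simp
  obtain ⟨hk1, hk2⟩ := hk
  have hNpos : 0 < N := by
    rw [hN, hΩ, Finset.card_powersetCard]
    have : 0 < W.card.choose k := Nat.choose_pos (by omega)
    exact_mod_cast this
  have hΩne : Ω.Nonempty := by
    rw [← Finset.card_pos]
    rw [hN] at hNpos
    exact_mod_cast hNpos
  set w : ℝ := (W.card : ℝ) with hw
  have hw2 : (2 : ℝ) ≤ w := by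
    have : 2 ≤ W.card := by omega
    rw [hw]; exact_mod_cast this
  have hk1R : (1 : ℝ) ≤ k := by exact_mod_cast hk1
  have hk2R : (k : ℝ) + 1 ≤ w := by rw [hw]; exact_mod_cast hk2
  set n₁ : ℝ := ((W.card - 2).choose (k - 1) : ℝ) with hn₁
  set ν : ℝ := Crest.Agent.Lib.SwitchJ2.nuJ W.card k with hν
  have hνpos : 0 < ν := by
    rw [hν]
    unfold Crest.Agent.Lib.SwitchJ2.nuJ
    have h1 : 0 < (W.card : ℝ) - k := by rw [← hw]; linarith
    have h2 : 0 < (W.card : ℝ) - 1 := by rw [← hw]; linarith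
    have h3 : (0 : ℝ) < W.card := by rw [← hw]; linarith
    have h4 : (0 : ℝ) < k := by linarith
    positivity
  have hn₁ν : n₁ = ν * N := by
    have h1 := Crest.Agent.Lib.SwitchJ2.choose_rel W hk1
    rw [← hΩ, ← hN, ← hn₁, ← hw] at h1
    rw [hν]
    unfold Crest.Agent.Lib.SwitchJ2.nuJ
    rw [← hw]
    have h2 : 0 < w - 1 := by linarith
    have h3 : 0 < w := by linarith
    field_simp
    linarith
  -- the gap
  have hgap := Crest.Agent.Lib.SwitchJohnson.johnson_gap W k φ
  rw [← hΩ, ← hN, ← hw] at hgap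
  have hVeq : V = ∑ S ∈ Ω, φ S ^ 2 - (∑ S ∈ Ω, φ S) ^ 2 / N := by
    have hmN : m * N = ∑ S ∈ Ω, φ S := by
      rw [hm]
      unfold jmean
      rw [← hΩ, ← hN]
      field_simp
    rw [← hmN, hV]
    have : ∀ S, (φ S - m) ^ 2 = φ S ^ 2 - 2 * m * φ S + m ^ 2 := fun S => by ring
    simp only [this]
    rw [Finset.sum_add_distrib, Finset.sum_sub_distrib, ← Finset.mul_sum, Finset.sum_const,
      nsmul_eq_mul, ← hN, ← hmN]
    field_simp
    ring
  rw [← hVeq] at hgap
  -- the first term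
  have hfirst := first_term W k φ
  rw [← hΩ] at hfirst
  -- the second term
  have hsecond : ∀ c ∈ W, ∀ d ∈ W, c ≠ d →
      (∑ S ∈ Ω.filter (xiSet c d), (φ S - m)) ^ 2 / ((Ω.filter (xiSet c d)).card : ℝ)
        = N / (2 * ν) * Crest.Agent.Lib.SwitchJ2.cov Ω φ (Crest.Agent.Lib.SwitchJ2.xi c d) ^ 2 := by
    intro c hc d hd hcd
    have hxi : ∀ S, Crest.Agent.Lib.SwitchJ2.xi c d S = if xiSet c d S then (1 : ℝ) else 0 := by
      intro S
      unfold Crest.Agent.Lib.SwitchJ2.xi Crest.Agent.Lib.SwitchJ2.chi xiSet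
      by_cases h1 : c ∈ S <;> by_cases h2 : d ∈ S <;> simp [h1, h2]
    have hcard : ((Ω.filter (xiSet c d)).card : ℝ) = 2 * n₁ := by
      rw [hn₁, ← Crest.Agent.Lib.SwitchJ2.sum_xi W hc hd hcd hk1, ← hΩ, Finset.card_filter]
      push_cast
      exact Finset.sum_congr rfl fun S _ => (hxi S).symm
    have hcov : ∑ S ∈ Ω.filter (xiSet c d), (φ S - m)
        = N * Crest.Agent.Lib.SwitchJ2.cov Ω φ (Crest.Agent.Lib.SwitchJ2.xi c d) := by
      unfold Crest.Agent.Lib.SwitchJ2.cov Crest.Agent.Lib.SwitchJ2.avg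
      rw [← hN]
      have h1 : (∑ S ∈ Ω, φ S) / N = m := by
        rw [hm]; unfold jmean; rw [← hΩ]
      rw [h1, Finset.sum_filter]
      have h2 : ∀ S, (if xiSet c d S then φ S - m else 0)
          = φ S * Crest.Agent.Lib.SwitchJ2.xi c d S - m * Crest.Agent.Lib.SwitchJ2.xi c d S := by
        intro S
        rw [hxi]
        split_ifs <;> ring
      simp only [h2]
      rw [Finset.sum_sub_distrib, ← Finset.mul_sum]
      field_simp
    rw [hcard, hcov, hn₁ν]
    field_simp
  -- J2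
  have hJ2 := Crest.Agent.Lib.SwitchJ2.johnson_J2 W hk1 hk2 φ
  rw [← hΩ, ← hν, ← hw] at hJ2
  have hcovself : Crest.Agent.Lib.SwitchJ2.cov Ω φ φ = V / N := by
    unfold Crest.Agent.Lib.SwitchJ2.cov Crest.Agent.Lib.SwitchJ2.avg
    rw [hVeq, ← hN]
    simp only [← sq]
    field_simp
  rw [hcovself] at hJ2
  set C2 : ℝ := ∑ c ∈ W, ∑ d ∈ W, Crest.Agent.Lib.SwitchJ2.cov Ω φ (Crest.Agent.Lib.SwitchJ2.xi c d) ^ 2
    with hC2
  have hsum2 : (∑ c ∈ W, ∑ d ∈ W, if c = d then (0 : ℝ) else
        (∑ S ∈ Ω.filter (xiSet c d), (φ S - m)) ^ 2 / ((Ω.filter (xiSet c d)).card : ℝ))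
      ≤ N / (2 * ν) * C2 := by
    rw [hC2, Finset.mul_sum]
    refine Finset.sum_le_sum fun c hc => ?_
    rw [Finset.mul_sum]
    refine Finset.sum_le_sum fun d hd => ?_
    by_cases hcd : c = d
    · simp only [hcd, if_true]
      positivity
    · simp only [hcd, if_false]
      exact (hsecond c hc d hd hcd).le
  have hbound : N / (2 * ν) * C2 ≤ (w - 2) * V := by
    have h1 : C2 ≤ 2 * (ν * (w - 2) * (V / N)) := by linarith
    have h2 : N / (2 * ν) * C2 ≤ N / (2 * ν) * (2 * (ν * (w - 2) * (V / N))) :=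
      mul_le_mul_of_nonneg_left h1 (by positivity)
    refine h2.trans (le_of_eq ?_)
    field_simp
  have hsplit : (∑ c ∈ W, ∑ d ∈ W, if c = d then (0 : ℝ) else
        ((1 / 4) * ∑ S ∈ Ω.filter (xiSet c d), (φ S - φ (swapSet c d S)) ^ 2
          - (∑ S ∈ Ω.filter (xiSet c d), (φ S - m)) ^ 2 / ((Ω.filter (xiSet c d)).card : ℝ)))
      = (1 / 4) * (∑ c ∈ W, ∑ d ∈ W, if c = d then (0 : ℝ) else
          ∑ S ∈ Ω.filter (xiSet c d), (φ S - φ (swapSet c d S)) ^ 2)
        - ∑ c ∈ W, ∑ d ∈ W, if c = d then (0 : ℝ) else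
          (∑ S ∈ Ω.filter (xiSet c d), (φ S - m)) ^ 2 / ((Ω.filter (xiSet c d)).card : ℝ) := by
    rw [Finset.mul_sum, ← Finset.sum_sub_distrib]
    refine Finset.sum_congr rfl fun c _ => ?_
    rw [Finset.mul_sum, ← Finset.sum_sub_distrib]
    refine Finset.sum_congr rfl fun d _ => ?_
    split_ifs
    · simp
    · rfl
  rw [hsplit, hfirst]
  linarith

end Crest.Agent.Lib.SW
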