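import Crest.Agent.Lib.SW.Graph
import Crest.Agent.Lib.SW.Johnson
import Crest.Agent.Lib.SwitchPair

/-!
# Pair fibers are Johnson schemes (S0453, module C), and the Johnson inequality on `Om d`

Fix `a ≠ b`.  On the `{a,b}`-class of `G₀`: `x_az + x_bz` is constant in `z ∉ {a,b}`; `W = {z : x_az + x_bz = 1}`; the map
`G ↦ N_G(a) ∩ W` is a bijection onto the `k`-subsets of `W`.
-/

set_option autoImplicit false

open Finset
open scoped Classical
open Crest.SwitchChain

namespace Crest.Agent.Lib.SW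

variable {n : ℕ} {d : Fin n → ℕ}

/-- The class of `G₀` for the pair `{a,b}`. -/
abbrev PClass (a b : Fin n) (G₀ : Om d) := {G : Om d // pk a b G = pk a b G₀}

/-- `sw` stays in the pair class. -/
theorem pk_sw (a b c e : Fin n) (G : Om d) : pk a b (sw a b c e G) = pk a b G := by
  apply frz_eq_iff.2
  intro u v hX
  by_cases hc : Dist4 a b c e ∧ XiG a b c e G.1
  · obtain ⟨hd, hx⟩ := hc
    show adj (swG a b c e G.1) u v ↔ _
    rw [adj_swG hd hx]
    have hB : ¬ Xblock a b c e u v := by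
      intro hB
      apply hX
      obtain ⟨h1, h2, h3, h4, h5, h6⟩ := hd
      unfold Xpair
      unfold Xblock at hB
      rcases hB with ⟨hu, hv⟩ | ⟨hu, hv⟩
      · refine ⟨by tauto, ?_⟩
        rintro (⟨rfl, rfl⟩ | ⟨rfl, rfl⟩)
        · rcases hv with h | h
          · exact h4 h
          · exact h5 h
        · rcases hv with h | h
          · exact h2 h
          · exact h3 h
      · refine ⟨by tauto, ?_⟩
        rintro (⟨rfl, rfl⟩ | ⟨rfl, rfl⟩)
        · rcases hv with h | h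
          · exact h2 h
          · exact h3 h
        · rcases hv with h | h
          · exact h4 h
          · exact h5 h
    simp [hB]
  · show adj (swG a b c e G.1) u v ↔ _
    rw [swG_of_not hc]

/-! ### Bridge to `SwitchConn`, `SwitchPair` -/

theorem adj_iff_Adj_fiber (E : Finset (Edge n)) (u v : Fin n) : adj E u v ↔ SwitchConn.Adj E u v := by
  constructor
  · rintro ⟨h, he⟩
    exact ⟨by simpa using h, he⟩
  · rintro ⟨h, he⟩
    exact ⟨by simpa using h, he⟩

theorem mem_nbr_iff_adj (E : Finset (Edge n)) (u v : Fin n) : v ∈ SwitchConn.nbr E u ↔ adj E u v := by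
  rw [SwitchConn.mem_nbr, adj_iff_Adj_fiber]

theorem pk_eq_iff_off {a b : Fin n} (hab : a ≠ b) {G G₀ : Om d} :
    pk a b G = pk a b G₀ ↔ G.1 \ SwitchPair.pairX a b = G₀.1 \ SwitchPair.pairX a b := by
  have key : ∀ (u v : Fin n) (huv : u ≠ v), SwitchConn.mkE u v huv ∈ SwitchPair.pairX a b ↔
      Xpair a b u v := by
    intro u v huv
    rw [SwitchPair.mem_pairX]
    simp only [SwitchConn.mem_mkE, Xpair]
    constructor
    · rintro (⟨h1, h2⟩ | ⟨h1, h2⟩)
      · refine ⟨by rcases h1 with rfl | rfl <;> simp, ?_⟩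
        rintro (⟨rfl, rfl⟩ | ⟨rfl, rfl⟩)
        · simp at h2
        · simp at h2
      · refine ⟨by rcases h1 with rfl | rfl <;> simp, ?_⟩
        rintro (⟨rfl, rfl⟩ | ⟨rfl, rfl⟩)
        · simp at h2
        · simp at h2
    · rintro ⟨h1, h2⟩
      by_cases ha : a = u ∨ a = v <;> by_cases hb : b = u ∨ b = v
      · exfalso
        apply h2
        rcases ha with rfl | rfl <;> rcases hb with rfl | rfl
        · exact absurd rfl hab
        · exact Or.inl ⟨rfl, rfl⟩
        · exact Or.inr ⟨rfl, rfl⟩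
        · exact absurd rfl hab
      · exact Or.inl ⟨ha, hb⟩
      · exact Or.inr ⟨hb, ha⟩
      · exfalso
        rcases h1 with h | h | h | h
        · exact ha (Or.inl h.symm)
        · exact hb (Or.inl h.symm)
        · exact ha (Or.inr h.symm)
        · exact hb (Or.inr h.symm)
  rw [frz_eq_iff]
  constructor
  · intro h
    ext e
    obtain ⟨u, v, huv, rfl⟩ := SwitchPair.exists_mkE e
    simp only [mem_sdiff]
    have h2 := fun hX => (h u v hX)
    rw [key u v huv] 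
    have e1 : ∀ E : Finset (Edge n), SwitchConn.mkE u v huv ∈ E ↔ adj E u v := by
      intro E
      rw [adj_iff_Adj_fiber]
      exact ⟨fun h => ⟨huv, h⟩, fun ⟨_, h⟩ => h⟩
    rw [e1, e1]
    by_cases hX : Xpair a b u v
    · simp [hX]
    · rw [h2 hX]
  · intro h u v hX
    by_cases huv : u = v
    · subst huv
      exact ⟨fun h => absurd h (not_adj_self _ _), fun h => absurd h (not_adj_self _ _)⟩
    have h1 : SwitchConn.mkE u v huv ∉ SwitchPair.pairX a b := by rwa [key]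
    have e1 : ∀ E : Finset (Edge n), SwitchConn.mkE u v huv ∈ E ↔ adj E u v := by
      intro E
      rw [adj_iff_Adj_fiber]
      exact ⟨fun h => ⟨huv, h⟩, fun ⟨_, h⟩ => h⟩
    rw [← e1, ← e1]
    exact SwitchPair.mem_iff_of_off h h1

lemma mem_fib_of_pk {a b : Fin n} (hab : a ≠ b) {G G₀ : Om d} (h : pk a b G = pk a b G₀) :
    G.1 ∈ SwitchPair.fib d a b G₀.1 :=
  SwitchPair.mem_fib.2 ⟨G.2, (pk_eq_iff_off hab).1 h⟩

/-- The bijection of a pair class with a Johnson slice. -/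
noncomputable def pairEquiv {a b : Fin n} (hab : a ≠ b) (G₀ : Om d) :
    PClass a b G₀ ≃ {S // S ∈ powersetCard (SwitchPair.Sof (SwitchPair.W G₀.1 a b) G₀.1 a).card
      (SwitchPair.W G₀.1 a b)} where
  toFun G := ⟨SwitchPair.Sof (SwitchPair.W G₀.1 a b) G.1.1 a,
    mem_powersetCard.2 ⟨filter_subset _ _,
      SwitchPair.card_Sof_of_fib hab G₀.2 (mem_fib_of_pk hab G.2)⟩⟩
  invFun S := ⟨⟨SwitchPair.rebuild G₀.1 a b (SwitchPair.W G₀.1 a b) S.1,
      SwitchPair.rebuild_mem hab G₀.2 (mem_powersetCard.1 S.2).1 (mem_powersetCard.1 S.2).2⟩,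
    (pk_eq_iff_off hab).2 (SwitchPair.rebuild_off hab (mem_powersetCard.1 S.2).1)⟩
  left_inv G := Subtype.ext (Subtype.ext (SwitchPair.rebuild_Sof hab G₀.2 (mem_fib_of_pk hab G.2)))
  right_inv S := Subtype.ext (SwitchPair.Sof_rebuild hab (SwitchPair.a_not_mem_W _ _ _)
    (SwitchPair.b_not_mem_W _ _ _) (mem_powersetCard.1 S.2).1)

/-- Membership in `W` versus adjacency in a class. -/
lemma adj_class {a b : Fin n} (hab : a ≠ b) {G₀ G : Om d} (h : pk a b G = pk a b G₀) {z : Fin n}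
    (hza : z ≠ a) (hzb : z ≠ b) :
    (z ∈ SwitchPair.W G₀.1 a b → (adj G.1 b z ↔ ¬ adj G.1 a z)) ∧
      (z ∉ SwitchPair.W G₀.1 a b → (adj G.1 a z ↔ adj G.1 b z)) := by
  obtain ⟨h1, h2⟩ := SwitchPair.adj_of_fib hab G₀.2 (mem_fib_of_pk hab h) hza hzb
  simp only [mem_nbr_iff_adj] at h1 h2
  refine ⟨h1, fun hz => ?_⟩
  obtain ⟨h3, h4⟩ := h2 hz
  have h5 : (adj G₀.1 a z ↔ adj G₀.1 b z) := by
    by_contra hc
    apply hz
    rw [SwitchPair.mem_W]
    refine ⟨hza, hzb, ?_⟩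
    simpa only [mem_nbr_iff_adj] using hc
  rw [h3, h4, h5]

lemma mem_pairEquiv {a b : Fin n} (hab : a ≠ b) (G₀ : Om d) (G : PClass a b G₀) (z : Fin n) :
    z ∈ (pairEquiv hab G₀ G).1 ↔ z ∈ SwitchPair.W G₀.1 a b ∧ adj G.1.1 a z := by
  show z ∈ SwitchPair.Sof _ _ _ ↔ _
  simp only [SwitchPair.Sof, mem_filter, mem_nbr_iff_adj]

lemma xi_iff {a b : Fin n} (hab : a ≠ b) (G₀ : Om d) {c e : Fin n} (hd : Dist4 a b c e)
    (G : PClass a b G₀) :
    Xi a b c e G.1 ↔ (c ∈ SwitchPair.W G₀.1 a b ∧ e ∈ SwitchPair.W G₀.1 a b ∧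
      xiSet c e (pairEquiv hab G₀ G).1) := by
  obtain ⟨h1, h2, h3, h4, h5, h6⟩ := id hd
  have hc := adj_class hab G.2 (z := c) h2.symm h4.symm
  have he := adj_class hab G.2 (z := e) h3.symm h5.symm
  unfold Xi XiG xiSet
  simp only [mem_pairEquiv]
  by_cases hcW : c ∈ SwitchPair.W G₀.1 a b <;> by_cases heW : e ∈ SwitchPair.W G₀.1 a b
  · have h7 := hc.1 hcW
    have h8 := he.1 heW
    rw [h7, h8]
    simp only [hd, hcW, heW, true_and]
    by_cases h9 : adj G.1.1 a c <;> by_cases h10 : adj G.1.1 a e <;> simp [h9, h10]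
  · have h7 := hc.1 hcW
    have h8 := he.2 heW
    rw [h7, h8]
    simp only [hd, hcW, heW, true_and, false_and]
    by_cases h9 : adj G.1.1 a c <;> by_cases h10 : adj G.1.1 b e <;> simp [h9, h10]
  · have h7 := hc.2 hcW
    have h8 := he.1 heW
    rw [h7, h8]
    simp only [hd, hcW, heW, true_and, false_and]
    by_cases h9 : adj G.1.1 b c <;> by_cases h10 : adj G.1.1 a e <;> simp [h9, h10]
  · have h7 := hc.2 hcW
    have h8 := he.2 heW
    rw [h7, h8]
    simp only [hd, hcW, heW, true_and, false_and]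
    by_cases h9 : adj G.1.1 b c <;> by_cases h10 : adj G.1.1 b e <;> simp [h9, h10]

lemma sw_pairEquiv {a b : Fin n} (hab : a ≠ b) (G₀ : Om d) {c e : Fin n} (hd : Dist4 a b c e)
    (G : PClass a b G₀) (hXi : Xi a b c e G.1) (h : pk a b (sw a b c e G.1) = pk a b G₀) :
    (pairEquiv hab G₀ ⟨sw a b c e G.1, h⟩).1 = swapSet c e (pairEquiv hab G₀ G).1 := by
  obtain ⟨h1, h2, h3, h4, h5, h6⟩ := id hd
  obtain ⟨hcW, heW, hxi⟩ := (xi_iff hab G₀ hd G).1 hXi
  have hB : ∀ z, Xblock a b c e a z ↔ z = c ∨ z = e := by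
    intro z
    unfold Xblock
    simp [h2, h3]
  have hS' : ∀ z, z ∈ (pairEquiv hab G₀ ⟨sw a b c e G.1, h⟩).1 ↔
      z ∈ SwitchPair.W G₀.1 a b ∧
        (((z = c ∨ z = e) ∧ ¬ adj G.1.1 a z) ∨ (¬ (z = c ∨ z = e) ∧ adj G.1.1 a z)) := by
    intro z
    rw [mem_pairEquiv]
    show _ ∧ adj (swG a b c e G.1.1) a z ↔ _
    rw [adj_swG hd hXi.2, hB]
  have hS := mem_pairEquiv hab G₀ G
  unfold swapSet
  unfold xiSet at hxi
  rcases hxi with ⟨hc, he⟩ | ⟨hc, he⟩
  · rw [if_pos ⟨hc, he⟩]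
    have hac : adj G.1.1 a c := ((hS c).1 hc).2
    have hae : ¬ adj G.1.1 a e := fun h' => he ((hS e).2 ⟨heW, h'⟩)
    ext z
    rw [hS', mem_insert, mem_erase, hS]
    by_cases hzc : z = c
    · subst hzc
      simp [h6, hac]
    by_cases hze : z = e
    · subst hze
      simp [hae, heW]
    simp [hzc, hze]
  · rw [if_neg (by tauto), if_pos ⟨he, hc⟩]
    have hac : ¬ adj G.1.1 a c := fun h' => hc ((hS c).2 ⟨hcW, h'⟩)
    have hae : adj G.1.1 a e := ((hS e).1 he).2
    ext z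
    rw [hS', mem_insert, mem_erase, hS]
    by_cases hzc : z = c
    · subst hzc
      simp [hac, hcW]
    by_cases hze : z = e
    · subst hze
      simp [h6.symm, hae]
    simp [hzc, hze]

/-- Identification of a pair class with a Johnson scheme. -/
theorem pairFiber_equiv {a b : Fin n} (hab : a ≠ b) (G₀ : Om d) :
    ∃ (W : Finset (Fin n)) (k : ℕ)
      (Φ : PClass a b G₀ ≃ {S // S ∈ powersetCard k W}),
      (a ∉ W ∧ b ∉ W) ∧
      (∀ c e, Dist4 a b c e → ∀ G : PClass a b G₀,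
        (Xi a b c e G.1 ↔ (c ∈ W ∧ e ∈ W ∧ xiSet c e (Φ G).1))) ∧
      (∀ c e, Dist4 a b c e → ∀ G : PClass a b G₀, Xi a b c e G.1 →
        ∀ h : pk a b (sw a b c e G.1) = pk a b G₀,
          (Φ ⟨sw a b c e G.1, h⟩).1 = swapSet c e (Φ G).1) :=
  ⟨SwitchPair.W G₀.1 a b, _, pairEquiv hab G₀,
    ⟨SwitchPair.a_not_mem_W _ _ _, SwitchPair.b_not_mem_W _ _ _⟩,
    fun _ _ hd G => xi_iff hab G₀ hd G, fun _ _ hd G hXi h => sw_pairEquiv hab G₀ hd G hXi h⟩

/-- `sw` is the identity off `Xi`. -/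
lemma sw_of_not_Xi {a b c e : Fin n} {G : Om d} (h : ¬ Xi a b c e G) : sw a b c e G = G :=
  Subtype.ext (swG_of_not h)

/-- The inequality on one class. -/
theorem class_ineq {a b : Fin n} (hab : a ≠ b) (f : Om d → ℝ) (G₀ : Om d) :
    2 * ∑ G ∈ fib (pk a b) G₀, (Qp a b f G) ^ 2 ≤
      ∑ G ∈ fib (pk a b) G₀, ∑ c, ∑ e, ((1 / 4) * (f G - f (sw a b c e G)) ^ 2 -
        (if Xi a b c e G then (Aavg a b c e (Qp a b f) G) ^ 2 else 0)) := by
  obtain ⟨W, k, Φ, ⟨haW, hbW⟩, hXi, hsw⟩ := pairFiber_equiv hab G₀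
  set Ψ : {S // S ∈ (powersetCard k W)} → Om d := fun S => (Φ.symm S).1 with hΨ
  have hΨk : ∀ S, pk a b (Ψ S) = pk a b G₀ := fun S => (Φ.symm S).2
  have hΦΨ : ∀ S, Φ ⟨Ψ S, hΨk S⟩ = S := fun S => Φ.apply_symm_apply S
  -- transport of sums
  have sumF : ∀ g : Om d → ℝ, ∑ G ∈ fib (pk a b) G₀, g G
      = ∑ S ∈ (powersetCard k W), (if h : S ∈ (powersetCard k W) then g (Ψ ⟨S, h⟩) else 0) := by
    intro g
    have e1 : ∑ G ∈ fib (pk a b) G₀, g G = ∑ G : PClass a b G₀, g G.1 :=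
      Finset.sum_subtype _ (fun x => mem_fib) _
    have e2 : ∑ G : PClass a b G₀, g G.1 = ∑ S : {S // S ∈ (powersetCard k W)}, g (Ψ S) :=
      (Equiv.sum_comp Φ.symm (fun G : PClass a b G₀ => g G.1)).symm
    have e3 : ∑ S ∈ (powersetCard k W), (if h : S ∈ (powersetCard k W) then g (Ψ ⟨S, h⟩) else 0) = ∑ S : {S // S ∈ (powersetCard k W)}, g (Ψ S) := by
      rw [← Finset.sum_coe_sort (powersetCard k W)]
      refine Finset.sum_congr rfl fun S _ => ?_
      rw [dif_pos S.2]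
    rw [e1, e2, e3]
  -- the function on subsets
  set φ : Finset (Fin n) → ℝ := fun S => if h : S ∈ (powersetCard k W) then f (Ψ ⟨S, h⟩) else 0 with hφ
  have hφS : ∀ S : {S // S ∈ (powersetCard k W)}, φ S.1 = f (Ψ S) := fun S => by simp only [hφ, dif_pos S.2]
  set m := jmean W k φ with hm
  have hcard : ((fib (pk a b) G₀).card : ℝ) = ((powersetCard k W).card : ℝ) := by
    have := sumF (fun _ => 1)
    simp only [sum_const, nsmul_eq_mul, mul_one] at this
    rw [this]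
    have h2 : ∑ S ∈ (powersetCard k W), (if h : S ∈ (powersetCard k W) then (1:ℝ) else 0) = ∑ _S ∈ (powersetCard k W), (1:ℝ) :=
      Finset.sum_congr rfl fun S hS => by rw [dif_pos hS]
    rw [h2]; simp
  have hcond : cond (pk a b) f G₀ = m := by
    simp only [cond, hm, jmean]
    rw [hcard, sumF f]
  have hQ : ∀ S : {S // S ∈ (powersetCard k W)}, Qp a b f (Ψ S) = φ S.1 - m := by
    intro S
    show f (Ψ S) - cond (pk a b) f (Ψ S) = _
    rw [cond_congr f (hΨk S), hcond, hφS]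
  -- the left side
  have hL : ∑ G ∈ fib (pk a b) G₀, (Qp a b f G) ^ 2 = ∑ S ∈ (powersetCard k W), (φ S - m) ^ 2 := by
    rw [sumF]
    refine Finset.sum_congr rfl fun S hS => ?_
    rw [dif_pos hS, hQ ⟨S, hS⟩]
  -- Xi on the parametrization
  have hXiS : ∀ {c e : Fin n}, Dist4 a b c e → ∀ S : {S // S ∈ (powersetCard k W)},
      (Xi a b c e (Ψ S) ↔ (c ∈ W ∧ e ∈ W ∧ xiSet c e S.1)) := by
    intro c e hd S
    have := hXi c e hd ⟨Ψ S, hΨk S⟩
    rw [hΦΨ] at this
    exact this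
  -- the terms
  set J : Fin n → Fin n → ℝ := fun c e =>
    (1 / 4) * ∑ S ∈ (powersetCard k W).filter (xiSet c e), (φ S - φ (swapSet c e S)) ^ 2
      - (∑ S ∈ (powersetCard k W).filter (xiSet c e), (φ S - m)) ^ 2 / (((powersetCard k W).filter (xiSet c e)).card : ℝ) with hJ
  have hT : ∀ c e, ∑ G ∈ fib (pk a b) G₀, ((1 / 4) * (f G - f (sw a b c e G)) ^ 2 -
        (if Xi a b c e G then (Aavg a b c e (Qp a b f) G) ^ 2 else 0))
      = if (c ∈ W ∧ e ∈ W ∧ c ≠ e) then J c e else 0 := by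
    intro c e
    -- vanishing case
    have hvan : (∀ G ∈ fib (pk a b) G₀, ¬ Xi a b c e G) →
        ∑ G ∈ fib (pk a b) G₀, ((1 / 4) * (f G - f (sw a b c e G)) ^ 2 -
        (if Xi a b c e G then (Aavg a b c e (Qp a b f) G) ^ 2 else 0)) = 0 := by
      intro hn
      refine Finset.sum_eq_zero fun G hG => ?_
      rw [if_neg (hn G hG), sw_of_not_Xi (hn G hG)]
      simp
    by_cases hcond' : c ∈ W ∧ e ∈ W ∧ c ≠ e
    swap
    · rw [if_neg hcond']
      apply hvan
      intro G hG hx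
      have hk : pk a b G = pk a b G₀ := mem_fib.1 hG
      obtain ⟨h1, h2, _⟩ := (hXi c e hx.1 ⟨G, hk⟩).1 hx
      exact hcond' ⟨h1, h2, hx.1.2.2.2.2.2⟩
    rw [if_pos hcond']
    obtain ⟨hcW, heW, hce⟩ := hcond'
    have hd : Dist4 a b c e :=
      ⟨hab, fun h => haW (h ▸ hcW), fun h => haW (h ▸ heW), fun h => hbW (h ▸ hcW),
        fun h => hbW (h ▸ heW), hce⟩
    have hXiS' : ∀ S : {S // S ∈ (powersetCard k W)}, (Xi a b c e (Ψ S) ↔ xiSet c e S.1) := by
      intro S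
      rw [hXiS hd S]
      simp [hcW, heW]
    rw [Finset.sum_sub_distrib, ← Finset.mul_sum]
    -- the energy term
    have hE : ∑ G ∈ fib (pk a b) G₀, (f G - f (sw a b c e G)) ^ 2
        = ∑ S ∈ (powersetCard k W).filter (xiSet c e), (φ S - φ (swapSet c e S)) ^ 2 := by
      rw [sumF, Finset.sum_filter]
      refine Finset.sum_congr rfl fun S hS => ?_
      rw [dif_pos hS]
      by_cases hx : xiSet c e S
      · rw [if_pos hx]
        have hx' := (hXiS' ⟨S, hS⟩).2 hx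
        have hk : pk a b (sw a b c e (Ψ ⟨S, hS⟩)) = pk a b G₀ :=
          (pk_sw a b c e _).trans (hΨk _)
        have h1 := hsw c e hd ⟨Ψ ⟨S, hS⟩, hΨk _⟩ hx' hk
        rw [hΦΨ] at h1
        set S' := Φ ⟨sw a b c e (Ψ ⟨S, hS⟩), hk⟩ with hS'
        have h2 : Ψ S' = sw a b c e (Ψ ⟨S, hS⟩) := by
          simp only [hΨ, hS', Equiv.symm_apply_apply]
        have h3 : φ (swapSet c e S) = f (sw a b c e (Ψ ⟨S, hS⟩)) := by
          rw [← h1.trans rfl, hφS S', h2]
        have h4 : φ S = f (Ψ ⟨S, hS⟩) := hφS ⟨S, hS⟩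
        rw [h3, h4]
      · rw [if_neg hx, sw_of_not_Xi (fun h => hx ((hXiS' ⟨S, hS⟩).1 h))]
        simp
    -- the negative term
    set A := (fib (pk a b) G₀).filter (Xi a b c e) with hA
    have hY : ∑ G ∈ A, Qp a b f G = ∑ S ∈ (powersetCard k W).filter (xiSet c e), (φ S - m) := by
      rw [hA, Finset.sum_filter, sumF, Finset.sum_filter]
      refine Finset.sum_congr rfl fun S hS => ?_
      rw [dif_pos hS]
      by_cases hx : xiSet c e S
      · rw [if_pos hx, if_pos ((hXiS' ⟨S, hS⟩).2 hx), hQ ⟨S, hS⟩]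
      · rw [if_neg hx, if_neg (fun h => hx ((hXiS' ⟨S, hS⟩).1 h))]
    have hAc : (A.card : ℝ) = (((powersetCard k W).filter (xiSet c e)).card : ℝ) := by
      have h1 : (A.card : ℝ) = ∑ G ∈ A, (1:ℝ) := by simp
      have h2 : (((powersetCard k W).filter (xiSet c e)).card : ℝ) = ∑ S ∈ (powersetCard k W).filter (xiSet c e), (1:ℝ) := by simp
      rw [h1, h2, hA, Finset.sum_filter, sumF, Finset.sum_filter]
      refine Finset.sum_congr rfl fun S hS => ?_
      rw [dif_pos hS]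
      by_cases hx : xiSet c e S
      · rw [if_pos hx, if_pos ((hXiS' ⟨S, hS⟩).2 hx)]
      · rw [if_neg hx, if_neg (fun h => hx ((hXiS' ⟨S, hS⟩).1 h))]
    have hAavg : ∀ G ∈ A, Aavg a b c e (Qp a b f) G = (∑ G' ∈ A, Qp a b f G') / (A.card : ℝ) := by
      intro G hG
      have hk : pk a b G = pk a b G₀ := mem_fib.1 (mem_filter.1 hG).1
      have hset : univ.filter (fun G' : Om d => Xi a b c e G' ∧ pk a b G' = pk a b G) = A := by
        ext G'
        simp only [hA, mem_filter, mem_univ, true_and, mem_fib, hk]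
        tauto
      unfold Aavg
      rw [hset]
    have hN : ∑ G ∈ fib (pk a b) G₀, (if Xi a b c e G then (Aavg a b c e (Qp a b f) G) ^ 2 else 0)
        = (∑ S ∈ (powersetCard k W).filter (xiSet c e), (φ S - m)) ^ 2 / (((powersetCard k W).filter (xiSet c e)).card : ℝ) := by
      rw [← Finset.sum_filter, ← hA, Finset.sum_congr rfl fun G hG => by rw [hAavg G hG],
        Finset.sum_const, nsmul_eq_mul, hY, hAc]
      by_cases h0 : (((powersetCard k W).filter (xiSet c e)).card : ℝ) = 0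
      · rw [h0]; simp
      · field_simp
    rw [hE, hN]
  -- assemble
  have hmain := johnson_main W k φ
  rw [← hm] at hmain
  rw [hL]
  refine hmain.trans (le_of_eq ?_)
  symm
  rw [Finset.sum_comm]
  have h1 : ∀ c, ∑ G ∈ fib (pk a b) G₀, ∑ e, ((1 / 4) * (f G - f (sw a b c e G)) ^ 2 -
        (if Xi a b c e G then (Aavg a b c e (Qp a b f) G) ^ 2 else 0))
      = ∑ e, if (c ∈ W ∧ e ∈ W ∧ c ≠ e) then J c e else 0 := by
    intro c
    rw [Finset.sum_comm]
    exact Finset.sum_congr rfl fun e _ => hT c e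
  rw [Finset.sum_congr rfl fun c _ => h1 c]
  symm
  have h2 : ∀ c ∈ W, ∑ d ∈ W, (if c = d then (0:ℝ) else J c d)
      = ∑ e, if (c ∈ W ∧ e ∈ W ∧ c ≠ e) then J c e else 0 := by
    intro c hc
    rw [← Finset.sum_subset (subset_univ W)]
    · refine Finset.sum_congr rfl fun d hd => ?_
      by_cases hcd : c = d
      · rw [if_pos hcd, if_neg (by tauto)]
      · rw [if_neg hcd, if_pos ⟨hc, hd, hcd⟩]
    · intro e _ he
      rw [if_neg (by tauto)]
  have h3 : ∑ c ∈ W, ∑ d ∈ W, (if c = d then (0:ℝ) else J c d)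
      = ∑ c, ∑ e, if (c ∈ W ∧ e ∈ W ∧ c ≠ e) then J c e else 0 := by
    rw [Finset.sum_congr rfl h2]
    apply Finset.sum_subset (subset_univ W)
    intro c _ hc
    exact Finset.sum_eq_zero fun e _ => by rw [if_neg (by tauto)]
  exact h3

/-- The Johnson inequality summed over the classes of the pair `{a,b}`. -/
theorem J_lemma {a b : Fin n} (hab : a ≠ b) (f : Om d → ℝ) :
    2 * ip (Qp a b f) (Qp a b f) ≤ ∑ c, ∑ e, (swE a b c e f - nuT a b c e f) := by
  set y : Om d → ℝ := fun G => 2 * (Qp a b f G) ^ 2 with hy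
  set r : Om d → ℝ := fun G => ∑ c, ∑ e, ((1 / 4) * (f G - f (sw a b c e G)) ^ 2 -
        (if Xi a b c e G then (Aavg a b c e (Qp a b f) G) ^ 2 else 0)) with hr
  have hR : ∑ c, ∑ e, (swE a b c e f - nuT a b c e f) = ∑ G, r G := by
    simp only [hr]
    have h1 : ∀ c e, swE a b c e f - nuT a b c e f = ∑ G, ((1 / 4) * (f G - f (sw a b c e G)) ^ 2 -
        (if Xi a b c e G then (Aavg a b c e (Qp a b f) G) ^ 2 else 0)) := by
      intro c e
      unfold swE nuT
      rw [Finset.sum_sub_distrib, Finset.mul_sum, Finset.sum_filter]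
    simp only [h1]
    exact (Finset.sum_congr rfl fun c _ => Finset.sum_comm).trans Finset.sum_comm
  have hLe : 2 * ip (Qp a b f) (Qp a b f) = ∑ G, y G := by
    simp only [hy, ip, ← Finset.mul_sum]
    congr 1
    exact Finset.sum_congr rfl fun G _ => (sq _).symm
  rw [hR, hLe]
  have hs : ∀ g : Om d → ℝ, ∑ G, cond (pk a b) g G = ∑ G, g G :=
    fun g => sum_cond_of_saturated (pk a b) g univ (fun _ _ _ _ => mem_univ _)
  rw [← hs y, ← hs r]
  refine Finset.sum_le_sum fun G₀ _ => ?_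
  unfold cond
  have hpos : (0:ℝ) < ((fib (pk a b) G₀).card : ℝ) := by exact_mod_cast fib_card_pos _ _
  apply div_le_div_of_nonneg_right _ hpos.le
  have := class_ineq hab f G₀
  simp only [hy, hr, ← Finset.mul_sum]
  exact this

end Crest.Agent.Lib.SW
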