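import Crest.Agent.Lib.SW.Graph
import Crest.Agent.Lib.SwitchKernel
import Crest.Agent.Lib.SwitchMix

/-!
# The kernel of the switch chain (S0453, module K)

`I - K = 𝓛/(12 C(n,4))`, `𝓛 = Σ_{S,m} (1 - sw_m)`.  The inequality below is in fact an equality.
Only a lower bound is needed: `|pmSet S| = 3`, degree preservation, symmetry of `kernel`.
-/

set_option autoImplicit false

open Finset
open scoped Classical
open Crest.SwitchChain

namespace Crest.Agent.Lib.SW

variable {n : ℕ}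

/-- `|pmSet S| = 3` for 4-element `S`. -/
theorem card_pmSet {S : Finset (Fin n)} (hS : S.card = 4) : (pmSet S).card = 3 :=
  Crest.Agent.Lib.SwitchKernel.card_pmSet hS

/-- Two different perfect matchings of `S` force `|S| = 4`. -/
lemma pm_card_four {S : Finset (Fin n)} {F : Finset (Edge n)} (hF : F ∈ pmSet S) : S.card = 4 := by
  rw [pmSet, Finset.mem_filter, Finset.mem_powersetCard] at hF
  obtain ⟨⟨-, hcard⟩, hin, hcov⟩ := hF
  obtain ⟨e₁, e₂, hne, rfl⟩ := Finset.card_eq_two.mp hcard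
  obtain ⟨z₁, hz₁⟩ := e₁
  obtain ⟨z₂, hz₂⟩ := e₂
  induction z₁ using Sym2.ind with
  | _ a b =>
  induction z₂ using Sym2.ind with
  | _ c d =>
  have hab : a ≠ b := by simpa using hz₁
  have hcd : c ≠ d := by simpa using hz₂
  have ha : a ∈ S := hin ⟨s(a, b), hz₁⟩ (by simp) a (by simp)
  have hb : b ∈ S := hin ⟨s(a, b), hz₁⟩ (by simp) b (by simp)
  have hc : c ∈ S := hin ⟨s(c, d), hz₂⟩ (by simp) c (by simp)
  have hd : d ∈ S := hin ⟨s(c, d), hz₂⟩ (by simp) d (by simp)
  have hdisj : ∀ v ∈ S, ¬ (v ∈ (s(a, b) : Sym2 (Fin n)) ∧ v ∈ (s(c, d) : Sym2 (Fin n))) := by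
    rintro v hv ⟨h1, h2⟩
    have h3 := hcov v hv
    rw [Finset.filter_true_of_mem] at h3
    · rw [hcard] at h3
      omega
    · intro e he
      rw [Finset.mem_insert, Finset.mem_singleton] at he
      rcases he with rfl | rfl
      · exact h1
      · exact h2
  have hac : a ≠ c := by
    rintro rfl
    exact hdisj a ha ⟨by simp, by simp⟩
  have had : a ≠ d := by
    rintro rfl
    exact hdisj a ha ⟨by simp, by simp⟩
  have hbc : b ≠ c := by
    rintro rfl
    exact hdisj b hb ⟨by simp, by simp⟩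
  have hbd : b ≠ d := by
    rintro rfl
    exact hdisj b hb ⟨by simp, by simp⟩
  have hS : S = {a, b, c, d} := by
    ext v
    simp only [Finset.mem_insert, Finset.mem_singleton]
    constructor
    · intro hv
      have h3 := hcov v hv
      rw [Finset.card_eq_one] at h3
      obtain ⟨e, he⟩ := h3
      have hemem : e ∈ Finset.filter (fun e : Edge n => v ∈ e.1)
          {(⟨s(a, b), hz₁⟩ : Edge n), ⟨s(c, d), hz₂⟩} := by
        rw [he]; exact Finset.mem_singleton_self e
      rw [Finset.mem_filter, Finset.mem_insert, Finset.mem_singleton] at hemem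
      obtain ⟨h4, h5⟩ := hemem
      rcases h4 with rfl | rfl
      · simp only [Sym2.mem_iff] at h5
        tauto
      · simp only [Sym2.mem_iff] at h5
        tauto
    · rintro (rfl | rfl | rfl | rfl) <;> assumption
  rw [hS, Finset.card_insert_of_notMem (by simp [hab, hac, had]),
    Finset.card_insert_of_notMem (by simp [hbc, hbd]), Finset.card_pair hcd]

/-- A step keeps the degrees. -/
theorem switchResult_mem {S : Finset (Fin n)} {F F' : Finset (Edge n)} (hF : F ∈ pmSet S)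
    (hF' : F' ∈ pmSet S) {d : Fin n → ℕ} {E : Finset (Edge n)} (hE : E ∈ realizations d) :
    switchResult E F F' ∈ realizations d := by
  by_cases hne : F = F'
  · subst hne
    unfold switchResult
    split_ifs with h
    · have hF0 : F = ∅ := by
        have h1 := h.1
        have h2 := h.2
        rw [Finset.eq_empty_iff_forall_notMem]
        intro e he
        exact (Finset.disjoint_left.mp h2 he) (h1 he)
      rw [hF0]
      simpa using hE
    · exact hE
  rw [mem_realizations] at hE ⊢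
  intro v
  rw [Crest.Agent.Lib.SwitchKernel.deg_switchResult (pm_card_four hF) hF hF' hne E v, hE v]

/-- The kernel is symmetric. -/
theorem kernel_symm (n : ℕ) (E E' : Finset (Edge n)) : kernel n E E' = kernel n E' E :=
  Crest.Agent.Lib.SwitchKernel.kernel_symm E E'

theorem kernel_nonneg (n : ℕ) (E E' : Finset (Edge n)) : 0 ≤ kernel n E E' :=
  Crest.Agent.Lib.SwitchKernel.kernel_nonneg E E'

/-- The kernel vanishes from a realization to a non-realization. -/
theorem kernel_eq_zero {d : Fin n → ℕ} {E E' : Finset (Edge n)} (hE : E ∈ realizations d)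
    (hE' : E' ∉ realizations d) : kernel n E E' = 0 :=
  Crest.Agent.Lib.SwitchKernel.kernel_eq_zero_of_mem_of_not_mem hE hE'

/-- Row sums are one. -/
theorem kernel_row_sum (hn : 4 ≤ n) (E : Finset (Edge n)) : ∑ E', kernel n E E' = 1 :=
  Crest.Agent.Lib.SwitchKernel.sum_kernel hn E

/-- A non-dependent matching: edges `{a,b}` and `{c,e}`. -/
noncomputable def mm (a b c e : Fin n) : Finset (Edge n) :=
  univ.filter fun x => x.1 = s(a, b) ∨ x.1 = s(c, e)

lemma mem_mm {a b c e : Fin n} {x : Edge n} : x ∈ mm a b c e ↔ x.1 = s(a, b) ∨ x.1 = s(c, e) := by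
  simp [mm]

lemma mm_eq_pm {a b c e : Fin n} (hab : a ≠ b) (hce : c ≠ e) :
    mm a b c e = Crest.Agent.Lib.SwitchKernel.pm a b c e hab hce := by
  ext x
  rw [mem_mm]
  simp only [Crest.Agent.Lib.SwitchKernel.pm, Finset.mem_insert, Finset.mem_singleton,
    Crest.Agent.Lib.SwitchKernel.ed, Subtype.ext_iff]

/-- Membership in a matching via vertices. -/
lemma mk_mem_mm {a b c e u v : Fin n} (h : ¬ (s(u, v) : Sym2 (Fin n)).IsDiag) :
    (⟨s(u, v), h⟩ : Edge n) ∈ mm a b c e ↔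
      ((u = a ∧ v = b) ∨ (u = b ∧ v = a)) ∨ ((u = c ∧ v = e) ∨ (u = e ∧ v = c)) := by
  rw [mem_mm]
  simp only [Sym2.eq_iff]

lemma mm_subset_iff {a b c e : Fin n} (hab : a ≠ b) (hce : c ≠ e) {E : Finset (Edge n)} :
    mm a b c e ⊆ E ↔ adj E a b ∧ adj E c e := by
  constructor
  · intro h
    refine ⟨⟨by simpa using hab, h ?_⟩, ⟨by simpa using hce, h ?_⟩⟩ <;> simp [mem_mm]
  · rintro ⟨⟨h1, h2⟩, ⟨h3, h4⟩⟩ x hx
    rw [mem_mm] at hx
    rcases hx with hx | hx
    · have : x = ⟨s(a, b), h1⟩ := Subtype.ext hx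
      rwa [this]
    · have : x = ⟨s(c, e), h3⟩ := Subtype.ext hx
      rwa [this]

lemma mm_disjoint_iff {a b c e : Fin n} (hab : a ≠ b) (hce : c ≠ e) {E : Finset (Edge n)} :
    Disjoint (mm a b c e) E ↔ ¬ adj E a b ∧ ¬ adj E c e := by
  rw [Finset.disjoint_left]
  constructor
  · intro h
    refine ⟨?_, ?_⟩
    · rintro ⟨h1, h2⟩
      exact h (by rw [mem_mm]; exact Or.inl rfl) h2
    · rintro ⟨h1, h2⟩
      exact h (by rw [mem_mm]; exact Or.inr rfl) h2
  · rintro ⟨h1, h2⟩ x hx hxE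
    rw [mem_mm] at hx
    rcases hx with hx | hx
    · refine h1 ⟨by simpa using hab, ?_⟩
      have : x = ⟨s(a, b), by simpa using hab⟩ := Subtype.ext hx
      rwa [← this]
    · refine h2 ⟨by simpa using hce, ?_⟩
      have : x = ⟨s(c, e), by simpa using hce⟩ := Subtype.ext hx
      rwa [← this]

/-- The switch agrees with `switchResult` in the active case. -/
lemma swG_eq_switchResult {a b c e : Fin n} {G : Finset (Edge n)} (hd : Dist4 a b c e)
    (h1 : adj G a c) (h2 : adj G b e) (h3 : ¬ adj G a e) (h4 : ¬ adj G b c) :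
    swG a b c e G = switchResult G (mm a c b e) (mm a e b c) := by
  obtain ⟨hab, hac, hae, hbc, hbe, hce⟩ := id hd
  have hx : XiG a b c e G := Or.inl ⟨h1, h2, h3, h4⟩
  have hguard : mm a c b e ⊆ G ∧ Disjoint (mm a e b c) G :=
    ⟨(mm_subset_iff hac hbe).2 ⟨h1, h2⟩, (mm_disjoint_iff hae hbc).2 ⟨h3, h4⟩⟩
  unfold switchResult
  rw [if_pos hguard]
  apply ext_adj
  intro u v
  rw [adj_swG hd hx]
  by_cases huv : u = v
  · subst huv
    have : ¬ adj (G \ mm a c b e ∪ mm a e b c) u u := not_adj_self _ _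
    have h5 := not_Xblock_self hd u
    have h6 := not_adj_self G u
    simp [this, h5, h6]
  have hnd : ¬ (s(u, v) : Sym2 (Fin n)).IsDiag := by simpa using huv
  have hadj : ∀ E : Finset (Edge n), adj E u v ↔ (⟨s(u, v), hnd⟩ : Edge n) ∈ E := by
    intro E
    exact ⟨fun ⟨_, h⟩ => h, fun h => ⟨hnd, h⟩⟩
  rw [hadj (G \ mm a c b e ∪ mm a e b c), Finset.mem_union, Finset.mem_sdiff, mk_mem_mm, mk_mem_mm,
    ← hadj G]
  have hcomm := adj_comm G
  unfold Xblock
  by_cases c1 : (u = a ∧ v = c)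
  · obtain ⟨rfl, rfl⟩ := c1
    simp [hab, hac, hae, hbc, hbe, hce, hab.symm, hac.symm, hae.symm, hbc.symm, hbe.symm, hce.symm, h1]
  by_cases c2 : (u = c ∧ v = a)
  · obtain ⟨rfl, rfl⟩ := c2
    simp [hab, hac, hae, hbc, hbe, hce, hab.symm, hac.symm, hae.symm, hbc.symm, hbe.symm, hce.symm, (hcomm _ _).1 h1]
  by_cases c3 : (u = b ∧ v = e)
  · obtain ⟨rfl, rfl⟩ := c3
    simp [hab, hac, hae, hbc, hbe, hce, hab.symm, hac.symm, hae.symm, hbc.symm, hbe.symm, hce.symm, h2]
  by_cases c4 : (u = e ∧ v = b)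
  · obtain ⟨rfl, rfl⟩ := c4
    simp [hab, hac, hae, hbc, hbe, hce, hab.symm, hac.symm, hae.symm, hbc.symm, hbe.symm, hce.symm, (hcomm _ _).1 h2]
  by_cases c5 : (u = a ∧ v = e)
  · obtain ⟨rfl, rfl⟩ := c5
    simp [hab, hac, hae, hbc, hbe, hce, hab.symm, hac.symm, hae.symm, hbc.symm, hbe.symm, hce.symm, h3]
  by_cases c6 : (u = e ∧ v = a)
  · obtain ⟨rfl, rfl⟩ := c6
    have : ¬ adj G u v := fun h => h3 ((hcomm _ _).1 h)
    simp [hab, hac, hae, hbc, hbe, hce, hab.symm, hac.symm, hae.symm, hbc.symm, hbe.symm, hce.symm, this]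
  by_cases c7 : (u = b ∧ v = c)
  · obtain ⟨rfl, rfl⟩ := c7
    simp [hab, hac, hae, hbc, hbe, hce, hab.symm, hac.symm, hae.symm, hbc.symm, hbe.symm, hce.symm, h4]
  by_cases c8 : (u = c ∧ v = b)
  · obtain ⟨rfl, rfl⟩ := c8
    have : ¬ adj G u v := fun h => h4 ((hcomm _ _).1 h)
    simp [hab, hac, hae, hbc, hbe, hce, hab.symm, hac.symm, hae.symm, hbc.symm, hbe.symm, hce.symm, this]
  -- outside the block
  have hnb : ¬ (((u = a ∨ u = b) ∧ (v = c ∨ v = e)) ∨ ((v = a ∨ v = b) ∧ (u = c ∨ u = e))) := by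
    rintro (⟨ha | ha, hb | hb⟩ | ⟨ha | ha, hb | hb⟩)
    · exact c1 ⟨ha, hb⟩
    · exact c5 ⟨ha, hb⟩
    · exact c7 ⟨ha, hb⟩
    · exact c3 ⟨ha, hb⟩
    · exact c2 ⟨hb, ha⟩
    · exact c6 ⟨hb, ha⟩
    · exact c8 ⟨hb, ha⟩
    · exact c4 ⟨hb, ha⟩
  have hn1 : ¬ (((u = a ∧ v = c) ∨ (u = c ∧ v = a)) ∨ ((u = b ∧ v = e) ∨ (u = e ∧ v = b))) := by
    rintro ((h | h) | (h | h))
    · exact c1 h
    · exact c2 h
    · exact c3 h
    · exact c4 h
  have hn2 : ¬ (((u = a ∧ v = e) ∨ (u = e ∧ v = a)) ∨ ((u = b ∧ v = c) ∨ (u = c ∧ v = b))) := by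
    rintro ((h | h) | (h | h))
    · exact c5 h
    · exact c6 h
    · exact c7 h
    · exact c8 h
  simp only [hnb, hn1, hn2, false_and, not_false_eq_true, true_and, false_or, or_false, and_true]

lemma swG_comm (a b c e : Fin n) (G : Finset (Edge n)) : swG a b c e G = swG a b e c G := by
  have h1 : (Dist4 a b c e ∧ XiG a b c e G) ↔ (Dist4 a b e c ∧ XiG a b e c G) := by
    unfold Dist4 XiG
    constructor
    · rintro ⟨⟨h1, h2, h3, h4, h5, h6⟩, h7⟩
      exact ⟨⟨h1, h3, h2, h5, h4, h6.symm⟩, by tauto⟩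
    · rintro ⟨⟨h1, h2, h3, h4, h5, h6⟩, h7⟩
      exact ⟨⟨h1, h3, h2, h5, h4, h6.symm⟩, by tauto⟩
  by_cases hc : Dist4 a b c e ∧ XiG a b c e G
  · apply ext_adj
    intro u v
    rw [adj_swG hc.1 hc.2, adj_swG (h1.1 hc).1 (h1.1 hc).2]
    have : Xblock a b c e u v ↔ Xblock a b e c u v := by
      unfold Xblock; tauto
    tauto
  · rw [swG_of_not hc, swG_of_not (fun h => hc (h1.2 h))]

/-- The one-directional term. -/
noncomputable def UU (f : Finset (Edge n) → ℝ) (G : Finset (Edge n)) (a b c e : Fin n) : ℝ :=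
  (f G - f (switchResult G (mm a c b e) (mm a e b c))) ^ 2

lemma UU_inactive {f : Finset (Edge n) → ℝ} {G : Finset (Edge n)} {a b c e : Fin n}
    (hd : Dist4 a b c e) (h : ¬ (adj G a c ∧ adj G b e ∧ ¬ adj G a e ∧ ¬ adj G b c)) :
    UU f G a b c e = 0 := by
  obtain ⟨hab, hac, hae, hbc, hbe, hce⟩ := hd
  unfold UU switchResult
  rw [if_neg]
  · simp
  · rintro ⟨h1, h2⟩
    rw [mm_subset_iff hac hbe] at h1
    rw [mm_disjoint_iff hae hbc] at h2
    tauto

/-- Splitting of the squared switch difference according to the two directions. -/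
lemma sq_sw_eq (f : Finset (Edge n) → ℝ) (G : Finset (Edge n)) {a b c e : Fin n}
    (hd : Dist4 a b c e) :
    (f G - f (swG a b c e G)) ^ 2 = UU f G a b c e + UU f G a b e c := by
  have hd' : Dist4 a b e c := by
    obtain ⟨h1, h2, h3, h4, h5, h6⟩ := hd
    exact ⟨h1, h3, h2, h5, h4, h6.symm⟩
  by_cases c1 : adj G a c ∧ adj G b e ∧ ¬ adj G a e ∧ ¬ adj G b c
  · obtain ⟨h1, h2, h3, h4⟩ := c1
    rw [UU_inactive hd' (by tauto)]
    unfold UU
    rw [swG_eq_switchResult hd h1 h2 h3 h4]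
    simp
  by_cases c2 : adj G a e ∧ adj G b c ∧ ¬ adj G a c ∧ ¬ adj G b e
  · obtain ⟨h1, h2, h3, h4⟩ := c2
    rw [UU_inactive hd (by tauto)]
    unfold UU
    rw [swG_comm, swG_eq_switchResult hd' h1 h2 h3 h4]
    simp
  · rw [UU_inactive hd c1, UU_inactive hd' c2, swG_of_not]
    · simp
    · rintro ⟨-, hx⟩
      unfold XiG at hx
      tauto

/-- The proposal associated with an ordered quadruple. -/
noncomputable def Psi (q : Fin n × Fin n × Fin n × Fin n) :
    Σ _ : Finset (Fin n), Σ _ : Finset (Edge n), Finset (Edge n) :=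
  ⟨{q.1, q.2.1, q.2.2.1, q.2.2.2}, mm q.1 q.2.2.1 q.2.1 q.2.2.2, mm q.1 q.2.2.2 q.2.1 q.2.2.1⟩

/-- Distinct quadruples. -/
noncomputable def QQ : Finset (Fin n × Fin n × Fin n × Fin n) :=
  univ.filter fun q => Dist4 q.1 q.2.1 q.2.2.1 q.2.2.2

/-- All proposals. -/
noncomputable def PP : Finset (Σ _ : Finset (Fin n), Σ _ : Finset (Edge n), Finset (Edge n)) :=
  ((univ : Finset (Fin n)).powersetCard 4).sigma fun S =>
    (pmSet S).sigma fun F => (pmSet S).erase F

lemma Psi_mem {q : Fin n × Fin n × Fin n × Fin n} (hq : q ∈ QQ) : Psi q ∈ PP := by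
  obtain ⟨a, b, c, e⟩ := q
  have hd : Dist4 a b c e := (Finset.mem_filter.mp hq).2
  obtain ⟨hab, hac, hae, hbc, hbe, hce⟩ := id hd
  have hpm := Crest.Agent.Lib.SwitchKernel.pmSet_eq hab hac hae hbc hbe hce
  simp only [Psi, PP, Finset.mem_sigma, Finset.mem_powersetCard, Finset.subset_univ, true_and,
    Finset.mem_erase]
  refine ⟨?_, ?_, ?_, ?_⟩
  · rw [Finset.card_insert_of_notMem (by simp [hab, hac, hae]),
      Finset.card_insert_of_notMem (by simp [hbc, hbe]), Finset.card_pair hce]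
  · rw [hpm, mm_eq_pm hac hbe]; simp
  · -- `ac` lies in the first matching only
    intro h
    have h1 : (⟨s(a, c), by simpa using hac⟩ : Edge n) ∈ mm a c b e := by
      rw [mem_mm]; exact Or.inl rfl
    rw [← h, mk_mem_mm] at h1
    rcases h1 with (⟨_, h⟩ | ⟨h, _⟩) | (⟨h, _⟩ | ⟨h, _⟩)
    · exact hce h
    · exact hae h
    · exact hab h
    · exact hac h
  · rw [hpm, mm_eq_pm hae hbc]; simp

/-- A fibre of `Psi` has at most four elements: `a` determines the rest. -/
lemma card_fibre_le (p : Σ _ : Finset (Fin n), Σ _ : Finset (Edge n), Finset (Edge n))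
    (hp : p.1.card = 4) :
    (QQ.filter fun q : Fin n × Fin n × Fin n × Fin n => Psi q = p).card ≤ 4 := by
  rw [← hp]
  refine Finset.card_le_card_of_injOn (fun q => q.1) ?_ ?_
  · intro q hq
    have h1 := (Finset.mem_filter.mp hq).2
    rw [← h1]
    simp [Psi]
  · intro q hq q' hq' haa
    have hq0 := (Finset.mem_coe.mp hq)
    have hq'0 := (Finset.mem_coe.mp hq')
    have hΨ : Psi q = Psi q' := by
      rw [(Finset.mem_filter.mp hq0).2, (Finset.mem_filter.mp hq'0).2]
    obtain ⟨a, b, c, e⟩ := q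
    obtain ⟨a', b', c', e'⟩ := q'
    have hd : Dist4 a b c e := (Finset.mem_filter.mp (Finset.mem_filter.mp hq0).1).2
    have hd' : Dist4 a' b' c' e' := (Finset.mem_filter.mp (Finset.mem_filter.mp hq'0).1).2
    simp only at haa
    subst haa
    obtain ⟨hab, hac, hae, hbc, hbe, hce⟩ := id hd
    obtain ⟨hab', hac', hae', hbc', hbe', hce'⟩ := id hd'
    simp only [Psi, Sigma.mk.injEq, heq_eq_eq] at hΨ
    obtain ⟨hS, hF, hF'⟩ := hΨ
    -- `c = c'`
    have h1 : (⟨s(a, c), by simpa using hac⟩ : Edge n) ∈ mm a c b e := by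
      rw [mem_mm]; exact Or.inl rfl
    rw [hF, mk_mem_mm] at h1
    have hcc : c = c' := by
      rcases h1 with (⟨_, h⟩ | ⟨h, _⟩) | (⟨h, _⟩ | ⟨h, _⟩)
      · exact h
      · exact absurd h hac'
      · exact absurd h hab'
      · exact absurd h hae'
    have h2 : (⟨s(a, e), by simpa using hae⟩ : Edge n) ∈ mm a e b c := by
      rw [mem_mm]; exact Or.inl rfl
    rw [hF', mk_mem_mm] at h2
    have hee : e = e' := by
      rcases h2 with (⟨_, h⟩ | ⟨h, _⟩) | (⟨h, _⟩ | ⟨h, _⟩)
      · exact h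
      · exact absurd h hae'
      · exact absurd h hab'
      · exact absurd h hac'
    subst hcc
    subst hee
    have h3 : b' ∈ ({a, b, c, e} : Finset (Fin n)) := by
      rw [hS]; simp
    simp only [Finset.mem_insert, Finset.mem_singleton] at h3
    have hbb : b = b' := by
      rcases h3 with h | h | h | h
      · exact absurd h.symm hab'
      · exact h.symm
      · exact absurd h hbc'
      · exact absurd h hbe'
    subst hbb
    rfl

/-- Sum over quadruples of the one-directional terms against the proposal sum. -/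
lemma sum_UU_le (f : Finset (Edge n) → ℝ) (G : Finset (Edge n)) :
    ∑ q ∈ (QQ : Finset (Fin n × Fin n × Fin n × Fin n)), UU f G q.1 q.2.1 q.2.2.1 q.2.2.2
      ≤ 4 * ∑ S ∈ (univ : Finset (Fin n)).powersetCard 4, ∑ F ∈ pmSet S,
          ∑ F' ∈ (pmSet S).erase F, (f G - f (switchResult G F F')) ^ 2 := by
  set V : (Σ _ : Finset (Fin n), Σ _ : Finset (Edge n), Finset (Edge n)) → ℝ :=
    fun p => (f G - f (switchResult G p.2.1 p.2.2)) ^ 2 with hV
  have hVnn : ∀ p, 0 ≤ V p := fun p => sq_nonneg _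
  have h1 : ∀ q : Fin n × Fin n × Fin n × Fin n, UU f G q.1 q.2.1 q.2.2.1 q.2.2.2 = V (Psi q) :=
    fun q => rfl
  simp only [h1]
  have h2 : ∑ S ∈ (univ : Finset (Fin n)).powersetCard 4, ∑ F ∈ pmSet S,
      ∑ F' ∈ (pmSet S).erase F, (f G - f (switchResult G F F')) ^ 2 = ∑ p ∈ PP, V p := by
    unfold PP
    rw [Finset.sum_sigma]
    refine Finset.sum_congr rfl fun S _ => ?_
    rw [Finset.sum_sigma]
  rw [h2, Finset.mul_sum]
  have h3 := Finset.sum_fiberwise_of_maps_to (s := (QQ : Finset (Fin n × Fin n × Fin n × Fin n)))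
    (t := PP) (g := Psi) (fun q hq => Psi_mem hq) (fun q => V (Psi q))
  rw [← h3]
  refine Finset.sum_le_sum fun p hp => ?_
  have hp4 : p.1.card = 4 := by
    have := (Finset.mem_sigma.mp hp).1
    exact (Finset.mem_powersetCard.mp this).2
  have h4 : ∑ q ∈ QQ.filter (fun q : Fin n × Fin n × Fin n × Fin n => Psi q = p), V (Psi q)
      = ((QQ.filter (fun q : Fin n × Fin n × Fin n × Fin n => Psi q = p)).card : ℝ) * V p := by
    rw [← nsmul_eq_mul]
    rw [Finset.sum_congr rfl (g := fun _ => V p) fun q hq => by rw [(Finset.mem_filter.mp hq).2]]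
    simp
  rw [h4]
  refine mul_le_mul_of_nonneg_right ?_ (hVnn p)
  exact_mod_cast card_fibre_le p hp4

/-- The per-graph bound. -/
lemma per_graph (f : Finset (Edge n) → ℝ) (G : Finset (Edge n)) :
    ∑ a, ∑ b, ∑ c, ∑ e, (f G - f (swG a b c e G)) ^ 2
      ≤ 8 * ∑ S ∈ (univ : Finset (Fin n)).powersetCard 4, ∑ F ∈ pmSet S,
          ∑ F' ∈ (pmSet S).erase F, (f G - f (switchResult G F F')) ^ 2 := by
  set R := ∑ S ∈ (univ : Finset (Fin n)).powersetCard 4, ∑ F ∈ pmSet S,
          ∑ F' ∈ (pmSet S).erase F, (f G - f (switchResult G F F')) ^ 2 with hR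
  have hUsum := sum_UU_le f G
  rw [← hR] at hUsum
  -- pass to quadruples
  have h1 : ∑ a, ∑ b, ∑ c, ∑ e, (f G - f (swG a b c e G)) ^ 2
      = ∑ q ∈ (QQ : Finset (Fin n × Fin n × Fin n × Fin n)),
          (UU f G q.1 q.2.1 q.2.2.1 q.2.2.2 + UU f G q.1 q.2.1 q.2.2.2 q.2.2.1) := by
    have h2 : ∀ q ∈ (QQ : Finset (Fin n × Fin n × Fin n × Fin n)),
        UU f G q.1 q.2.1 q.2.2.1 q.2.2.2 + UU f G q.1 q.2.1 q.2.2.2 q.2.2.1
          = (f G - f (swG q.1 q.2.1 q.2.2.1 q.2.2.2 G)) ^ 2 := by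
      intro q hq
      exact (sq_sw_eq f G (Finset.mem_filter.mp hq).2).symm
    rw [Finset.sum_congr rfl h2]
    unfold QQ
    rw [Finset.sum_filter]
    simp only [Fintype.sum_prod_type]
    refine Finset.sum_congr rfl fun a _ => Finset.sum_congr rfl fun b _ =>
      Finset.sum_congr rfl fun c _ => Finset.sum_congr rfl fun e _ => ?_
    by_cases hd : Dist4 a b c e
    · rw [if_pos hd]
    · rw [if_neg hd, swG_of_not fun h => hd h.1]
      simp
  have h3 : ∑ q ∈ (QQ : Finset (Fin n × Fin n × Fin n × Fin n)),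
        UU f G q.1 q.2.1 q.2.2.2 q.2.2.1
      = ∑ q ∈ (QQ : Finset (Fin n × Fin n × Fin n × Fin n)),
        UU f G q.1 q.2.1 q.2.2.1 q.2.2.2 := by
    refine Finset.sum_nbij' (fun q => (q.1, q.2.1, q.2.2.2, q.2.2.1))
      (fun q => (q.1, q.2.1, q.2.2.2, q.2.2.1)) ?_ ?_ ?_ ?_ ?_
    · intro q hq
      obtain ⟨h1, h2, h3, h4, h5, h6⟩ := (Finset.mem_filter.mp hq).2
      exact Finset.mem_filter.mpr ⟨Finset.mem_univ _, h1, h3, h2, h5, h4, h6.symm⟩
    · intro q hq
      obtain ⟨h1, h2, h3, h4, h5, h6⟩ := (Finset.mem_filter.mp hq).2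
      exact Finset.mem_filter.mpr ⟨Finset.mem_univ _, h1, h3, h2, h5, h4, h6.symm⟩
    · intro q _; rfl
    · intro q _; rfl
    · intro q _; rfl
  rw [h1, Finset.sum_add_distrib, h3]
  linarith

/-- The proposal sum as the weighted sum over outcomes. -/
lemma proposal_sum {d : Fin n → ℕ} (f : Finset (Edge n) → ℝ) {G : Finset (Edge n)}
    (hG : G ∈ realizations d) :
    ∑ G' ∈ realizations d, (proposalCount G G' : ℝ) * (f G - f G') ^ 2
      = ∑ S ∈ (univ : Finset (Fin n)).powersetCard 4, ∑ F ∈ pmSet S,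
          ∑ F' ∈ (pmSet S).erase F, (f G - f (switchResult G F F')) ^ 2 := by
  unfold proposalCount
  push_cast
  simp only [Finset.sum_mul]
  rw [Finset.sum_comm]
  refine Finset.sum_congr rfl fun S _ => ?_
  rw [Finset.sum_comm]
  refine Finset.sum_congr rfl fun F hF => ?_
  rw [Finset.sum_comm]
  refine Finset.sum_congr rfl fun F' hF' => ?_
  have hr : switchResult G F F' ∈ realizations d :=
    switchResult_mem hF (Finset.mem_of_mem_erase hF') hG
  simp only [ite_mul, one_mul, zero_mul]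
  rw [Finset.sum_ite_eq]
  simp [hr]

/-- Energy comparison. -/
theorem kernel_energy (hn : 4 ≤ n) {d : Fin n → ℕ} (f : Finset (Edge n) → ℝ) :
    (∑ a, ∑ b, ∑ c, ∑ e, swE a b c e (fun G : Om d => f G.1)) ≤
      48 * (n.choose 4 : ℝ) * ∑ G ∈ realizations d,
        f G * (f G - ∑ G' ∈ realizations d, kernel n G G' * f G') := by
  rw [Crest.Agent.Lib.SwitchMix.kernel_dirichlet hn d f]
  have hC : (0 : ℝ) < (n.choose 4 : ℝ) := by exact_mod_cast Nat.choose_pos hn
  have h1 : 48 * (n.choose 4 : ℝ) * ((1 / (24 * (n.choose 4 : ℝ))) *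
      ∑ G ∈ realizations d, ∑ G' ∈ realizations d, (proposalCount G G' : ℝ) * (f G - f G') ^ 2)
      = 2 * ∑ G ∈ realizations d, ∑ G' ∈ realizations d,
          (proposalCount G G' : ℝ) * (f G - f G') ^ 2 := by
    field_simp
    ring
  rw [h1]
  have h2 : (∑ a, ∑ b, ∑ c, ∑ e, swE a b c e (fun G : Om d => f G.1))
      = (1 / 4) * ∑ G ∈ realizations d, ∑ a, ∑ b, ∑ c, ∑ e, (f G - f (swG a b c e G)) ^ 2 := by
    have e1 : ∀ a b c e, swE a b c e (fun G : Om d => f G.1)
        = (1 / 4) * ∑ G ∈ realizations d, (f G - f (swG a b c e G)) ^ 2 := by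
      intro a b c e
      unfold swE
      congr 1
      exact Finset.sum_coe_sort (realizations d) (fun G => (f G - f (swG a b c e G)) ^ 2)
    simp only [e1, ← Finset.mul_sum]
    refine congrArg (fun t : ℝ => (1 / 4) * t) ?_
    symm
    rw [Finset.sum_comm]
    refine Finset.sum_congr rfl fun a _ => ?_
    rw [Finset.sum_comm]
    refine Finset.sum_congr rfl fun b _ => ?_
    rw [Finset.sum_comm]
    refine Finset.sum_congr rfl fun c _ => ?_
    rw [Finset.sum_comm]
  rw [h2]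
  have h3 : ∑ G ∈ realizations d, ∑ a, ∑ b, ∑ c, ∑ e, (f G - f (swG a b c e G)) ^ 2
      ≤ 8 * ∑ G ∈ realizations d, ∑ G' ∈ realizations d,
          (proposalCount G G' : ℝ) * (f G - f G') ^ 2 := by
    rw [Finset.mul_sum]
    refine Finset.sum_le_sum fun G hG => ?_
    rw [proposal_sum f hG]
    exact per_graph f G
  linarith

end Crest.Agent.Lib.SW
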