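import Crest.Agent.Lib.SW.Cond

/-!
# Spectral glue (S0453): the gap from a Bochner inequality, without the spectral theorem.
-/

set_option autoImplicit false

open Finset
open scoped Classical

namespace Crest.Agent.Lib.SW

variable {α : Type*} [Fintype α]

/-- Cauchy–Schwarz for a positive semidefinite symmetric operator. -/
theorem ip_T_sq_le (T : (α → ℝ) →ₗ[ℝ] (α → ℝ)) (hT : ∀ f g, ip (T f) g = ip f (T g))
    (hpsd : ∀ f, 0 ≤ ip f (T f)) (x y : α → ℝ) :
    ip x (T y) ^ 2 ≤ ip x (T x) * ip y (T y) := by
  have hsym : ip y (T x) = ip x (T y) := by rw [ip_comm, hT]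
  have h : ∀ t : ℝ, 0 ≤ ip y (T y) * (t * t) + 2 * ip x (T y) * t + ip x (T x) := by
    intro t
    have h0 := hpsd (fun z => x z + t * y z)
    have e : T (fun z => x z + t * y z) = fun z => T x z + t * T y z := by
      have : (fun z => x z + t * y z) = x + t • y := by
        funext z; simp
      rw [this, map_add, map_smul]
      funext z; simp
    rw [e, ip_add_left, ip_add_right, ip_add_right, ip_smul_left, ip_smul_left, ip_smul_right,
      ip_smul_right, hsym] at h0
    nlinarith
  have := discrim_le_zero h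
  unfold discrim at this
  nlinarith

/-- Bochner implies a spectral gap: if `T` is symmetric, positive semidefinite and
`c ⟨f,Tf⟩ ≤ ‖Tf‖²` for all `f`, then `c ‖f‖² ≤ ⟨f,Tf⟩` for `f` orthogonal to `ker T`. -/
theorem gap_of_bochner (T : (α → ℝ) →ₗ[ℝ] (α → ℝ)) (hT : ∀ f g, ip (T f) g = ip f (T g))
    (hpsd : ∀ f, 0 ≤ ip f (T f)) {c : ℝ} (hc : 0 < c)
    (hB : ∀ f, c * ip f (T f) ≤ ip (T f) (T f)) (f : α → ℝ)
    (hf : ∀ v, T v = 0 → ip f v = 0) : c * ip f f ≤ ip f (T f) := by
  -- the orthogonal complement of the kernel, as a submodule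
  let W : Submodule ℝ (α → ℝ) :=
    { carrier := {g | ∀ v, T v = 0 → ip g v = 0}
      add_mem' := by
        intro a b ha hb v hv
        have := ip_add_left a b v
        replace ha : ∀ v, T v = 0 → ip a v = 0 := ha
        replace hb : ∀ v, T v = 0 → ip b v = 0 := hb
        change ip (fun x => a x + b x) v = 0
        rw [this, ha v hv, hb v hv]; ring
      zero_mem' := by
        intro v _
        simp [ip]
      smul_mem' := by
        intro t a ha v hv
        replace ha : ∀ v, T v = 0 → ip a v = 0 := ha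
        change ip (fun x => t * a x) v = 0
        rw [ip_smul_left, ha v hv]; ring }
  have hW : ∀ g, g ∈ W ↔ ∀ v, T v = 0 → ip g v = 0 := fun g => Iff.rfl
  -- `T` restricts to `W` and is injective there, hence onto
  let T' : W →ₗ[ℝ] W := T.restrict (fun g _ => by
    intro v hv
    rw [hT, hv]
    simp [ip])
  have hinj : Function.Injective T' := by
    rw [← LinearMap.ker_eq_bot, LinearMap.ker_eq_bot']
    rintro ⟨g, hg⟩ h0
    have hTg : T g = 0 := by
      have := congrArg Subtype.val h0
      simpa [T'] using this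
    have := hg g hTg
    have hg0 := ip_self_eq_zero this
    exact Subtype.ext hg0
  have hsurj : Function.Surjective T' := LinearMap.injective_iff_surjective.1 hinj
  obtain ⟨⟨g, hg⟩, hgf⟩ := hsurj ⟨f, hf⟩
  have hTg : T g = f := by
    have := congrArg Subtype.val hgf
    simpa [T'] using this
  -- Cauchy–Schwarz
  have hA : ip f f = ip g (T f) := by
    conv_lhs => rw [← hTg]
    rw [hT, hTg]
  have hgf' : ip g (T g) = ip g f := by rw [hTg]
  have hCS := ip_T_sq_le T hT hpsd g f
  rw [← hA, hgf'] at hCS
  have hB' := hB g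
  rw [hgf', hTg] at hB'
  have h1 : 0 ≤ ip f (T f) := hpsd f
  have hA0 : 0 ≤ ip f f := ip_self_nonneg f
  rcases hA0.eq_or_lt with h0 | hpos
  · rw [← h0]; simpa using h1
  · have h2 : c * (ip f f) ^ 2 ≤ ip f f * ip f (T f) := by
      calc c * (ip f f) ^ 2 ≤ c * (ip g f * ip f (T f)) := by
            exact mul_le_mul_of_nonneg_left hCS hc.le
        _ = (c * ip g f) * ip f (T f) := by ring
        _ ≤ ip f f * ip f (T f) := mul_le_mul_of_nonneg_right hB' h1
    have h3 : ip f f * (c * ip f f) ≤ ip f f * ip f (T f) := by nlinarith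
    exact le_of_mul_le_mul_left h3 hpos

end Crest.Agent.Lib.SW
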