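import Crest.Agent.Lib.SW.TripleFiber
import Crest.Agent.Lib.SW.JohnsonFiber
import Crest.Agent.Lib.SW.DLemma
import Crest.Agent.Lib.SW.Connect
import Crest.Agent.Lib.SW.Spectral

/-!
# Bochner assembly (S0453, module H)

`T = Σ_{a≠b} Q_{ab}`.  `‖T f‖² = 2 Σ ‖Q_ab f‖² + 4 Σ_{(a,b,c)} ⟨Q_ab f, Q_ac f⟩ + Σ_{(a,b,c,e)} ⟨Q_ab f, Q_ce f⟩`.
-/

set_option autoImplicit false

open Finset
open scoped Classical
open Crest.SwitchChain

namespace Crest.Agent.Lib.SW

variable {n : ℕ} {d : Fin n → ℕ}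

/-! ### Combinatorics of sums over quadruples of vertices -/

theorem sum_split2 {a b : Fin n} (hab : a ≠ b) (h : Fin n → ℝ) :
    ∑ c, h c = h a + h b + ∑ c, if c ≠ a ∧ c ≠ b then h c else 0 := by
  have e : ∀ c, h c = (if c = a then h c else 0) + (if c = b then h c else 0) +
      (if c ≠ a ∧ c ≠ b then h c else 0) := by
    intro c
    by_cases h1 : c = a
    · subst h1; simp [hab]
    · by_cases h2 : c = b
      · subst h2; simp [h1]
      · simp [h1, h2]
  conv_lhs => rw [sum_congr rfl fun c _ => e c]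
  rw [sum_add_distrib, sum_add_distrib]
  simp

theorem sum4_swap (F : Fin n → Fin n → Fin n → Fin n → ℝ) :
    ∑ a, ∑ b, ∑ c, ∑ e, F c e a b = ∑ a, ∑ b, ∑ c, ∑ e, F a b c e := by
  calc ∑ a, ∑ b, ∑ c, ∑ e, F c e a b
      = ∑ p : Fin n × Fin n, ∑ q : Fin n × Fin n, F q.1 q.2 p.1 p.2 := by
        simp only [Fintype.sum_prod_type]
    _ = ∑ q : Fin n × Fin n, ∑ p : Fin n × Fin n, F q.1 q.2 p.1 p.2 := sum_comm
    _ = ∑ a, ∑ b, ∑ c, ∑ e, F a b c e := by
        simp only [Fintype.sum_prod_type]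

/-- Pattern decomposition of the double sum over pairs, for fixed `a ≠ b`. -/
theorem pattern_inner {a b : Fin n} (hab : a ≠ b) (g : Fin n → Fin n → ℝ) :
    (∑ c, ∑ e, if c = e then 0 else g c e) =
      g a b + g b a + (∑ e, if e ≠ a ∧ e ≠ b then g a e else 0)
        + (∑ c, if c ≠ a ∧ c ≠ b then g c a else 0)
        + (∑ e, if e ≠ a ∧ e ≠ b then g b e else 0)
        + (∑ c, if c ≠ a ∧ c ≠ b then g c b else 0)
        + ∑ c, ∑ e, if Dist4 a b c e then g c e else 0 := by
  -- split the outer sum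
  rw [sum_split2 hab]
  -- first two terms
  have h1 : (∑ e, if a = e then 0 else g a e) = g a b + ∑ e, if e ≠ a ∧ e ≠ b then g a e else 0 := by
    rw [sum_split2 hab]
    simp only [if_true, zero_add, if_neg hab]
    congr 1
    refine sum_congr rfl fun e _ => ?_
    by_cases h : e ≠ a ∧ e ≠ b
    · rw [if_pos h, if_pos h, if_neg (Ne.symm h.1)]
    · rw [if_neg h, if_neg h]
  have h2 : (∑ e, if b = e then 0 else g b e) = g b a + ∑ e, if e ≠ a ∧ e ≠ b then g b e else 0 := by
    rw [sum_split2 hab]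
    simp only [if_true, add_zero, if_neg hab.symm]
    congr 1
    refine sum_congr rfl fun e _ => ?_
    by_cases h : e ≠ a ∧ e ≠ b
    · rw [if_pos h, if_pos h, if_neg (Ne.symm h.2)]
    · rw [if_neg h, if_neg h]
  rw [h1, h2]
  -- the rest
  have h3 : ∀ c, (if c ≠ a ∧ c ≠ b then ∑ e, if c = e then 0 else g c e else 0) =
      (if c ≠ a ∧ c ≠ b then g c a else 0) + (if c ≠ a ∧ c ≠ b then g c b else 0) +
        ∑ e, if Dist4 a b c e then g c e else 0 := by
    intro c
    by_cases hc : c ≠ a ∧ c ≠ b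
    · rw [if_pos hc, if_pos hc, if_pos hc, sum_split2 hab]
      rw [if_neg (Ne.symm hc.1).symm, if_neg (Ne.symm hc.2).symm]
      congr 1
      refine sum_congr rfl fun e _ => ?_
      by_cases he : e ≠ a ∧ e ≠ b
      · rw [if_pos he]
        by_cases hce : c = e
        · rw [if_pos hce, if_neg]
          rintro ⟨-, -, -, -, -, h6⟩
          exact h6 hce
        · rw [if_neg hce, if_pos]
          exact ⟨hab, Ne.symm hc.1, Ne.symm he.1, Ne.symm hc.2, Ne.symm he.2, hce⟩
      · rw [if_neg he, if_neg]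
        rintro ⟨-, -, h3, -, h5, -⟩
        exact he ⟨Ne.symm h3, Ne.symm h5⟩
    · rw [if_neg hc, if_neg hc, if_neg hc]
      simp only [zero_add]
      rw [sum_eq_zero]
      intro e _
      rw [if_neg]
      rintro ⟨-, h2, -, h4, -, -⟩
      exact hc ⟨Ne.symm h2, Ne.symm h4⟩
  rw [sum_congr rfl fun c _ => h3 c, sum_add_distrib, sum_add_distrib]
  ring

/-- The full pattern decomposition. -/
theorem pattern_sum (g : Fin n → Fin n → Fin n → Fin n → ℝ)
    (h1 : ∀ a b c e, g a b c e = g b a c e) (h2 : ∀ a b c e, g a b c e = g a b e c) :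
    (∑ a, ∑ b, ∑ c, ∑ e, if a = b then 0 else if c = e then 0 else g a b c e) =
      2 * (∑ a, ∑ b, if a = b then 0 else g a b a b) +
        4 * (∑ a, ∑ b, ∑ c, if a ≠ b ∧ c ≠ a ∧ c ≠ b then g a b a c else 0) +
        ∑ a, ∑ b, ∑ c, ∑ e, if Dist4 a b c e then g a b c e else 0 := by
  set S3 := ∑ a, ∑ b, ∑ c, if a ≠ b ∧ c ≠ a ∧ c ≠ b then g a b a c else 0 with hS3
  set N1 := ∑ a, ∑ b, if a = b then 0 else g a b a b with hN1
  -- pointwise in (a,b)
  have hp : ∀ a b, (∑ c, ∑ e, if a = b then 0 else if c = e then 0 else g a b c e) =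
      (if a = b then 0 else g a b a b) + (if a = b then 0 else g a b a b)
        + (∑ e, if a ≠ b ∧ e ≠ a ∧ e ≠ b then g a b a e else 0)
        + (∑ e, if a ≠ b ∧ e ≠ a ∧ e ≠ b then g a b a e else 0)
        + (∑ e, if b ≠ a ∧ e ≠ b ∧ e ≠ a then g b a b e else 0)
        + (∑ e, if b ≠ a ∧ e ≠ b ∧ e ≠ a then g b a b e else 0)
        + ∑ c, ∑ e, if Dist4 a b c e then g a b c e else 0 := by
    intro a b
    by_cases hab : a = b
    · subst hab
      have : ∀ c e, ¬ Dist4 a a c e := fun c e h => h.1 rfl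
      simp [this]
    · simp only [if_neg hab]
      rw [pattern_inner hab (fun c e => g a b c e)]
      have hba : b ≠ a := Ne.symm hab
      have e1 : g a b b a = g a b a b := (h2 a b b a)
      have e2 : ∀ c, (if c ≠ a ∧ c ≠ b then g a b c a else 0) =
          (if a ≠ b ∧ c ≠ a ∧ c ≠ b then g a b a c else 0) := by
        intro c
        simp only [ne_eq, hab, not_false_eq_true, true_and]
        rw [h2 a b c a]
      have e3 : ∀ c, (if c ≠ a ∧ c ≠ b then g a b a c else 0) =
          (if a ≠ b ∧ c ≠ a ∧ c ≠ b then g a b a c else 0) := by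
        intro c
        simp only [ne_eq, hab, not_false_eq_true, true_and]
      have e4 : ∀ c, (if c ≠ a ∧ c ≠ b then g a b b c else 0) =
          (if b ≠ a ∧ c ≠ b ∧ c ≠ a then g b a b c else 0) := by
        intro c
        simp only [ne_eq, hba, not_false_eq_true, true_and]
        rw [h1 a b b c]
        by_cases h : c = a
        · simp [h]
        · by_cases h' : c = b
          · simp [h']
          · simp [h, h']
      have e5 : ∀ c, (if c ≠ a ∧ c ≠ b then g a b c b else 0) =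
          (if b ≠ a ∧ c ≠ b ∧ c ≠ a then g b a b c else 0) := by
        intro c
        rw [← e4 c, h2 a b c b]
      rw [sum_congr rfl fun c _ => e2 c, sum_congr rfl fun c _ => e3 c,
        sum_congr rfl fun c _ => e4 c, sum_congr rfl fun c _ => e5 c, e1]
  have hS3' : (∑ a, ∑ b, ∑ e, if b ≠ a ∧ e ≠ b ∧ e ≠ a then g b a b e else 0) = S3 := by
    rw [hS3, sum_comm]
  simp only [hp, sum_add_distrib]
  rw [hS3', ← hS3, ← hN1]
  ring

/-! ### The operator `T` -/

/-- `T = Σ_{a≠b} Q_ab`. -/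
noncomputable def Tsum (f : Om d → ℝ) (G : Om d) : ℝ :=
  ∑ a, ∑ b, if a = b then 0 else Qp a b f G

theorem ip_sum_left {α ι : Type*} [Fintype α] (s : Finset ι) (u : ι → α → ℝ) (w : α → ℝ) :
    ip (fun x => ∑ i ∈ s, u i x) w = ∑ i ∈ s, ip (u i) w := by
  unfold ip
  simp only [sum_mul]
  rw [sum_comm]

theorem ip_sum_right {α ι : Type*} [Fintype α] (s : Finset ι) (u : ι → α → ℝ) (w : α → ℝ) :
    ip w (fun x => ∑ i ∈ s, u i x) = ∑ i ∈ s, ip w (u i) := by
  rw [ip_comm, ip_sum_left]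
  exact sum_congr rfl fun i _ => ip_comm _ _

theorem ip_ite_left {α : Type*} [Fintype α] (p : Prop) [Decidable p] (u w : α → ℝ) :
    ip (fun x => if p then 0 else u x) w = if p then 0 else ip u w := by
  by_cases h : p <;> simp [h, ip]

theorem ip_ite_right {α : Type*} [Fintype α] (p : Prop) [Decidable p] (u w : α → ℝ) :
    ip w (fun x => if p then 0 else u x) = if p then 0 else ip w u := by
  by_cases h : p <;> simp [h, ip]

theorem Qp_comm (a b : Fin n) (f : Om d → ℝ) : Qp a b f = Qp b a f := by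
  unfold Qp pk
  rw [Xpair_comm]

theorem ip_Tsum_left (f w : Om d → ℝ) :
    ip (Tsum f) w = ∑ a, ∑ b, if a = b then 0 else ip (Qp a b f) w := by
  have : Tsum f = fun G => ∑ a, ∑ b, if a = b then 0 else Qp a b f G := rfl
  rw [this, ip_sum_left]
  refine sum_congr rfl fun a _ => ?_
  rw [ip_sum_left]
  refine sum_congr rfl fun b _ => ?_
  exact ip_ite_left (a = b) (Qp a b f) w

theorem ip_Tsum_right (f w : Om d → ℝ) :
    ip w (Tsum f) = ∑ a, ∑ b, if a = b then 0 else ip w (Qp a b f) := by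
  rw [ip_comm, ip_Tsum_left]
  refine sum_congr rfl fun a _ => sum_congr rfl fun b _ => ?_
  rw [ip_comm]

/-- Expansion of `‖T f‖²`. -/
theorem ip_Tsum_Tsum (f : Om d → ℝ) :
    ip (Tsum f) (Tsum f) =
      ∑ a, ∑ b, ∑ c, ∑ e, if a = b then 0 else if c = e then 0 else ip (Qp a b f) (Qp c e f) := by
  rw [ip_Tsum_left]
  refine sum_congr rfl fun a _ => sum_congr rfl fun b _ => ?_
  by_cases hab : a = b
  · simp [hab]
  · simp only [if_neg hab]
    rw [ip_Tsum_right]

/-- `T ≥ 0` summed. -/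
theorem S3_nonneg (f : Om d → ℝ) :
    0 ≤ ∑ a, ∑ b, ∑ c, if a ≠ b ∧ c ≠ a ∧ c ≠ b then ip (Qp a b f) (Qp a c f) else 0 := by
  set S : Fin n → Fin n → Fin n → ℝ := fun a b c =>
    if a ≠ b ∧ c ≠ a ∧ c ≠ b then ip (Qp a b f) (Qp a c f) else 0 with hS
  set S3 := ∑ a, ∑ b, ∑ c, S a b c with hS3
  have hZ : 0 ≤ ∑ a, ∑ b, ∑ c, (S a b c + S b a c + S c a b) := by
    refine sum_nonneg fun a _ => sum_nonneg fun b _ => sum_nonneg fun c _ => ?_
    simp only [hS]
    by_cases h : a ≠ b ∧ c ≠ a ∧ c ≠ b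
    · have h2 : b ≠ a ∧ c ≠ b ∧ c ≠ a := ⟨Ne.symm h.1, h.2.2, h.2.1⟩
      have h3 : c ≠ a ∧ b ≠ c ∧ b ≠ a := ⟨h.2.1, Ne.symm h.2.2, Ne.symm h.1⟩
      rw [if_pos h, if_pos h2, if_pos h3]
      have := T_lemma h.1 (Ne.symm h.2.1) (Ne.symm h.2.2) f
      rw [Qp_comm b a, Qp_comm c a, Qp_comm c b]
      exact this
    · have h2 : ¬ (b ≠ a ∧ c ≠ b ∧ c ≠ a) := fun h' => h ⟨Ne.symm h'.1, h'.2.2, h'.2.1⟩
      have h3 : ¬ (c ≠ a ∧ b ≠ c ∧ b ≠ a) := fun h' => h ⟨Ne.symm h'.2.2, h'.1, Ne.symm h'.2.1⟩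
      rw [if_neg h, if_neg h2, if_neg h3]
      simp
  have e2 : (∑ a, ∑ b, ∑ c, S b a c) = S3 := sum_comm
  have e3 : (∑ a, ∑ b, ∑ c, S c a b) = S3 := by
    calc (∑ a, ∑ b, ∑ c, S c a b) = ∑ a, ∑ c, ∑ b, S c a b :=
          sum_congr rfl fun a _ => sum_comm
      _ = ∑ c, ∑ a, ∑ b, S c a b := sum_comm
  simp only [sum_add_distrib] at hZ
  rw [e2, e3] at hZ
  linarith

/-- `D ≥ Λ`, summed. -/
theorem D_sum_ge (f : Om d → ℝ) :
    2 * (∑ a, ∑ b, if a = b then 0 else ip (Qp a b f) (Qp a b f)) ≤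
      ∑ a, ∑ b, ∑ c, ∑ e, if Dist4 a b c e then ip (Qp a b f) (Qp c e f) else 0 := by
  have h1 : ∀ a b c e : Fin n, swE a b c e f - (1 / 2) * nuT a b c e f - (1 / 2) * nuT c e a b f ≤
      if Dist4 a b c e then ip (Qp a b f) (Qp c e f) else 0 := by
    intro a b c e
    by_cases h : Dist4 a b c e
    · rw [if_pos h]
      exact D_lemma h f
    · rw [if_neg h, swE_of_not_dist h, nuT_of_not_dist h, nuT_of_not_dist]
      · simp
      · rintro ⟨h1, h2, h3, h4, h5, h6⟩
        exact h ⟨h6, Ne.symm h2, Ne.symm h4, Ne.symm h3, Ne.symm h5, h1⟩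
  have h2 : (∑ a, ∑ b, ∑ c, ∑ e, (swE a b c e f - (1 / 2) * nuT a b c e f - (1 / 2) * nuT c e a b f))
      = ∑ a, ∑ b, ∑ c, ∑ e, (swE a b c e f - nuT a b c e f) := by
    have h3 := sum4_swap (fun a b c e => nuT a b c e f)
    simp only [sum_sub_distrib, ← mul_sum]
    rw [h3]
    ring
  have h4 : 2 * (∑ a, ∑ b, if a = b then 0 else ip (Qp a b f) (Qp a b f)) ≤
      ∑ a, ∑ b, ∑ c, ∑ e, (swE a b c e f - nuT a b c e f) := by
    rw [mul_sum]
    refine sum_le_sum fun a _ => ?_
    rw [mul_sum]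
    refine sum_le_sum fun b _ => ?_
    by_cases hab : a = b
    · subst hab
      have : ∀ c e, ¬ Dist4 a a c e := fun c e h => h.1 rfl
      simp [swE_of_not_dist (this _ _), nuT_of_not_dist (this _ _)]
    · rw [if_neg hab]
      exact J_lemma hab f
  calc _ ≤ _ := h4
    _ = _ := h2.symm
    _ ≤ _ := sum_le_sum fun a _ => sum_le_sum fun b _ => sum_le_sum fun c _ =>
        sum_le_sum fun e _ => h1 a b c e

/-- Bochner. -/
theorem bochner (f : Om d → ℝ) :
    4 * (∑ a, ∑ b, if a = b then 0 else ip (Qp a b f) (Qp a b f)) ≤ ip (Tsum f) (Tsum f) := by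
  rw [ip_Tsum_Tsum]
  have := pattern_sum (fun a b c e => ip (Qp a b f) (Qp c e f))
    (fun a b c e => by simp only [Qp_comm b a]) (fun a b c e => by simp only [Qp_comm e c])
  rw [this]
  have h1 := S3_nonneg f
  have h2 := D_sum_ge f
  linarith

theorem Qc_ip_left {α K : Type*} [Fintype α] (κ : α → K) (f g : α → ℝ) :
    ip (Qc κ f) g = ip f (Qc κ g) := by
  have h1 : Qc κ f = fun x => f x - cond κ f x := rfl
  have h2 : Qc κ g = fun x => g x - cond κ g x := rfl
  rw [h1, h2, ip_sub_left, ip_sub_right, ip_cond_left]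

/-- `T` as a linear map. -/
noncomputable def TL : (Om d → ℝ) →ₗ[ℝ] (Om d → ℝ) where
  toFun := Tsum
  map_add' f g := by
    funext G
    simp only [Tsum, Pi.add_apply, ← sum_add_distrib]
    refine sum_congr rfl fun a _ => sum_congr rfl fun b _ => ?_
    by_cases hab : a = b
    · simp [hab]
    · simp only [if_neg hab]
      show Qc (pk a b) (f + g) G = Qc (pk a b) f G + Qc (pk a b) g G
      have : cond (pk a b) (f + g) = fun x => cond (pk a b) f x + cond (pk a b) g x :=
        cond_add (pk a b) f g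
      simp only [Qc, this, Pi.add_apply]
      ring
  map_smul' t f := by
    funext G
    simp only [Tsum, Pi.smul_apply, smul_eq_mul, RingHom.id_apply, mul_sum]
    refine sum_congr rfl fun a _ => sum_congr rfl fun b _ => ?_
    by_cases hab : a = b
    · simp [hab]
    · simp only [if_neg hab]
      show Qc (pk a b) (t • f) G = t * Qc (pk a b) f G
      have : cond (pk a b) (t • f) = fun x => t * cond (pk a b) f x := cond_smul (pk a b) t f
      simp only [Qc, this, Pi.smul_apply, smul_eq_mul]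
      ring

theorem TL_apply (f : Om d → ℝ) : TL f = Tsum f := rfl

theorem ip_Tsum_self (f : Om d → ℝ) :
    ip f (Tsum f) = ∑ a, ∑ b, if a = b then 0 else ip (Qp a b f) (Qp a b f) := by
  rw [ip_Tsum_right]
  refine sum_congr rfl fun a _ => sum_congr rfl fun b _ => ?_
  by_cases hab : a = b
  · simp [hab]
  · simp only [if_neg hab]
    exact (ip_Qc_self _ _).symm

theorem TL_symm (f g : Om d → ℝ) : ip (TL f) g = ip f (TL g) := by
  rw [TL_apply, TL_apply, ip_Tsum_left, ip_Tsum_right]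
  refine sum_congr rfl fun a _ => sum_congr rfl fun b _ => ?_
  by_cases hab : a = b
  · simp [hab]
  · simp only [if_neg hab]
    exact Qc_ip_left _ _ _

theorem sum_Qnorm_nonneg (f : Om d → ℝ) :
    0 ≤ ∑ a, ∑ b, if a = b then 0 else ip (Qp a b f) (Qp a b f) := by
  refine sum_nonneg fun a _ => sum_nonneg fun b _ => ?_
  split_ifs
  · exact le_rfl
  · exact ip_self_nonneg _

/-- The kernel of `T` consists of constants. -/
theorem const_of_TL_eq_zero (v : Om d → ℝ) (hv : TL v = 0) (G H : Om d) : v G = v H := by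
  refine const_of_sw_invariant v ?_ G H
  intro a b c e G
  by_cases hd : Dist4 a b c e
  · have hab : a ≠ b := hd.1
    have h0 : ip v (Tsum v) = 0 := by
      rw [← TL_apply, hv]; simp [ip]
    rw [ip_Tsum_self] at h0
    have h1 : ∀ a ∈ (univ : Finset (Fin n)), 0 ≤ ∑ b, if a = b then 0 else ip (Qp a b v) (Qp a b v) :=
      fun a _ => sum_nonneg fun b _ => by
        split_ifs
        · exact le_rfl
        · exact ip_self_nonneg _
    have h2 := (sum_eq_zero_iff_of_nonneg h1).1 h0 a (mem_univ a)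
    have h3 := (sum_eq_zero_iff_of_nonneg (fun b _ => by
        split_ifs
        · exact le_rfl
        · exact ip_self_nonneg _)).1 h2 b (mem_univ b)
    rw [if_neg hab] at h3
    have h4 := ip_self_eq_zero h3
    have h5 : ∀ x, v x = cond (pk a b) v x := fun x => by
      have := congrFun h4 x
      simp only [Qc, Pi.zero_apply, sub_eq_zero] at this
      exact this
    rw [h5 G, h5 (sw a b c e G)]
    exact cond_congr v (pk_swG a b c e G)
  · rw [sw_of_not_dist hd]

theorem Qp_sub_const (a b : Fin n) (f : Om d → ℝ) (m : ℝ) :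
    Qp a b (fun G => f G - m) = Qp a b f := by
  funext G
  have h : cond (pk a b) (fun G => f G - m) = fun x => cond (pk a b) f x - cond (pk a b) (fun _ => m) x :=
    cond_sub (pk a b) f (fun _ => m)
  have h2 : ∀ x, cond (pk a b) (fun _ : Om d => m) x = m := fun x => cond_eq_of_const fun _ _ => rfl
  simp only [Qp, Qc, h, h2]
  ring

/-- The Poincaré inequality in terms of the switch energies. -/
theorem poincare (f : Om d → ℝ) :
    8 * (∑ G, f G ^ 2 - (∑ G, f G) ^ 2 / (Fintype.card (Om d) : ℝ)) ≤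
      ∑ a, ∑ b, ∑ c, ∑ e, swE a b c e f := by
  set N : ℝ := (Fintype.card (Om d) : ℝ) with hN
  set m : ℝ := (∑ G, f G) / N with hm
  set f₀ : Om d → ℝ := fun G => f G - m with hf₀
  have hsum0 : ∑ G, f₀ G = 0 := by
    by_cases hN0 : N = 0
    · have h00 : (Fintype.card (Om d) : ℝ) = 0 := hN0
      have : IsEmpty (Om d) := Fintype.card_eq_zero_iff.1 (by exact_mod_cast h00)
      simp
    · simp only [hf₀, sum_sub_distrib, sum_const, card_univ, nsmul_eq_mul, hm]
      rw [← hN]
      field_simp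
      ring
  have hip : ip f₀ f₀ = ∑ G, f G ^ 2 - (∑ G, f G) ^ 2 / N := by
    by_cases hN0 : N = 0
    · have h00 : (Fintype.card (Om d) : ℝ) = 0 := hN0
      have : IsEmpty (Om d) := Fintype.card_eq_zero_iff.1 (by exact_mod_cast h00)
      simp [ip]
    · have : ∑ G, f₀ G * f₀ G = ∑ G, (f G ^ 2 - 2 * m * f G + m ^ 2) :=
        sum_congr rfl fun G _ => by simp only [hf₀]; ring
      unfold ip
      rw [this, sum_add_distrib, sum_sub_distrib, ← mul_sum]
      simp only [sum_const, card_univ, nsmul_eq_mul, hm]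
      rw [← hN]
      field_simp
      ring
  -- the gap
  have hgap : 4 * ip f₀ f₀ ≤ ip f₀ (TL f₀) := by
    refine gap_of_bochner TL TL_symm ?_ (by norm_num) ?_ f₀ ?_
    · intro g
      rw [TL_apply, ip_Tsum_self]
      exact sum_Qnorm_nonneg g
    · intro g
      rw [TL_apply, ip_Tsum_self]
      exact bochner g
    · intro v hv
      -- `v` is constant
      by_cases hne : Nonempty (Om d)
      · obtain ⟨G₀⟩ := hne
        have hc : ∀ G, v G = v G₀ := fun G => const_of_TL_eq_zero v hv G G₀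
        unfold ip
        rw [sum_congr rfl fun G _ => by rw [hc G], ← sum_mul, hsum0, zero_mul]
      · have : IsEmpty (Om d) := not_nonempty_iff.1 hne
        simp [ip]
  rw [TL_apply, ip_Tsum_self] at hgap
  -- the Johnson inequality gives the energy
  have hJ : 2 * (∑ a, ∑ b, if a = b then 0 else ip (Qp a b f₀) (Qp a b f₀)) ≤
      ∑ a, ∑ b, ∑ c, ∑ e, swE a b c e f := by
    rw [mul_sum]
    refine sum_le_sum fun a _ => ?_
    rw [mul_sum]
    refine sum_le_sum fun b _ => ?_
    by_cases hab : a = b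
    · subst hab
      have : ∀ c e, ¬ Dist4 a a c e := fun c e h => h.1 rfl
      simp [swE_of_not_dist (this _ _)]
    · rw [if_neg hab]
      have h := J_lemma hab f₀
      have h1 : ∀ c e, swE a b c e f₀ = swE a b c e f := by
        intro c e
        unfold swE
        simp only [hf₀]
        congr 1
        refine sum_congr rfl fun G _ => ?_
        ring
      have h2 : ∑ c, ∑ e, (swE a b c e f₀ - nuT a b c e f₀) ≤ ∑ c, ∑ e, swE a b c e f :=
        sum_le_sum fun c _ => sum_le_sum fun e _ => by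
          rw [h1]
          have := nuT_nonneg a b c e f₀
          linarith
      linarith
  rw [← hip]
  linarith

end Crest.Agent.Lib.SW
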