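import Crest.Agent.Lib.SW.Spectral
import Crest.Agent.Lib.SwitchTriple

/-!
# Abstract triple lemma on labelings (S0453, module E)

`C` = columns with signs `s x = ±1`; a labeling `ℓ : C → Fin 3` with prescribed signed row sums `e i`.
`rowKey i ℓ = ℓ⁻¹(i)`.  Claim: with `P_i = cond (rowKey i)`, `Q_i = 1 - P_i`,
`Σ_{i<j} ⟨Q_i f, Q_j f⟩ ≥ 0`; equivalently `A = Σ P_i` has no eigenvalue in `(2,3)`.

Proof (findings "S0453 COMPLETE PROOF helper2" step 3, simplified):
let `A v = μ v`, `2 < μ < 3`, `g_i = P_i v / μ`, `t = μ - 1 > 1`, so `v = Σ g_i` and `Σ_{j≠i} P_i g_j = t g_i`.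
* Swap step: let `π = swap x y` with `s x = s y`. `ℓ ↦ ℓ ∘ π` is a bijection of labelings.  If `ℓ x = i ≠ ℓ y`,
  `t (g_i(ℓ∘π) - g_i(ℓ)) = Σ_{j≠i} avg_{ℓ' ∈ P_i-class of ℓ} (g_j(ℓ'∘π) - g_j(ℓ'))`, and for such `ℓ'`,
  `ℓ' x = i` and only `j = ℓ' y` contributes.  So `t L ≤ L` with `L = max` of swap-differences; `L = 0`.
* So `g_i` depends only on `m_i = #(ℓ⁻¹(i) ∩ {s = -1})`: `g_i = ĝ_i(m_i)`.
* Given `ℓ⁻¹(i)` with `m_i = x`, the law of `m_j` is `q(r,y) = C(r,y) C(r+c, y+e_j)`, `r = |S₂| - x`, which is TP2 in `(r,y)`;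
  `m_j + m_k = r`.  For `x' < x''` attained: `t |ĝ_i(x') - ĝ_i(x'')| ≤ Lip * (x'' - x')`: for nondecreasing `h`,
  `E[h|r'] - E[h|r''] ≥ 0` (`r' > r''`) by symmetrization, applied to `Lip*m ∓ ĝ`.  So `t Lip ≤ Lip`; `Lip = 0`.
* So all `g_i` are constant, `v` is constant, `μ = 3` or `v = 0`: contradiction.
-/

set_option autoImplicit false

open Finset
open scoped Classical

namespace Crest.Agent.Lib.SW

variable {C : Type*} [Fintype C]

/-- Labelings of the columns `C` by `Fin 3` with signed row sums `e`. -/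
abbrev Lab (s : C → ℤ) (e : Fin 3 → ℤ) :=
  {ℓ : C → Fin 3 // ∀ i, ∑ x ∈ univ.filter (fun x => ℓ x = i), s x = e i}

/-- The row of `i`. -/
noncomputable def rowKey {s : C → ℤ} {e : Fin 3 → ℤ} (i : Fin 3) (ℓ : Lab s e) : Finset C :=
  univ.filter fun x => ℓ.1 x = i

/-- The abstract triple lemma. -/
theorem triple_abstract {s : C → ℤ} {e : Fin 3 → ℤ} (hs : ∀ x, s x = 1 ∨ s x = -1)
    (f : Lab s e → ℝ) :
    0 ≤ ip (Qc (rowKey 0) f) (Qc (rowKey 1) f) + ip (Qc (rowKey 0) f) (Qc (rowKey 2) f) +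
      ip (Qc (rowKey 1) f) (Qc (rowKey 2) f) := by
  classical
  let typ : C → Bool := fun x => decide (s x = 1)
  have hcnt : ∀ (ℓ : C → Fin 3) (i : Fin 3),
      (SwitchTriple.cnt typ ℓ i true : ℤ) - SwitchTriple.cnt typ ℓ i false
        = ∑ x ∈ univ.filter (fun x => ℓ x = i), s x := by
    intro ℓ i
    have h1 : ∑ x ∈ univ.filter (fun x => ℓ x = i), s x
        = ∑ x ∈ univ.filter (fun x => ℓ x = i), ((if typ x = true then 1 else 0) - (if typ x = false then 1 else 0) : ℤ) := by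
      apply Finset.sum_congr rfl
      intro x _
      rcases hs x with h | h <;> simp [typ, h]
    rw [h1, Finset.sum_sub_distrib]
    simp only [SwitchTriple.cnt, Finset.card_filter, Finset.sum_filter]
    push_cast
    congr 1
    · apply Finset.sum_congr rfl
      intro x _
      by_cases h2 : ℓ x = i <;> by_cases h3 : typ x = true <;> simp [h2, h3]
    · apply Finset.sum_congr rfl
      intro x _
      by_cases h2 : ℓ x = i <;> by_cases h3 : typ x = false <;> simp [h2, h3]
  have hmem : ∀ ℓ : C → Fin 3, ℓ ∈ SwitchTriple.Lab typ e ↔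
      ∀ i, ∑ x ∈ univ.filter (fun x => ℓ x = i), s x = e i := by
    intro ℓ
    rw [SwitchTriple.mem_Lab]
    simp only [hcnt]
  let F : (C → Fin 3) → ℝ := fun ℓ =>
    if h : ∀ i, ∑ x ∈ univ.filter (fun x => ℓ x = i), s x = e i then f ⟨ℓ, h⟩ else 0
  have hF : ∀ x : Lab s e, F x.1 = f x := by
    intro x
    simp only [F]
    rw [dif_pos x.2]
  have hP : ∀ (i : Fin 3) (x : Lab s e), SwitchTriple.P typ e i F x.1 = cond (rowKey i) f x := by
    intro i x
    simp only [SwitchTriple.P, SwitchTriple.avg, cond]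
    have hkey : ∀ y : Lab s e, rowKey i y = rowKey i x ↔ SwitchTriple.key i y.1 = SwitchTriple.key i x.1 := by
      intro y
      constructor
      · intro h
        ext z
        have := Finset.ext_iff.1 h z
        simpa [rowKey, SwitchTriple.key] using this
      · intro h
        ext z
        have := Finset.ext_iff.1 h z
        simpa [rowKey, SwitchTriple.key] using this
    have hsum : ∑ y ∈ SwitchTriple.cls (SwitchTriple.Lab typ e) (SwitchTriple.key i) x.1, F y
        = ∑ y ∈ fib (rowKey i) x, f y := by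
      symm
      refine Finset.sum_bij (fun y _ => y.1) ?_ ?_ ?_ ?_
      · intro y hy
        rw [SwitchTriple.mem_cls]
        exact ⟨(hmem y.1).2 y.2, (hkey y).1 (mem_fib.1 hy)⟩
      · intro y _ y' _ h
        exact Subtype.ext h
      · intro y hy
        rw [SwitchTriple.mem_cls] at hy
        refine ⟨⟨y, (hmem y).1 hy.1⟩, ?_, rfl⟩
        rw [mem_fib]
        exact (hkey _).2 hy.2
      · intro y _
        exact (hF y).symm
    have hcard : (SwitchTriple.cls (SwitchTriple.Lab typ e) (SwitchTriple.key i) x.1).card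
        = (fib (rowKey i) x).card := by
      symm
      refine Finset.card_bij (fun y _ => y.1) ?_ ?_ ?_
      · intro y hy
        rw [SwitchTriple.mem_cls]
        exact ⟨(hmem y.1).2 y.2, (hkey y).1 (mem_fib.1 hy)⟩
      · intro y _ y' _ h
        exact Subtype.ext h
      · intro y hy
        rw [SwitchTriple.mem_cls] at hy
        refine ⟨⟨y, (hmem y).1 hy.1⟩, ?_, rfl⟩
        rw [mem_fib]
        exact (hkey _).2 hy.2
    rw [hsum, hcard]
  have main := SwitchTriple.triple_lemma typ e F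
  have hsum : ∀ g : (C → Fin 3) → ℝ, ∑ ℓ ∈ SwitchTriple.Lab typ e, g ℓ = ∑ x : Lab s e, g x.1 := by
    intro g
    exact Finset.sum_subtype _ hmem g
  have hA : ∀ i j : Fin 3, ∑ ℓ ∈ SwitchTriple.Lab typ e,
      (F ℓ - SwitchTriple.P typ e i F ℓ) * (F ℓ - SwitchTriple.P typ e j F ℓ)
        = ip (Qc (rowKey i) f) (Qc (rowKey j) f) := by
    intro i j
    rw [hsum]
    simp only [ip, Qc, hP, hF]
  simp only [hA] at main
  have hcomm : ∀ i j : Fin 3, ip (Qc (rowKey (s := s) (e := e) i) f) (Qc (rowKey j) f)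
      = ip (Qc (rowKey j) f) (Qc (rowKey i) f) := fun i j => ip_comm _ _
  have he : ∀ (A : Fin 3 → Fin 3 → ℝ), ∑ i, ∑ j ∈ univ.erase i, A i j
      = A 0 1 + A 0 2 + A 1 0 + A 1 2 + A 2 0 + A 2 1 := by
    intro A
    have e0 : (univ.erase (0 : Fin 3)) = {1, 2} := by decide
    have e1 : (univ.erase (1 : Fin 3)) = {0, 2} := by decide
    have e2 : (univ.erase (2 : Fin 3)) = {0, 1} := by decide
    rw [Fin.sum_univ_three, e0, e1, e2]
    rw [Finset.sum_pair (by decide), Finset.sum_pair (by decide), Finset.sum_pair (by decide)]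
    ring
  rw [he] at main
  rw [hcomm 1 0, hcomm 2 0, hcomm 2 1] at main
  linarith

end Crest.Agent.Lib.SW
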