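import Crest.Agent.Lib.SW.Graph
import Crest.Agent.Lib.SW.Triple

/-!
# Triple fibers are labelings (S0453, module F), and the lemma T ≥ 0

Math: findings "S0453 COMPLETE PROOF helper2", step 3.  Fix `R = {a,b,c}`.  Column `z ∉ R` with
`σ_z = x_az + x_bz + x_cz`: `σ = 0, 3` frozen; `σ = 1`: sign `+1`, label = adjacent row; `σ = 2`: sign `-1`, label = the
nonadjacent row.  `τ` = number of inner edges (constant on the class): `τ = 1`: one extra column of sign `-1`, label = vertex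
opposite the edge; `τ = 2`: one extra column of sign `+1`, label = vertex opposite the missing edge; `τ = 0, 3` no column.
-/

set_option autoImplicit false

open Finset
open scoped Classical
open Crest.SwitchChain

namespace Crest.Agent.Lib.SW

variable {n : ℕ} {d : Fin n → ℕ}

/-- All pairs touching `a`, `b` or `c`. -/
def Xtriple (a b c : Fin n) (u v : Fin n) : Prop :=
  u = a ∨ u = b ∨ u = c ∨ v = a ∨ v = b ∨ v = c

/-- The class of `G₀` for the triple `{a,b,c}`. -/
abbrev TClass (a b c : Fin n) (G₀ : Om d) :=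
  {G : Om d // frz (Xtriple a b c) G.1 = frz (Xtriple a b c) G₀.1}

namespace TF

variable (r : Fin 3 → Fin n)

/-- Outer vertices. -/
abbrev Out := {z : Fin n // ∀ i, z ≠ r i}

/-- Columns: the outer vertices and one inner column (`none`). -/
abbrev Col := Option (Out r)

/-- The bit of a column in row `i`: adjacency to the outer vertex, and, for the inner column,
the absence of the edge opposite to `r i`. -/
def bit (E : Finset (Edge n)) (i : Fin 3) : Col r → Prop
  | none => ¬ adj E (r (i + 1)) (r (i + 2))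
  | some z => adj E (r i) z.1

/-- Indicator. -/
noncomputable def ind (P : Prop) : ℤ := if P then 1 else 0

lemma ind_congr {P Q : Prop} (h : P ↔ Q) : ind P = ind Q := by simp [ind, h]

lemma ind_not (P : Prop) : ind (¬ P) = 1 - ind P := by by_cases h : P <;> simp [ind, h]

lemma ind_of {P : Prop} (h : P) : ind P = 1 := by simp [ind, h]

lemma ind_of_not {P : Prop} (h : ¬ P) : ind P = 0 := by simp [ind, h]

/-- Column sum. -/
noncomputable def sig (E : Finset (Edge n)) (x : Col r) : ℕ :=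
  (univ.filter fun i => bit r E i x).card

lemma card_filter_eq_sum_ind {α : Type*} [Fintype α] (p : α → Prop) :
    (((univ.filter p).card : ℕ) : ℤ) = ∑ i, ind (p i) := by
  rw [Finset.natCast_card_filter]
  rfl

lemma sig_cast (E : Finset (Edge n)) (x : Col r) : (sig r E x : ℤ) = ∑ i, ind (bit r E i x) :=
  card_filter_eq_sum_ind _

variable {r}

lemma sum_split (hr : Function.Injective r) (g : Fin n → ℤ) :
    ∑ u, g u = ∑ z : Out r, g z.1 + ∑ i, g (r i) := by
  have h1 := Finset.sum_filter_add_sum_filter_not (univ : Finset (Fin n)) (fun z => ∀ i, z ≠ r i) g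
  rw [← h1]
  congr 1
  · exact Finset.sum_subtype _ (by simp) g
  · have : univ.filter (fun z => ¬ ∀ i, z ≠ r i) = univ.image r := by
      ext u
      simp only [mem_filter, mem_univ, true_and, not_forall, not_not, mem_image]
      constructor
      · rintro ⟨i, rfl⟩
        exact ⟨i, rfl⟩
      · rintro ⟨i, rfl⟩
        exact ⟨i, rfl⟩
    rw [this, Finset.sum_image (fun x _ y _ h => hr h)]

lemma deg_cast (E : Finset (Edge n)) (v : Fin n) : (deg E v : ℤ) = ∑ u, ind (adj E v u) := by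
  rw [deg_eq_card_adj]
  exact card_filter_eq_sum_ind _

/-- Degree of an outer vertex. -/
lemma deg_out (hr : Function.Injective r) (E : Finset (Edge n)) (z : Out r) :
    (deg E z.1 : ℤ) = ∑ w : Out r, ind (adj E z.1 w.1) + sig r E (some z) := by
  rw [deg_cast, sum_split hr, sig_cast]
  congr 1
  apply Finset.sum_congr rfl
  intro i _
  exact ind_congr (adj_comm _ _ _)

lemma sum_col (F : Col r → ℤ) : ∑ x, F x = F none + ∑ z : Out r, F (some z) := by
  rw [Fintype.sum_option]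

/-- Degree of a row vertex. -/
lemma deg_row (hr : Function.Injective r) (E : Finset (Edge n)) (i : Fin 3) :
    (deg E (r i) : ℤ) = ∑ x : Col r, ind (bit r E i x) + 2 - sig r E none := by
  rw [deg_cast, sum_split hr, sig_cast, sum_col]
  have h01 : ind (adj E (r 1) (r 0)) = ind (adj E (r 0) (r 1)) := ind_congr (adj_comm _ _ _)
  have h02 : ind (adj E (r 2) (r 0)) = ind (adj E (r 0) (r 2)) := ind_congr (adj_comm _ _ _)
  have h12 : ind (adj E (r 2) (r 1)) = ind (adj E (r 1) (r 2)) := ind_congr (adj_comm _ _ _)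
  have h00 : ind (adj E (r 0) (r 0)) = 0 := ind_of_not (not_adj_self _ _)
  have h11 : ind (adj E (r 1) (r 1)) = 0 := ind_of_not (not_adj_self _ _)
  have h22 : ind (adj E (r 2) (r 2)) = 0 := ind_of_not (not_adj_self _ _)
  have e1 : ∑ x : Fin 3, ind (bit r E x none)
      = (1 - ind (adj E (r 1) (r 2))) + (1 - ind (adj E (r 0) (r 2))) + (1 - ind (adj E (r 0) (r 1))) := by
    rw [Fin.sum_univ_three]
    have a0 : bit r E 0 none = ¬ adj E (r 1) (r 2) := rfl
    have a1 : bit r E 1 none = ¬ adj E (r 2) (r 0) := rfl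
    have a2 : bit r E 2 none = ¬ adj E (r 0) (r 1) := rfl
    rw [a0, a1, a2, ind_not, ind_not, ind_not, h02]
  rw [e1, Fin.sum_univ_three]
  have b0 : bit r E 0 none = ¬ adj E (r 1) (r 2) := rfl
  have b1 : bit r E 1 none = ¬ adj E (r 2) (r 0) := rfl
  have b2 : bit r E 2 none = ¬ adj E (r 0) (r 1) := rfl
  have hs : ∀ i (z : Out r), bit r E i (some z) = adj E (r i) z.1 := fun _ _ => rfl
  simp only [hs]
  fin_cases i
  · simp only [Fin.zero_eta]
    rw [b0, ind_not, h00]
    ring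
  · simp only [Fin.mk_one]
    rw [b1, ind_not, h11, h01, h02]
    ring
  · simp only [Fin.reduceFinMk]
    rw [b2, ind_not, h22, h02, h12]
    ring

lemma sig_le (E : Finset (Edge n)) (x : Col r) : sig r E x ≤ 3 := by
  have := Finset.card_le_univ (univ.filter fun i => bit r E i x)
  simpa [sig] using this

/-- Total sum over rows. -/
lemma sum_deg_row (hr : Function.Injective r) (E : Finset (Edge n)) :
    ∑ i, (deg E (r i) : ℤ) = ∑ z : Out r, (sig r E (some z) : ℤ) + 6 - 2 * sig r E none := by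
  simp only [deg_row hr]
  rw [Finset.sum_sub_distrib, Finset.sum_add_distrib, Finset.sum_comm]
  simp only [← sig_cast, sum_col]
  simp only [sum_const, card_univ, Fintype.card_fin, nsmul_eq_mul]
  push_cast
  ring

/-- Column sums are constant on a class. -/
lemma sig_eq (hr : Function.Injective r) {G G₀ : Finset (Edge n)} (hG : G ∈ realizations d)
    (hG₀ : G₀ ∈ realizations d) (hfr : ∀ w z : Out r, adj G w.1 z.1 ↔ adj G₀ w.1 z.1)
    (x : Col r) : sig r G x = sig r G₀ x := by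
  have hout : ∀ z : Out r, (sig r G (some z) : ℤ) = sig r G₀ (some z) := by
    intro z
    have h1 := deg_out hr G z
    have h2 := deg_out hr G₀ z
    rw [(mem_realizations.1 hG) z.1] at h1
    rw [(mem_realizations.1 hG₀) z.1] at h2
    have h3 : ∑ w : Out r, ind (adj G z.1 w.1) = ∑ w : Out r, ind (adj G₀ z.1 w.1) :=
      Finset.sum_congr rfl fun w _ => ind_congr (hfr z w)
    linarith
  cases x with
  | some z => exact_mod_cast hout z
  | none =>
    have h1 := sum_deg_row hr G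
    have h2 := sum_deg_row hr G₀
    have h3 : ∑ i, (deg G (r i) : ℤ) = ∑ i, (deg G₀ (r i) : ℤ) := by
      apply Finset.sum_congr rfl
      intro i _
      rw [(mem_realizations.1 hG) (r i), (mem_realizations.1 hG₀) (r i)]
    have h4 : ∑ z : Out r, (sig r G (some z) : ℤ) = ∑ z : Out r, (sig r G₀ (some z) : ℤ) :=
      Finset.sum_congr rfl fun z _ => hout z
    have : (sig r G none : ℤ) = sig r G₀ none := by linarith
    exact_mod_cast this

/-- Two graphs with the same outer adjacency and same bits agree. -/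
lemma ext_bits (hr : Function.Injective r) {E F : Finset (Edge n)}
    (hfr : ∀ w z : Out r, adj E w.1 z.1 ↔ adj F w.1 z.1)
    (hbit : ∀ i x, bit r E i x ↔ bit r F i x) : E = F := by
  have hrow : ∀ (i : Fin 3) (v : Fin n), (∀ j, v ≠ r j) → (adj E (r i) v ↔ adj F (r i) v) := by
    intro i v hv
    exact hbit i (some ⟨v, hv⟩)
  have hin : ∀ i, adj E (r (i + 1)) (r (i + 2)) ↔ adj F (r (i + 1)) (r (i + 2)) := by
    intro i
    have := hbit i none
    exact not_iff_not.1 this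
  have hpair : ∀ j k, adj E (r j) (r k) ↔ adj F (r j) (r k) := by
    intro j k
    by_cases hjk : j = k
    · subst hjk
      simp [not_adj_self]
    · obtain ⟨i, h⟩ : ∃ i : Fin 3, (j = i + 1 ∧ k = i + 2) ∨ (j = i + 2 ∧ k = i + 1) := by
        revert j k
        decide
      rcases h with ⟨rfl, rfl⟩ | ⟨rfl, rfl⟩
      · exact hin i
      · rw [adj_comm E, adj_comm F]
        exact hin i
  apply ext_adj
  intro u v
  by_cases hu : ∀ i, u ≠ r i
  · by_cases hv : ∀ i, v ≠ r i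
    · exact hfr ⟨u, hu⟩ ⟨v, hv⟩
    · push Not at hv
      obtain ⟨i, rfl⟩ := hv
      rw [adj_comm E, adj_comm F]
      exact hrow i u hu
  · push Not at hu
    obtain ⟨i, rfl⟩ := hu
    by_cases hv : ∀ i, v ≠ r i
    · exact hrow i v hv
    · push Not at hv
      obtain ⟨j, rfl⟩ := hv
      exact hpair i j

lemma fin3_f1 : ∀ i j : Fin 3, j ≠ i → j = i + 1 ∨ j = i + 2 := by decide

lemma fin3_f2 : ∀ i j k : Fin 3, j ≠ k →
    (j = i + 1 ∧ k = i + 2) ∨ (j = i + 2 ∧ k = i + 1) ∨ (j = i ∨ k = i) := by decide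

lemma fin3_f3 : ∀ i j k : Fin 3, j ≠ k → (j = i ∨ k = i) →
    (j = i + 1 ∨ j = i + 2 ∨ k = i + 1 ∨ k = i + 2) ∧
      ¬ ((j = i + 1 ∧ k = i + 2) ∨ (j = i + 2 ∧ k = i + 1)) := by decide

/-- Keys of pairs in terms of bits. -/
lemma frz_pair_iff (hr : Function.Injective r) {E F : Finset (Edge n)}
    (hfr : ∀ w z : Out r, adj E w.1 z.1 ↔ adj F w.1 z.1) (i : Fin 3) :
    frz (Xpair (r (i + 1)) (r (i + 2))) E = frz (Xpair (r (i + 1)) (r (i + 2))) F ↔
      ∀ x, bit r E i x ↔ bit r F i x := by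
  have h12 : ∀ (i : Fin 3), i ≠ i + 1 ∧ i ≠ i + 2 ∧ i + 1 ≠ i + 2 := by decide
  rw [frz_eq_iff]
  constructor
  · intro h x
    cases x with
    | none =>
      refine not_congr (h _ _ ?_)
      simp [Xpair]
    | some z =>
      refine h _ _ ?_
      simp only [Xpair, not_and, not_or]
      intro h3
      exfalso
      have hz1 := z.2 (i + 1)
      have hz2 := z.2 (i + 2)
      have hi1 : r i ≠ r (i + 1) := fun e => (h12 i).1 (hr e)
      have hi2 : r i ≠ r (i + 2) := fun e => (h12 i).2.1 (hr e)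
      rcases h3 with h3 | h3 | h3 | h3
      · exact hi1 h3
      · exact hi2 h3
      · exact hz1 h3
      · exact hz2 h3
  · intro h u v huv
    have h3 := h12 i
    by_cases hu : ∀ j, u ≠ r j
    · by_cases hv : ∀ j, v ≠ r j
      · exact hfr ⟨u, hu⟩ ⟨v, hv⟩
      · push Not at hv
        obtain ⟨j, rfl⟩ := hv
        have hj : j = i := by
          by_contra hji
          apply huv
          have : j = i + 1 ∨ j = i + 2 := fin3_f1 i j hji
          refine ⟨?_, ?_⟩
          · rcases this with rfl | rfl <;> simp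
          · rintro (⟨rfl, h5⟩ | ⟨rfl, h5⟩)
            · exact hu _ rfl
            · exact hu _ rfl
        subst hj
        rw [adj_comm E, adj_comm F]
        exact h (some ⟨u, hu⟩)
    · push Not at hu
      obtain ⟨j, rfl⟩ := hu
      by_cases hv : ∀ k, v ≠ r k
      · have hj : j = i := by
          by_contra hji
          apply huv
          have : j = i + 1 ∨ j = i + 2 := fin3_f1 i j hji
          refine ⟨?_, ?_⟩
          · rcases this with rfl | rfl <;> simp
          · rintro (⟨_, rfl⟩ | ⟨_, rfl⟩)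
            · exact hv _ rfl
            · exact hv _ rfl
        subst hj
        exact h (some ⟨v, hv⟩)
      · push Not at hv
        obtain ⟨k, rfl⟩ := hv
        by_cases hjk : j = k
        · subst hjk
          simp [not_adj_self]
        · have hcases : (j = i + 1 ∧ k = i + 2) ∨ (j = i + 2 ∧ k = i + 1) ∨ (j = i ∨ k = i) :=
            fin3_f2 i j k hjk
          rcases hcases with ⟨rfl, rfl⟩ | ⟨rfl, rfl⟩ | h5
          · exact not_iff_not.1 (h none)
          · rw [adj_comm E, adj_comm F]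
            exact not_iff_not.1 (h none)
          · -- a pair through `r i` and another row is free
            exfalso
            apply huv
            obtain ⟨h6, h7⟩ := fin3_f3 i j k hjk h5
            refine ⟨?_, ?_⟩
            · rcases h6 with rfl | rfl | rfl | rfl <;> simp
            · rintro (⟨h8, h9⟩ | ⟨h8, h9⟩)
              · exact h7 (Or.inl ⟨hr h8, hr h9⟩)
              · exact h7 (Or.inr ⟨hr h8, hr h9⟩)

end TF

namespace TF

variable {r : Fin 3 → Fin n}

/-- Adjacency relation built from bits. -/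
def rel (G₀ : Finset (Edge n)) (B : Fin 3 → Col r → Prop) (u v : Fin n) : Prop :=
  (∃ w z : Out r, u = w.1 ∧ v = z.1 ∧ adj G₀ w.1 z.1) ∨
  (∃ (i : Fin 3) (z : Out r), u = r i ∧ v = z.1 ∧ B i (some z)) ∨
  (∃ (i : Fin 3) (z : Out r), v = r i ∧ u = z.1 ∧ B i (some z)) ∨
  (∃ i : Fin 3, ¬ B i none ∧ ((u = r (i + 1) ∧ v = r (i + 2)) ∨ (u = r (i + 2) ∧ v = r (i + 1))))

lemma rel_symm (G₀ : Finset (Edge n)) (B : Fin 3 → Col r → Prop) (u v : Fin n)
    (h : rel G₀ B u v) : rel G₀ B v u := by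
  rcases h with ⟨w, z, rfl, rfl, h⟩ | ⟨i, z, h1, h2, h⟩ | ⟨i, z, h1, h2, h⟩ | ⟨i, h, h1⟩
  · exact Or.inl ⟨z, w, rfl, rfl, (adj_comm _ _ _).1 h⟩
  · exact Or.inr (Or.inr (Or.inl ⟨i, z, h1, h2, h⟩))
  · exact Or.inr (Or.inl ⟨i, z, h1, h2, h⟩)
  · refine Or.inr (Or.inr (Or.inr ⟨i, h, ?_⟩))
    rcases h1 with ⟨h1, h2⟩ | ⟨h1, h2⟩
    · exact Or.inr ⟨h2, h1⟩
    · exact Or.inl ⟨h2, h1⟩

/-- The graph with the outer part of `G₀` and the bits `B`. -/
noncomputable def ofBits (G₀ : Finset (Edge n)) (B : Fin 3 → Col r → Prop) : Finset (Edge n) :=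
  ofAdj (rel G₀ B)

lemma adj_ofBits (G₀ : Finset (Edge n)) (B : Fin 3 → Col r → Prop) (u v : Fin n) :
    adj (ofBits G₀ B) u v ↔ u ≠ v ∧ rel G₀ B u v :=
  adj_ofAdj (rel_symm G₀ B) u v

lemma ofBits_out (G₀ : Finset (Edge n)) (B : Fin 3 → Col r → Prop) (w z : Out r) :
    adj (ofBits G₀ B) w.1 z.1 ↔ adj G₀ w.1 z.1 := by
  rw [adj_ofBits]
  constructor
  · rintro ⟨_, h⟩
    rcases h with ⟨w', z', h1, h2, h⟩ | ⟨i, z', h1, h2, h⟩ | ⟨i, z', h1, h2, h⟩ | ⟨i, h, h1⟩
    · rw [h1, h2]; exact h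
    · exact absurd h1 (w.2 i)
    · exact absurd h1 (z.2 i)
    · rcases h1 with ⟨h1, _⟩ | ⟨h1, _⟩
      · exact absurd h1 (w.2 _)
      · exact absurd h1 (w.2 _)
  · intro h
    exact ⟨ne_of_adj h, Or.inl ⟨w, z, rfl, rfl, h⟩⟩

lemma ofBits_row (hr : Function.Injective r) (G₀ : Finset (Edge n)) (B : Fin 3 → Col r → Prop)
    (i : Fin 3) (z : Out r) : adj (ofBits G₀ B) (r i) z.1 ↔ B i (some z) := by
  rw [adj_ofBits]
  constructor
  · rintro ⟨_, h⟩
    rcases h with ⟨w', z', h1, h2, h⟩ | ⟨j, z', h1, h2, h⟩ | ⟨j, z', h1, h2, h⟩ | ⟨j, h, h1⟩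
    · exact absurd h1.symm (w'.2 i)
    · have e1 : i = j := hr h1
      have e2 : z = z' := Subtype.ext h2
      rw [e1, e2]
      exact h
    · exact absurd h1 (z.2 j)
    · rcases h1 with ⟨_, h1⟩ | ⟨_, h1⟩
      · exact absurd h1 (z.2 _)
      · exact absurd h1 (z.2 _)
  · intro h
    exact ⟨fun e => z.2 i e.symm, Or.inr (Or.inl ⟨i, z, rfl, rfl, h⟩)⟩

lemma fin3_f4 : ∀ i j : Fin 3, ¬ (i + 1 = j + 2 ∧ i + 2 = j + 1) := by decide

lemma fin3_f5 : ∀ i j : Fin 3, i + 1 = j + 1 → i = j := by decide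

lemma fin3_f6 : ∀ i : Fin 3, i + 1 ≠ i + 2 := by decide

lemma ofBits_in (hr : Function.Injective r) (G₀ : Finset (Edge n)) (B : Fin 3 → Col r → Prop)
    (i : Fin 3) : adj (ofBits G₀ B) (r (i + 1)) (r (i + 2)) ↔ ¬ B i none := by
  rw [adj_ofBits]
  constructor
  · rintro ⟨_, h⟩
    rcases h with ⟨w', z', h1, h2, h⟩ | ⟨j, z', h1, h2, h⟩ | ⟨j, z', h1, h2, h⟩ | ⟨j, h, h1⟩
    · exact absurd h1.symm (w'.2 _)
    · exact absurd h2.symm (z'.2 _)
    · exact absurd h2.symm (z'.2 _)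
    · rcases h1 with ⟨h1, h2⟩ | ⟨h1, h2⟩
      · rw [fin3_f5 _ _ (hr h1)]
        exact h
      · exact absurd ⟨hr h1, hr h2⟩ (fin3_f4 i j)
  · intro h
    exact ⟨fun e => fin3_f6 i (hr e), Or.inr (Or.inr (Or.inr ⟨i, h, Or.inl ⟨rfl, rfl⟩⟩))⟩

lemma bit_ofBits (hr : Function.Injective r) (G₀ : Finset (Edge n)) (B : Fin 3 → Col r → Prop)
    (i : Fin 3) (x : Col r) : bit r (ofBits G₀ B) i x ↔ B i x := by
  cases x with
  | none =>
    show ¬ adj (ofBits G₀ B) (r (i + 1)) (r (i + 2)) ↔ B i none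
    rw [ofBits_in hr, not_not]
  | some z => exact ofBits_row hr G₀ B i z

lemma sig_ofBits (hr : Function.Injective r) (G₀ : Finset (Edge n)) (B : Fin 3 → Col r → Prop)
    (x : Col r) : sig r (ofBits G₀ B) x = (univ.filter fun i => B i x).card := by
  unfold sig
  congr 1
  ext i
  simp [bit_ofBits hr]

lemma ofBits_mem (hr : Function.Injective r) {G₀ : Finset (Edge n)} (hG₀ : G₀ ∈ realizations d)
    (B : Fin 3 → Col r → Prop)
    (hcol : ∀ x, (univ.filter fun i => B i x).card = sig r G₀ x)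
    (hrow : ∀ i, ∑ x, ind (B i x) = (d (r i) : ℤ) - 2 + sig r G₀ none) :
    ofBits G₀ B ∈ realizations d := by
  rw [mem_realizations]
  intro v
  by_cases hv : ∀ i, v ≠ r i
  · let z : Out r := ⟨v, hv⟩
    have h1 := deg_out hr (ofBits G₀ B) z
    have h2 := deg_out hr G₀ z
    rw [(mem_realizations.1 hG₀) z.1] at h2
    rw [sig_ofBits hr, hcol] at h1
    have h3 : ∑ w : Out r, ind (adj (ofBits G₀ B) z.1 w.1) = ∑ w : Out r, ind (adj G₀ z.1 w.1) :=
      Finset.sum_congr rfl fun w _ => ind_congr (ofBits_out G₀ B z w)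
    have h4 : (deg (ofBits G₀ B) v : ℤ) = d v := by
      show (deg (ofBits G₀ B) z.1 : ℤ) = d z.1
      linarith
    exact_mod_cast h4
  · push Not at hv
    obtain ⟨i, rfl⟩ := hv
    have h1 := deg_row hr (ofBits G₀ B) i
    have h3 : ∑ x : Col r, ind (bit r (ofBits G₀ B) i x) = ∑ x : Col r, ind (B i x) :=
      Finset.sum_congr rfl fun x _ => ind_congr (bit_ofBits hr G₀ B i x)
    rw [h3, hrow, sig_ofBits hr, hcol] at h1
    have h4 : (deg (ofBits G₀ B) (r i) : ℤ) = d (r i) := by linarith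
    exact_mod_cast h4

/-- The active columns. -/
abbrev Act (G₀ : Finset (Edge n)) := {x : Col r // sig r G₀ x = 1 ∨ sig r G₀ x = 2}

/-- The sign of an active column. -/
noncomputable def sgn (G₀ : Finset (Edge n)) (y : Act (r := r) G₀) : ℤ :=
  if sig r G₀ y.1 = 1 then 1 else -1

lemma sgn_cases (G₀ : Finset (Edge n)) (y : Act (r := r) G₀) : sgn G₀ y = 1 ∨ sgn G₀ y = -1 := by
  unfold sgn
  split_ifs
  · exact Or.inl rfl
  · exact Or.inr rfl

/-- The row sums of the labelings. -/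
noncomputable def eR (r : Fin 3 → Fin n) (d : Fin n → ℕ) (G₀ : Finset (Edge n)) (i : Fin 3) : ℤ :=
  (d (r i) : ℤ) - 2 + sig r G₀ none - ∑ x : Col r, ind (2 ≤ sig r G₀ x)

/-- The bits given by a labeling. -/
noncomputable def newbit (G₀ : Finset (Edge n)) (ℓ : Act (r := r) G₀ → Fin 3) (i : Fin 3) (x : Col r) : Prop :=
  if h : sig r G₀ x = 1 ∨ sig r G₀ x = 2 then
    (if sig r G₀ x = 1 then ℓ ⟨x, h⟩ = i else ℓ ⟨x, h⟩ ≠ i)
  else bit r G₀ i x

lemma bit_of_sig_zero {E : Finset (Edge n)} {x : Col r} (h : sig r E x = 0) (i : Fin 3) :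
    ¬ bit r E i x := by
  unfold sig at h
  rw [Finset.card_eq_zero, Finset.filter_eq_empty_iff] at h
  exact h (mem_univ i)

lemma bit_of_sig_three {E : Finset (Edge n)} {x : Col r} (h : sig r E x = 3) (i : Fin 3) :
    bit r E i x := by
  unfold sig at h
  have h2 : (univ.filter fun i => bit r E i x) = univ := by
    apply Finset.eq_univ_of_card
    simpa using h
  have := Finset.mem_univ i
  rw [← h2] at this
  exact (Finset.mem_filter.1 this).2

lemma sig_inactive {E : Finset (Edge n)} {x : Col r} (h : ¬ (sig r E x = 1 ∨ sig r E x = 2)) :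
    sig r E x = 0 ∨ sig r E x = 3 := by
  have := sig_le E x
  omega

lemma ind_newbit (G₀ : Finset (Edge n)) (ℓ : Act (r := r) G₀ → Fin 3) (i : Fin 3) (x : Col r) :
    ind (newbit G₀ ℓ i x) = ind (2 ≤ sig r G₀ x) +
      (if h : sig r G₀ x = 1 ∨ sig r G₀ x = 2 then sgn G₀ ⟨x, h⟩ * ind (ℓ ⟨x, h⟩ = i) else 0) := by
  by_cases h : sig r G₀ x = 1 ∨ sig r G₀ x = 2
  · rw [dif_pos h]
    have e : newbit G₀ ℓ i x = (if sig r G₀ x = 1 then ℓ ⟨x, h⟩ = i else ℓ ⟨x, h⟩ ≠ i) := by
      simp only [newbit, dif_pos h]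
    rw [e]
    by_cases h1 : sig r G₀ x = 1
    · have hs : sgn G₀ ⟨x, h⟩ = 1 := by simp [sgn, h1]
      rw [if_pos h1, hs, ind_of_not (by omega : ¬ 2 ≤ sig r G₀ x)]
      ring
    · have h2 : sig r G₀ x = 2 := by tauto
      have hs : sgn G₀ ⟨x, h⟩ = -1 := by simp [sgn, h1]
      rw [if_neg h1, hs, ne_eq, ind_not, ind_of (by omega : 2 ≤ sig r G₀ x)]
      ring
  · rw [dif_neg h, add_zero]
    have e : newbit G₀ ℓ i x = bit r G₀ i x := by
      simp only [newbit, dif_neg h]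
    rw [e]
    rcases sig_inactive h with h0 | h3
    · rw [ind_of_not (bit_of_sig_zero h0 i), ind_of_not (by omega)]
    · rw [ind_of (bit_of_sig_three h3 i), ind_of (by omega)]

lemma sum_newbit (G₀ : Finset (Edge n)) (ℓ : Act (r := r) G₀ → Fin 3) (i : Fin 3) :
    ∑ x, ind (newbit G₀ ℓ i x) = ∑ x : Col r, ind (2 ≤ sig r G₀ x) +
      ∑ y ∈ univ.filter (fun y => ℓ y = i), sgn G₀ y := by
  simp only [ind_newbit, Finset.sum_add_distrib]
  congr 1
  rw [Finset.sum_filter]
  let F : Col r → ℤ := fun x =>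
    if h : sig r G₀ x = 1 ∨ sig r G₀ x = 2 then sgn G₀ ⟨x, h⟩ * ind (ℓ ⟨x, h⟩ = i) else 0
  have h1 : ∑ x, F x = ∑ x ∈ univ.filter (fun x => sig r G₀ x = 1 ∨ sig r G₀ x = 2), F x := by
    rw [Finset.sum_filter]
    apply Finset.sum_congr rfl
    intro x _
    by_cases h : sig r G₀ x = 1 ∨ sig r G₀ x = 2
    · rw [if_pos h]
    · rw [if_neg h]
      simp only [F, dif_neg h]
  have h2 : ∑ x ∈ univ.filter (fun x => sig r G₀ x = 1 ∨ sig r G₀ x = 2), F x
      = ∑ y : Act (r := r) G₀, F y.1 := Finset.sum_subtype _ (by simp) F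
  show ∑ x, F x = _
  rw [h1, h2]
  apply Finset.sum_congr rfl
  intro y _
  have hy := y.2
  simp only [F, dif_pos hy]
  by_cases h3 : ℓ y = i
  · rw [if_pos h3, ind_of h3, mul_one]
  · rw [if_neg h3, ind_of_not h3, mul_zero]

lemma fin3_ind_eq (v : Fin 3) : ∑ i : Fin 3, ind (v = i) = 1 := by
  rw [Fin.sum_univ_three]
  fin_cases v <;> simp [ind]

lemma fin3_ind_ne (v : Fin 3) : ∑ i : Fin 3, ind (v ≠ i) = 2 := by
  rw [Fin.sum_univ_three]
  fin_cases v <;> simp [ind]

lemma newbit_col (G₀ : Finset (Edge n)) (ℓ : Act (r := r) G₀ → Fin 3) (x : Col r) :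
    (univ.filter fun i => newbit G₀ ℓ i x).card = sig r G₀ x := by
  have key : ((univ.filter fun i => newbit G₀ ℓ i x).card : ℤ) = sig r G₀ x := by
    rw [card_filter_eq_sum_ind]
    by_cases h : sig r G₀ x = 1 ∨ sig r G₀ x = 2
    · by_cases h1 : sig r G₀ x = 1
      · have e : ∀ i, newbit G₀ ℓ i x = (ℓ ⟨x, h⟩ = i) := by
          intro i
          simp only [newbit, dif_pos h, if_pos h1]
        simp only [e, fin3_ind_eq, h1]
        rfl
      · have h2 : sig r G₀ x = 2 := by tauto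
        have e : ∀ i, newbit G₀ ℓ i x = (ℓ ⟨x, h⟩ ≠ i) := by
          intro i
          simp only [newbit, dif_pos h, if_neg h1]
        simp only [e, fin3_ind_ne, h2]
        rfl
    · have e : ∀ i, newbit G₀ ℓ i x = bit r G₀ i x := by
        intro i
        simp only [newbit, dif_neg h]
      simp only [e]
      exact (sig_cast r G₀ x).symm
  exact_mod_cast key

/-- The class as a subtype of realizations. -/
abbrev Cls (r : Fin 3 → Fin n) (G₀ : Om d) :=
  {G : Om d // ∀ w z : Out r, adj G.1 w.1 z.1 ↔ adj G₀.1 w.1 z.1}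

/-- The graph of a labeling. -/
noncomputable def psi (hr : Function.Injective r) (G₀ : Om d)
    (ℓ : Lab (sgn (r := r) G₀.1) (eR r d G₀.1)) : Cls r G₀ :=
  ⟨⟨ofBits G₀.1 (newbit G₀.1 ℓ.1), ofBits_mem hr G₀.2 _ (newbit_col G₀.1 ℓ.1) (by
    intro i
    rw [sum_newbit, ℓ.2 i, eR]
    ring)⟩, fun w z => ofBits_out _ _ w z⟩

lemma bit_psi (hr : Function.Injective r) (G₀ : Om d)
    (ℓ : Lab (sgn (r := r) G₀.1) (eR r d G₀.1)) (i : Fin 3) (x : Col r) :
    bit r (psi hr G₀ ℓ).1.1 i x ↔ newbit G₀.1 ℓ.1 i x :=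
  bit_ofBits hr _ _ i x

lemma newbit_iff (G₀ : Finset (Edge n)) (ℓ ℓ' : Act (r := r) G₀ → Fin 3) (i : Fin 3) :
    (∀ x, newbit G₀ ℓ i x ↔ newbit G₀ ℓ' i x) ↔ ∀ y, ℓ y = i ↔ ℓ' y = i := by
  constructor
  · intro h y
    have h1 := h y.1
    have hy := y.2
    have e : ∀ ℓ'' : Act (r := r) G₀ → Fin 3, newbit G₀ ℓ'' i y.1
        = (if sig r G₀ y.1 = 1 then ℓ'' y = i else ℓ'' y ≠ i) := by
      intro ℓ''
      simp only [newbit, dif_pos hy]
    rw [e, e] at h1
    by_cases h2 : sig r G₀ y.1 = 1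
    · rw [if_pos h2, if_pos h2] at h1
      exact h1
    · rw [if_neg h2, if_neg h2] at h1
      exact not_iff_not.1 h1
  · intro h x
    by_cases hx : sig r G₀ x = 1 ∨ sig r G₀ x = 2
    · by_cases h2 : sig r G₀ x = 1
      · simp only [newbit, dif_pos hx, if_pos h2]
        exact h ⟨x, hx⟩
      · simp only [newbit, dif_pos hx, if_neg h2, ne_eq]
        exact not_congr (h ⟨x, hx⟩)
    · simp only [newbit, dif_neg hx]

lemma psi_injective (hr : Function.Injective r) (G₀ : Om d) :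
    Function.Injective (psi hr G₀) := by
  intro ℓ ℓ' h
  apply Subtype.ext
  funext y
  have h1 : ∀ i x, newbit G₀.1 ℓ.1 i x ↔ newbit G₀.1 ℓ'.1 i x := by
    intro i x
    rw [← bit_psi hr G₀ ℓ, ← bit_psi hr G₀ ℓ', h]
  have h2 : ∀ i, ℓ.1 y = i ↔ ℓ'.1 y = i := fun i => (newbit_iff G₀.1 ℓ.1 ℓ'.1 i).1 (h1 i) y
  exact (h2 _).2 rfl

lemma fin3_exists_one (P : Fin 3 → Prop) (h : (univ.filter P).card = 1) :
    ∃ i, ∀ j, P j ↔ i = j := by
  obtain ⟨i, hi⟩ := Finset.card_eq_one.1 h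
  refine ⟨i, fun j => ?_⟩
  have := Finset.ext_iff.1 hi j
  simp only [mem_filter, mem_univ, true_and, mem_singleton] at this
  rw [this]
  exact eq_comm

lemma fin3_exists_two (P : Fin 3 → Prop) (h : (univ.filter P).card = 2) :
    ∃ i, ∀ j, P j ↔ i ≠ j := by
  have h1 : (univ.filter fun j => ¬ P j).card = 1 := by
    have := Finset.card_filter_add_card_filter_not (s := (univ : Finset (Fin 3))) P
    simp only [card_univ, Fintype.card_fin] at this
    omega
  obtain ⟨i, hi⟩ := fin3_exists_one (fun j => ¬ P j) (by convert h1)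
  refine ⟨i, fun j => ?_⟩
  have := hi j
  rw [ne_eq, ← this, not_not]

lemma psi_surjective (hr : Function.Injective r) (G₀ : Om d) :
    Function.Surjective (psi hr G₀) := by
  rintro ⟨G, hfr⟩
  have hsig := sig_eq hr G.2 G₀.2 hfr
  -- the labels of `G`
  have hex : ∀ y : Act (r := r) G₀.1, ∃ i : Fin 3,
      if sig r G₀.1 y.1 = 1 then ∀ j, bit r G.1 j y.1 ↔ i = j else ∀ j, bit r G.1 j y.1 ↔ i ≠ j := by
    intro y
    have hy := y.2
    by_cases h1 : sig r G₀.1 y.1 = 1
    · have := hsig y.1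
      rw [h1] at this
      obtain ⟨i, hi⟩ := fin3_exists_one _ this
      exact ⟨i, by rw [if_pos h1]; exact hi⟩
    · have h2 : sig r G₀.1 y.1 = 2 := by tauto
      have := hsig y.1
      rw [h2] at this
      obtain ⟨i, hi⟩ := fin3_exists_two _ this
      exact ⟨i, by rw [if_neg h1]; exact hi⟩
  choose ℓ hℓ using hex
  have hbits : ∀ i x, newbit G₀.1 ℓ i x ↔ bit r G.1 i x := by
    intro i x
    by_cases hx : sig r G₀.1 x = 1 ∨ sig r G₀.1 x = 2
    · have := hℓ ⟨x, hx⟩
      by_cases h1 : sig r G₀.1 x = 1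
      · rw [if_pos h1] at this
        simp only [newbit, dif_pos hx, if_pos h1]
        exact (this i).symm
      · rw [if_neg h1] at this
        simp only [newbit, dif_pos hx, if_neg h1]
        exact (this i).symm
    · simp only [newbit, dif_neg hx]
      rcases sig_inactive hx with h0 | h3
      · have h4 : sig r G.1 x = 0 := (hsig x).trans h0
        exact iff_of_false (bit_of_sig_zero h0 i) (bit_of_sig_zero h4 i)
      · have h4 : sig r G.1 x = 3 := (hsig x).trans h3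
        exact iff_of_true (bit_of_sig_three h3 i) (bit_of_sig_three h4 i)
  have hlab : ∀ i, ∑ y ∈ univ.filter (fun y => ℓ y = i), sgn G₀.1 y = eR r d G₀.1 i := by
    intro i
    have h1 := sum_newbit G₀.1 ℓ i
    have h2 : ∑ x, ind (newbit G₀.1 ℓ i x) = ∑ x, ind (bit r G.1 i x) :=
      Finset.sum_congr rfl fun x _ => ind_congr (hbits i x)
    have h3 := deg_row hr G.1 i
    rw [(mem_realizations.1 G.2) (r i), hsig none] at h3
    rw [eR]
    linarith
  refine ⟨⟨ℓ, hlab⟩, ?_⟩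
  apply Subtype.ext
  apply Subtype.ext
  apply ext_bits hr
  · intro w z
    show adj (ofBits G₀.1 _) w.1 z.1 ↔ adj G.1 w.1 z.1
    rw [ofBits_out, hfr]
  · intro i x
    have := bit_psi hr G₀ ⟨ℓ, hlab⟩ i x
    show bit r (psi hr G₀ ⟨ℓ, hlab⟩).1.1 i x ↔ _
    rw [this]
    exact hbits i x

/-- Rows keys against pair keys. -/
lemma psi_key (hr : Function.Injective r) (G₀ : Om d)
    (ℓ ℓ' : Lab (sgn (r := r) G₀.1) (eR r d G₀.1)) (i : Fin 3) :
    frz (Xpair (r (i + 1)) (r (i + 2))) (psi hr G₀ ℓ).1.1 =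
        frz (Xpair (r (i + 1)) (r (i + 2))) (psi hr G₀ ℓ').1.1 ↔
      rowKey i ℓ = rowKey i ℓ' := by
  have hfr : ∀ w z : Out r, adj (psi hr G₀ ℓ).1.1 w.1 z.1 ↔ adj (psi hr G₀ ℓ').1.1 w.1 z.1 := by
    intro w z
    rw [(psi hr G₀ ℓ).2, (psi hr G₀ ℓ').2]
  rw [frz_pair_iff hr hfr]
  simp only [bit_psi]
  rw [newbit_iff]
  constructor
  · intro h
    ext y
    simp only [rowKey, mem_filter, mem_univ, true_and]
    exact h y
  · intro h y
    have := Finset.ext_iff.1 h y
    simpa [rowKey] using this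

end TF

lemma Xpair_comm (a b : Fin n) : Xpair a b = Xpair b a := by
  funext u v
  simp only [Xpair, eq_iff_iff]
  tauto

/-- Identification of a triple class with a labeling model. -/
theorem tripleFiber_equiv {a b c : Fin n} (hab : a ≠ b) (hac : a ≠ c) (hbc : b ≠ c) (G₀ : Om d) :
    ∃ (C : Type) (_ : Fintype C) (s : C → ℤ) (e : Fin 3 → ℤ) (_ : ∀ x, s x = 1 ∨ s x = -1)
      (Φ : TClass a b c G₀ ≃ Lab s e),
      (∀ G G' : TClass a b c G₀, pk b c G.1 = pk b c G'.1 ↔ rowKey 0 (Φ G) = rowKey 0 (Φ G')) ∧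
      (∀ G G' : TClass a b c G₀, pk a c G.1 = pk a c G'.1 ↔ rowKey 1 (Φ G) = rowKey 1 (Φ G')) ∧
      (∀ G G' : TClass a b c G₀, pk a b G.1 = pk a b G'.1 ↔ rowKey 2 (Φ G) = rowKey 2 (Φ G')) := by
  let r : Fin 3 → Fin n := ![a, b, c]
  have hr : Function.Injective r := by
    intro i j h
    fin_cases i <;> fin_cases j <;> simp_all [r, eq_comm]
  have hout : ∀ v : Fin n, (∀ i, v ≠ r i) ↔ (v ≠ a ∧ v ≠ b ∧ v ≠ c) := by
    intro v
    simp [Fin.forall_fin_succ, r]
  have hcls : ∀ G : Om d, frz (Xtriple a b c) G.1 = frz (Xtriple a b c) G₀.1 ↔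
      ∀ w z : TF.Out r, adj G.1 w.1 z.1 ↔ adj G₀.1 w.1 z.1 := by
    intro G
    rw [frz_eq_iff]
    constructor
    · intro h w z
      apply h
      have h1 := (hout w.1).1 w.2
      have h2 := (hout z.1).1 z.2
      simp only [Xtriple]
      tauto
    · intro h u v huv
      simp only [Xtriple, not_or] at huv
      exact h ⟨u, (hout u).2 ⟨huv.1, huv.2.1, huv.2.2.1⟩⟩ ⟨v, (hout v).2 huv.2.2.2⟩
  let E₁ : TClass a b c G₀ ≃ TF.Cls r G₀ := Equiv.subtypeEquivRight hcls
  let E₂ : Lab (TF.sgn (r := r) G₀.1) (TF.eR r d G₀.1) ≃ TF.Cls r G₀ :=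
    Equiv.ofBijective (TF.psi hr G₀) ⟨TF.psi_injective hr G₀, TF.psi_surjective hr G₀⟩
  let Φ : TClass a b c G₀ ≃ Lab (TF.sgn (r := r) G₀.1) (TF.eR r d G₀.1) := E₁.trans E₂.symm
  have hΦ : ∀ G : TClass a b c G₀, (TF.psi hr G₀ (Φ G)).1 = G.1 := by
    intro G
    have : E₂ (Φ G) = E₁ G := by
      simp [Φ]
    have h2 := congrArg Subtype.val this
    exact h2
  have key : ∀ (i : Fin 3) (G G' : TClass a b c G₀),
      frz (Xpair (r (i + 1)) (r (i + 2))) G.1.1 = frz (Xpair (r (i + 1)) (r (i + 2))) G'.1.1 ↔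
        rowKey i (Φ G) = rowKey i (Φ G') := by
    intro i G G'
    rw [← TF.psi_key hr G₀, hΦ, hΦ]
  refine ⟨TF.Act (r := r) G₀.1, inferInstance, TF.sgn G₀.1, TF.eR r d G₀.1, TF.sgn_cases G₀.1, Φ,
    ?_, ?_, ?_⟩
  · intro G G'
    exact key 0 G G'
  · intro G G'
    have := key 1 G G'
    have e1 : r (1 + 1) = c := rfl
    have e2 : r (1 + 2) = a := rfl
    rw [e1, e2, Xpair_comm] at this
    exact this
  · intro G G'
    exact key 2 G G'

section Transport

variable {α β K K' L : Type*} [Fintype α] [Fintype β]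

/-- Transport of a conditional average to a model of a class coarser than the key. -/
lemma cond_transport (κ : α → K) (Kk : α → L) (x₀ : α) (hκ : ∀ x y, κ x = κ y → Kk x = Kk y)
    (Φ : {x // Kk x = Kk x₀} ≃ β) (κ' : β → K')
    (hΦ : ∀ x y, κ x.1 = κ y.1 ↔ κ' (Φ x) = κ' (Φ y)) (f : α → ℝ) (x : {x // Kk x = Kk x₀}) :
    cond κ f x.1 = cond κ' (fun b => f (Φ.symm b).1) (Φ x) := by
  have hmem : ∀ b, b ∈ fib κ' (Φ x) → (Φ.symm b).1 ∈ fib κ x.1 := by
    intro b hb
    rw [mem_fib] at hb ⊢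
    rw [hΦ]
    simpa using hb
  have hsurj : ∀ y ∈ fib κ x.1, ∃ b, ∃ (_ : b ∈ fib κ' (Φ x)), (Φ.symm b).1 = y := by
    intro y hy
    rw [mem_fib] at hy
    have hyc : Kk y = Kk x₀ := (hκ _ _ hy).trans x.2
    refine ⟨Φ ⟨y, hyc⟩, ?_, by simp⟩
    rw [mem_fib]
    exact (hΦ ⟨y, hyc⟩ x).1 hy
  have hinj : ∀ b₁ ∈ fib κ' (Φ x), ∀ b₂ ∈ fib κ' (Φ x), (Φ.symm b₁).1 = (Φ.symm b₂).1 → b₁ = b₂ := by
    intro b₁ _ b₂ _ h
    exact Φ.symm.injective (Subtype.ext h)
  have hsum : ∑ b ∈ fib κ' (Φ x), f (Φ.symm b).1 = ∑ y ∈ fib κ x.1, f y :=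
    Finset.sum_bij (fun b _ => (Φ.symm b).1) hmem hinj hsurj (fun _ _ => rfl)
  have hcard : (fib κ' (Φ x)).card = (fib κ x.1).card :=
    Finset.card_bij (fun b _ => (Φ.symm b).1) hmem hinj hsurj
  simp only [cond]
  rw [hsum, hcard]

end Transport

lemma pk_class {a b c : Fin n} (hab : (a = a ∨ a = b ∨ a = c) ∧ (b = a ∨ b = b ∨ b = c)) {G G' : Om d}
    (h : pk a b G = pk a b G') :
    frz (Xtriple a b c) G.1 = frz (Xtriple a b c) G'.1 := by
  rw [frz_eq_iff] at h ⊢
  intro u v huv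
  apply h
  rintro ⟨h1, _⟩
  apply huv
  simp only [Xtriple]
  tauto

/-- The lemma `T ≥ 0`, for one triple. -/
theorem T_lemma {a b c : Fin n} (hab : a ≠ b) (hac : a ≠ c) (hbc : b ≠ c) (f : Om d → ℝ) :
    0 ≤ ip (Qp a b f) (Qp a c f) + ip (Qp a b f) (Qp b c f) + ip (Qp a c f) (Qp b c f) := by
  let Kk : Om d → (Fin n → Fin n → Prop) := fun G => frz (Xtriple a b c) G.1
  let h : Om d → ℝ := fun G =>
    Qp a b f G * Qp a c f G + Qp a b f G * Qp b c f G + Qp a c f G * Qp b c f G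
  have hsum : ip (Qp a b f) (Qp a c f) + ip (Qp a b f) (Qp b c f) + ip (Qp a c f) (Qp b c f)
      = ∑ G, h G := by
    simp only [ip, h, Finset.sum_add_distrib]
  rw [hsum]
  have hclass : ∀ G₀ : Om d, 0 ≤ ∑ G ∈ univ.filter (fun G => Kk G = Kk G₀), h G := by
    intro G₀
    obtain ⟨C, iC, s, e, hs, Φ, h0, h1, h2⟩ := tripleFiber_equiv hab hac hbc G₀
    have e1 : ∑ G ∈ univ.filter (fun G => Kk G = Kk G₀), h G = ∑ G : TClass a b c G₀, h G.1 :=
      Finset.sum_subtype _ (by simp [Kk]) h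
    rw [e1, ← Φ.symm.sum_comp]
    let F : Lab s e → ℝ := fun ℓ => f (Φ.symm ℓ).1
    have hQ2 : ∀ ℓ, Qp a b f (Φ.symm ℓ).1 = Qc (rowKey 2) F ℓ := by
      intro ℓ
      have := cond_transport (pk a b) Kk G₀
        (fun x y hxy => pk_class (c := c) (by tauto) hxy) Φ (rowKey 2) h2 f (Φ.symm ℓ)
      simp only [Equiv.apply_symm_apply] at this
      simp only [Qc, this, F]
    have hQ1 : ∀ ℓ, Qp a c f (Φ.symm ℓ).1 = Qc (rowKey 1) F ℓ := by
      intro ℓ
      have := cond_transport (pk a c) Kk G₀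
        (fun x y hxy => by
          rw [frz_eq_iff] at hxy ⊢
          intro u v huv
          apply hxy
          rintro ⟨h1, _⟩
          apply huv
          simp only [Xtriple]
          tauto) Φ (rowKey 1) h1 f (Φ.symm ℓ)
      simp only [Equiv.apply_symm_apply] at this
      simp only [Qc, this, F]
    have hQ0 : ∀ ℓ, Qp b c f (Φ.symm ℓ).1 = Qc (rowKey 0) F ℓ := by
      intro ℓ
      have := cond_transport (pk b c) Kk G₀
        (fun x y hxy => by
          rw [frz_eq_iff] at hxy ⊢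
          intro u v huv
          apply hxy
          rintro ⟨h1, _⟩
          apply huv
          simp only [Xtriple]
          tauto) Φ (rowKey 0) h0 f (Φ.symm ℓ)
      simp only [Equiv.apply_symm_apply] at this
      simp only [Qc, this, F]
    have main := triple_abstract hs F
    have e2 : ∑ ℓ, h (Φ.symm ℓ).1 = ip (Qc (rowKey 0) F) (Qc (rowKey 1) F) +
        ip (Qc (rowKey 0) F) (Qc (rowKey 2) F) + ip (Qc (rowKey 1) F) (Qc (rowKey 2) F) := by
      simp only [ip, h, hQ0, hQ1, hQ2, ← Finset.sum_add_distrib]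
      apply Finset.sum_congr rfl
      intro ℓ _
      ring
    rw [e2]
    exact main
  rw [← Finset.sum_fiberwise_of_maps_to (s := univ) (t := univ.image Kk) (g := Kk)
    (fun x _ => Finset.mem_image_of_mem _ (mem_univ x))]
  apply Finset.sum_nonneg
  intro k hk
  obtain ⟨G₀, _, rfl⟩ := Finset.mem_image.1 hk
  exact hclass G₀


end Crest.Agent.Lib.SW
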